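import Crest.Statements.S0066
import Crest.Agent.Lib.S66.Final

set_option autoImplicit false
open Crest Crest.CombinatoricsR

namespace Crest.Agent.S0066

open Crest.Agent.Lib.S66 in
/-- There is a fixed 66 × 66 binary pattern H such that for every h ≥ 1, with n = (386h + 2) · 2^h and ε = (386h + 2)⁻², some n × n binary matrix A is ε-far from free of ordered copies of H (every n × n binary matrix without an ordered copy of H differs from A in at least ε · n² cells) while the number of ordered copies of H in A is at most ε · 2^(-h) · n^132. An ordered copy picks 66 rows and 66 columns in increasing order on which A coincides with H, zeros included. -/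
theorem result :
    ∃ H : Fin 66 → Fin 66 → Bool, ∀ h : ℕ, 1 ≤ h →
      ∃ A : Fin ((386 * h + 2) * 2 ^ h) → Fin ((386 * h + 2) * 2 ^ h) → Bool,
        (∀ B : Fin ((386 * h + 2) * 2 ^ h) → Fin ((386 * h + 2) * 2 ^ h) → Bool,
          Crest.CombinatoricsR.OrderedMatrix.orderedCopyCount H B = 0 →
            ((386 * (h : ℝ) + 2) ^ 2)⁻¹ * (((386 * h + 2) * 2 ^ h : ℕ) : ℝ) ^ 2 ≤
              ((Finset.univ.filter (fun rc : Fin ((386 * h + 2) * 2 ^ h) × Fin ((386 * h + 2) * 2 ^ h) =>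
                A rc.1 rc.2 ≠ B rc.1 rc.2)).card : ℝ)) ∧
        (Crest.CombinatoricsR.OrderedMatrix.orderedCopyCount H A : ℝ) /
            (((386 * h + 2) * 2 ^ h : ℕ) : ℝ) ^ 132 ≤
          ((386 * (h : ℝ) + 2) ^ 2)⁻¹ * (2 : ℝ)⁻¹ ^ h := by
  refine ⟨H66, fun h hh => ?_⟩
  let eR := Fintype.orderIsoFinOfCardEq (Row h (drOf h)) (card_row hh)
  let eC := Fintype.orderIsoFinOfCardEq (Col h (dcOf h)) (card_col hh)
  have ha : (0 : ℝ) < 386 * (h : ℝ) + 2 := by positivity
  have hs : (0 : ℝ) < (2 : ℝ) ^ h := by positivity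
  have hcast : (((386 * h + 2) * 2 ^ h : ℕ) : ℝ) = (386 * (h : ℝ) + 2) * (2 : ℝ) ^ h := by
    push_cast; ring
  refine ⟨fun i j => Am (eR i) (eC j), ?_, ?_⟩
  · intro B hB
    have h1 := far_bound hh (dr_ge hh) (dc_ge hh) eR eC B hB
    have h2 : (2 ^ h) ^ 2 ≤ (Finset.univ.filter
        (fun rc : Fin ((386 * h + 2) * 2 ^ h) × Fin ((386 * h + 2) * 2 ^ h) =>
          Am (eR rc.1) (eC rc.2) ≠ B rc.1 rc.2)).card := by
      convert h1
    have h3 : ((386 * (h : ℝ) + 2) ^ 2)⁻¹ * (((386 * h + 2) * 2 ^ h : ℕ) : ℝ) ^ 2 =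
        ((2 : ℝ) ^ h) ^ 2 := by
      rw [hcast]
      field_simp
    rw [h3]
    exact_mod_cast h2
  · have h1 := count_bound eR eC
    have h2 : (Crest.CombinatoricsR.OrderedMatrix.orderedCopyCount H66
        (fun i j => Am (eR i) (eC j)) : ℝ) ≤
        (2 : ℝ) ^ h * ((((386 * h + 2) * 2 ^ h : ℕ) : ℝ) ^ 65 *
          (((386 * h + 2) * 2 ^ h : ℕ) : ℝ) ^ 65) := by
      exact_mod_cast h1
    rw [hcast] at h2 ⊢
    rw [div_le_iff₀ (by positivity)]
    refine h2.trans (le_of_eq ?_)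
    have h4 : (2 : ℝ)⁻¹ ^ h = ((2 : ℝ) ^ h)⁻¹ := by
      rw [inv_pow]
    rw [h4]
    field_simp

end Crest.Agent.S0066
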