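import Crest.Statements.S0077
import Crest.Agent.Lib.SymRusso

set_option autoImplicit false
set_option linter.unusedVariables false
set_option linter.unusedTactic false
open Crest Crest.CombinatoricsR

namespace Crest.Agent.S0077

open Finset Crest.Agent.Lib.BiasedCube Crest.Agent.Lib.BiasedBonami Crest.Agent.Lib.BlockSym
open Crest.Agent.Lib.SymThreshold Crest.Agent.Lib.SymMain Crest.Agent.Lib.SymNumeric
open Crest.Agent.Lib.SymTransfer Crest.Agent.Lib.SymRusso
open Crest.CombinatoricsR.RandomGraph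

/-- the two end points of a coin position. -/
def vt {n : ℕ} (z : EdgeSlot n) : Finset (Fin n) := z.1.toFinset

lemma vt_card {n : ℕ} (z : EdgeSlot n) : (vt z).card = 2 :=
  Sym2.card_toFinset_of_not_isDiag z.1 z.2

lemma vt_inj {n : ℕ} : Function.Injective (vt (n := n)) := by
  intro z z' h
  apply Subtype.ext
  apply Sym2.ext
  intro a
  rw [← Sym2.mem_toFinset, ← Sym2.mem_toFinset]
  change a ∈ vt z ↔ a ∈ vt z'
  rw [h]

/-- relabelling of coin positions. -/
def edgePerm {n : ℕ} (σ : Equiv.Perm (Fin n)) : Equiv.Perm (EdgeSlot n) where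
  toFun z := ⟨z.1.map σ, by rw [Sym2.isDiag_map σ.injective]; exact z.2⟩
  invFun z := ⟨z.1.map σ.symm, by rw [Sym2.isDiag_map σ.symm.injective]; exact z.2⟩
  left_inv := by
    intro z
    apply Subtype.ext
    simp [Sym2.map_map]
  right_inv := by
    intro z
    apply Subtype.ext
    simp [Sym2.map_map]

lemma graphOf_adj {n : ℕ} (ω : EdgeSlot n → Bool) (a b : Fin n) :
    (graphOf ω).Adj a b ↔ ∃ h : ¬ (s(a, b) : Sym2 (Fin n)).IsDiag, ω ⟨s(a, b), h⟩ = true := by
  unfold graphOf
  rw [SimpleGraph.fromEdgeSet_adj]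
  constructor
  · rintro ⟨h, -⟩
    exact h
  · intro h
    refine ⟨h, ?_⟩
    obtain ⟨h1, -⟩ := h
    exact fun hab => h1 (Sym2.mk_isDiag_iff.mpr hab)

lemma graphOf_comp {n : ℕ} (σ : Equiv.Perm (Fin n)) (hσ : ∀ a, σ (σ a) = a) (ω : EdgeSlot n → Bool) :
    graphOf (ω ∘ edgePerm σ) = (graphOf ω).map σ.toEmbedding := by
  ext a b
  rw [SimpleGraph.map_adj, graphOf_adj]
  constructor
  · rintro ⟨h, hω⟩
    refine ⟨σ a, σ b, ?_, hσ a, hσ b⟩
    rw [graphOf_adj]
    refine ⟨?_, ?_⟩
    · rw [Sym2.mk_isDiag_iff]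
      intro hab
      exact h (Sym2.mk_isDiag_iff.mpr (σ.injective hab))
    · exact hω
  · rintro ⟨u, v, huv, rfl, rfl⟩
    obtain ⟨h, hω⟩ := (graphOf_adj ω u v).mp huv
    refine ⟨?_, ?_⟩
    · rw [Sym2.mk_isDiag_iff]
      intro hab
      apply h
      rw [Sym2.mk_isDiag_iff]
      exact σ.injective hab
    · have : (edgePerm σ) ⟨s(σ.toEmbedding u, σ.toEmbedding v), by
          rw [Sym2.mk_isDiag_iff]
          intro hab
          apply h
          rw [Sym2.mk_isDiag_iff]
          exact σ.injective hab⟩ = ⟨s(u, v), h⟩ := by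
        apply Subtype.ext
        simp [edgePerm, hσ]
      simp only [Function.comp]
      rw [this]
      exact hω

/-- the Boolean function attached to a graph property. -/
noncomputable def fP {n : ℕ} (P : Set (SimpleGraph (Fin n))) (ω : EdgeSlot n → Bool) : Bool :=
  haveI := Classical.dec (graphOf ω ∈ P)
  decide (graphOf ω ∈ P)

lemma fP_eq_true {n : ℕ} (P : Set (SimpleGraph (Fin n))) (ω : EdgeSlot n → Bool) :
    fP P ω = true ↔ graphOf ω ∈ P := by
  simp [fP]

lemma gnpProb_eq {n : ℕ} (P : Set (SimpleGraph (Fin n))) (x : ℝ) :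
    gnpProb n x P = Ex x (boolF (fP P)) := by
  unfold gnpProb
  rw [← prob_eq_Ex]
  congr 1
  ext ω
  exact (fP_eq_true P ω).symm

lemma boolF_fP {n : ℕ} (P : Set (SimpleGraph (Fin n))) (ω : EdgeSlot n → Bool) (hω : graphOf ω ∈ P) :
    boolF (fP P) ω = 1 := by
  simp [boolF, (fP_eq_true P ω).mpr hω]

lemma boolF_fP' {n : ℕ} (P : Set (SimpleGraph (Fin n))) (ω : EdgeSlot n → Bool) (hω : graphOf ω ∉ P) :
    boolF (fP P) ω = 0 := by
  have : ¬ fP P ω = true := fun h => hω ((fP_eq_true P ω).mp h)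
  simp [boolF, this]

lemma swapSym {n : ℕ} (P : Set (SimpleGraph (Fin n)))
    (hsymm : ∀ σ : Equiv.Perm (Fin n), ∀ G : SimpleGraph (Fin n), G ∈ P → G.map σ.toEmbedding ∈ P) :
    SwapSym (vt (n := n)) (boolF (fP P)) := by
  intro u u'
  refine ⟨edgePerm (Equiv.swap u u'), ?_, ?_⟩
  · intro z
    ext a
    simp only [vt, Sym2.mem_toFinset, mem_image, edgePerm, Equiv.coe_fn_mk, Sym2.mem_map]
  · intro x
    have hinv : ∀ a, (Equiv.swap u u') ((Equiv.swap u u') a) = a := fun a => Equiv.swap_apply_self u u' a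
    by_cases hx : graphOf x ∈ P
    · have h1 : graphOf (x ∘ edgePerm (Equiv.swap u u')) ∈ P := by
        rw [graphOf_comp _ hinv]
        exact hsymm _ _ hx
      rw [boolF_fP P _ h1, boolF_fP P _ hx]
    · have h1 : graphOf (x ∘ edgePerm (Equiv.swap u u')) ∉ P := by
        intro h1
        apply hx
        have h2 := hsymm (Equiv.swap u u') _ h1
        rw [← graphOf_comp _ hinv] at h2
        have h3 : (x ∘ edgePerm (Equiv.swap u u')) ∘ edgePerm (Equiv.swap u u') = x := by
          funext z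
          simp only [Function.comp]
          congr 1
          apply Subtype.ext
          simp [edgePerm, Sym2.map_map, hinv]
        rwa [h3] at h2
      rw [boolF_fP' P _ h1, boolF_fP' P _ hx]

lemma graphOf_update_le {n : ℕ} (x : EdgeSlot n → Bool) (e : EdgeSlot n) :
    graphOf (Function.update x e false) ≤ graphOf (Function.update x e true) := by
  intro a b hab
  rw [graphOf_adj] at hab ⊢
  obtain ⟨h, hω⟩ := hab
  refine ⟨h, ?_⟩
  by_cases hz : (⟨s(a, b), h⟩ : EdgeSlot n) = e
  · rw [hz]; simp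
  · rw [Function.update_of_ne hz] at hω ⊢
    exact hω

lemma dd_nonneg {n : ℕ} (P : Set (SimpleGraph (Fin n)))
    (hmono : ∀ G G' : SimpleGraph (Fin n), G ≤ G' → G ∈ P → G' ∈ P) (e : EdgeSlot n)
    (x : EdgeSlot n → Bool) : 0 ≤ dd e (boolF (fP P)) x := by
  unfold dd
  by_cases h0 : graphOf (Function.update x e false) ∈ P
  · have h1 := hmono _ _ (graphOf_update_le x e) h0
    rw [boolF_fP P _ h0, boolF_fP P _ h1]; simp
  · rw [boolF_fP' P _ h0]
    by_cases h1 : graphOf (Function.update x e true) ∈ P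
    · rw [boolF_fP P _ h1]; simp
    · rw [boolF_fP' P _ h1]; simp

/-- the variance inequality with the explicit constant. -/
lemma var_le {n : ℕ} (hn : 2 ≤ n) (P : Set (SimpleGraph (Fin n)))
    (hsymm : ∀ σ : Equiv.Perm (Fin n), ∀ G : SimpleGraph (Fin n), G ∈ P → G.map σ.toEmbedding ∈ P)
    {x : ℝ} (hx0 : 0 < x) (hx1 : x < 1) :
    Ex x (boolF (fP P)) * (1 - Ex x (boolF (fP P))) ≤
      2 ^ 17 / Real.log n ^ 2 * ∑ e : EdgeSlot n, Inf x (boolF (fP P)) e := by
  have hL0 : 0 < Real.log n := Real.log_pos (by exact_mod_cast (by omega : 1 < n))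
  have hI0 : 0 ≤ ∑ e : EdgeSlot n, Inf x (boolF (fP P)) e :=
    sum_nonneg fun e _ => Inf_nonneg hx0 hx1 _ e
  have hvar : Ex x (boolF (fP P)) * (1 - Ex x (boolF (fP P))) =
      Ex x (boolF (fP P)) - Ex x (boolF (fP P)) ^ 2 := by ring
  rw [hvar]
  by_cases hL : 300 ≤ Real.log n
  · have h := bound_L_large (r := 2) (by norm_num) vt_card vt_inj hx0 hx1 _ (boolF_isBool (fP P))
      (swapSym P hsymm) hL
    have ha : (((2 : ℕ) : ℝ) / (((2 : ℕ) : ℝ) - 1)) = 2 := by norm_num
    rw [ha, Real.rpow_two] at h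
    have hC : Cr 2 = 4612 := by unfold Cr; norm_num
    rw [hC] at h
    refine le_trans h (mul_le_mul_of_nonneg_right ?_ hI0)
    apply div_le_div_of_nonneg_right (by norm_num) (by positivity)
  · push Not at hL
    refine le_trans (poincare hx0 hx1 _ (boolF_isBool (fP P))) (mul_le_mul_of_nonneg_right ?_ hI0)
    have hL2 : Real.log n ^ 2 ≤ 90000 := by nlinarith
    rw [le_div_iff₀ (by positivity)]
    have hν1 : x * (1 - x) ≤ 1 / 4 := nu_le
    have hν0 : 0 < x * (1 - x) := mul_pos hx0 (by linarith)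
    nlinarith

lemma weight_pos {n : ℕ} {x : ℝ} (hx0 : 0 < x) (hx1 : x < 1) (ω : EdgeSlot n → Bool) :
    0 < Crest.FinProb.bernoulliWeight x ω := by
  unfold Crest.FinProb.bernoulliWeight
  refine prod_pos fun i _ => ?_
  split_ifs <;> linarith

lemma graphOf_false {n : ℕ} : graphOf (fun _ : EdgeSlot n => false) = ⊥ := by
  ext a b
  rw [graphOf_adj]
  simp

lemma graphOf_true {n : ℕ} : graphOf (fun _ : EdgeSlot n => true) = ⊤ := by
  ext a b
  rw [graphOf_adj]
  simp [Sym2.mk_isDiag_iff]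

lemma Ex_lt_one {n : ℕ} (P : Set (SimpleGraph (Fin n))) (hbot : ⊥ ∉ P) {x : ℝ} (hx0 : 0 < x)
    (hx1 : x < 1) : Ex x (boolF (fP P)) < 1 := by
  have h1 : Ex x (fun ω => 1 - boolF (fP P) ω) = 1 - Ex x (boolF (fP P)) := by
    rw [Ex_sub x (fun _ => 1) (boolF (fP P)), Ex_one]
  have h2 : 0 < Ex x (fun ω => 1 - boolF (fP P) ω) := by
    unfold Ex
    have hnn : ∀ ω ∈ (univ : Finset (EdgeSlot n → Bool)),
        0 ≤ Crest.FinProb.bernoulliWeight x ω * (1 - boolF (fP P) ω) := by
      intro ω _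
      refine mul_nonneg (weight_pos hx0 hx1 ω).le ?_
      rcases boolF_isBool (fP P) ω with h | h <;> rw [h] <;> norm_num
    have h3 := single_le_sum hnn (mem_univ (fun _ : EdgeSlot n => false))
    have h4 : boolF (fP P) (fun _ : EdgeSlot n => false) = 0 :=
      boolF_fP' P _ (by rw [graphOf_false]; exact hbot)
    rw [h4] at h3
    have h5 := weight_pos (n := n) hx0 hx1 (fun _ => false)
    simp only [sub_zero, mul_one] at h3
    linarith
  linarith

lemma Ex_pos {n : ℕ} (P : Set (SimpleGraph (Fin n))) (htop : ⊤ ∈ P) {x : ℝ} (hx0 : 0 < x)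
    (hx1 : x < 1) : 0 < Ex x (boolF (fP P)) := by
  unfold Ex
  have hnn : ∀ ω ∈ (univ : Finset (EdgeSlot n → Bool)),
      0 ≤ Crest.FinProb.bernoulliWeight x ω * boolF (fP P) ω := by
    intro ω _
    refine mul_nonneg (weight_pos hx0 hx1 ω).le ?_
    rcases boolF_isBool (fP P) ω with h | h <;> rw [h] <;> norm_num
  have h3 := single_le_sum hnn (mem_univ (fun _ : EdgeSlot n => true))
  have h4 : boolF (fP P) (fun _ : EdgeSlot n => true) = 1 :=
    boolF_fP P _ (by rw [graphOf_true]; exact htop)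
  rw [h4] at h3
  have h5 := weight_pos (n := n) hx0 hx1 (fun _ => true)
  simp only [mul_one] at h3
  linarith

lemma Ex_zero {n : ℕ} (P : Set (SimpleGraph (Fin n))) (hbot : ⊥ ∉ P) :
    Ex 0 (boolF (fP P)) = 0 := by
  unfold Ex
  refine sum_eq_zero fun ω _ => ?_
  by_cases h : ∃ e, ω e = true
  · obtain ⟨e, he⟩ := h
    have : Crest.FinProb.bernoulliWeight 0 ω = 0 := by
      unfold Crest.FinProb.bernoulliWeight
      exact prod_eq_zero (mem_univ e) (by simp [he])
    rw [this, zero_mul]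
  · push Not at h
    have h' : ω = fun _ => false := by
      funext e
      simpa using h e
    rw [h', boolF_fP' P _ (by rw [graphOf_false]; exact hbot), mul_zero]

lemma Ex_one_top {n : ℕ} (P : Set (SimpleGraph (Fin n))) (htop : ⊤ ∈ P) :
    Ex 1 (boolF (fP P)) = 1 := by
  have h1 : Ex 1 (fun ω => 1 - boolF (fP P) ω) = 1 - Ex 1 (boolF (fP P)) := by
    rw [Ex_sub 1 (fun _ => 1) (boolF (fP P)), Ex_one]
  have h2 : Ex 1 (fun ω : EdgeSlot n → Bool => 1 - boolF (fP P) ω) = 0 := by
    unfold Ex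
    refine sum_eq_zero fun ω _ => ?_
    by_cases h : ∃ e, ω e = false
    · obtain ⟨e, he⟩ := h
      have : Crest.FinProb.bernoulliWeight 1 ω = 0 := by
        unfold Crest.FinProb.bernoulliWeight
        exact prod_eq_zero (mem_univ e) (by simp [he])
      rw [this, zero_mul]
    · push Not at h
      have h' : ω = fun _ => true := by
        funext e
        simpa using h e
      rw [h']
      beta_reduce
      rw [boolF_fP P _ (by rw [graphOf_true]; exact htop)]
      simp
  linarith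

/-- Let n ≥ 2 and let P be a family of simple graphs on n labelled vertices that is invariant under renaming vertices, closed under adding edges, non-empty and not everything; let 0 < ε < 1/2. If the binomial random graph with edge probability p ∈ [0, 1] lies in P with probability at least ε, then at every edge probability q ∈ [0, 1] with q ≥ p + 2^19 · log(1/(2ε)) / (log n)² it lies in P with probability at least 1 - ε: the threshold interval from ε to 1 - ε is at most that long. -/
theorem result (n : ℕ) (hn : 2 ≤ n)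
    (P : Set (SimpleGraph (Fin n)))
    (hsymm : ∀ σ : Equiv.Perm (Fin n), ∀ G : SimpleGraph (Fin n), G ∈ P → G.map σ.toEmbedding ∈ P)
    (hmono : ∀ G G' : SimpleGraph (Fin n), G ≤ G' → G ∈ P → G' ∈ P)
    (hne : P.Nonempty) (hnu : P ≠ Set.univ) (ε : ℝ) (hε0 : 0 < ε) (hε : ε < 1 / 2)
    (p q : ℝ) (hp0 : 0 ≤ p) (hp1 : p ≤ 1) (hq0 : 0 ≤ q) (hq1 : q ≤ 1)
    (hp : ε ≤ Crest.CombinatoricsR.RandomGraph.gnpProb n p P)
    (hq : p + 2 ^ 19 / Real.log n ^ 2 * Real.log (1 / (2 * ε)) ≤ q) :
    1 - ε ≤ Crest.CombinatoricsR.RandomGraph.gnpProb n q P := by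
  rw [gnpProb_eq] at hp ⊢
  have hL0 : 0 < Real.log n := Real.log_pos (by exact_mod_cast (by omega : 1 < n))
  have htop : (⊤ : SimpleGraph (Fin n)) ∈ P := by
    obtain ⟨G, hG⟩ := hne
    exact hmono G ⊤ le_top hG
  have hbot : (⊥ : SimpleGraph (Fin n)) ∉ P := by
    intro h
    apply hnu
    ext G
    simp only [Set.mem_univ, iff_true]
    exact hmono ⊥ G bot_le h
  have hlog : 0 < Real.log (1 / (2 * ε)) := by
    apply Real.log_pos
    rw [lt_div_iff₀ (by positivity)]
    linarith
  have hstep : 0 < 2 ^ 19 / Real.log n ^ 2 * Real.log (1 / (2 * ε)) := by positivity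
  have hpq : p < q := by linarith
  have hp_pos : 0 < p := by
    rcases hp0.lt_or_eq with h | h
    · exact h
    · exfalso
      rw [← h, Ex_zero P hbot] at hp
      linarith
  rcases hq1.lt_or_eq with hq1' | hq1'
  · -- main case
    have hin : ∀ x ∈ Set.Icc p q, 0 < x ∧ x < 1 := fun x hx =>
      ⟨lt_of_lt_of_le hp_pos hx.1, lt_of_le_of_lt hx.2 hq1'⟩
    have hmono' : ∀ x ∈ Set.Icc p q, ∑ e : EdgeSlot n, Ex x (dd e (boolF (fP P))) =
        ∑ e : EdgeSlot n, Inf x (boolF (fP P)) e := by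
      intro x _
      refine sum_congr rfl fun e _ => ?_
      unfold Inf
      refine Ex_congr x fun z => ?_
      rw [abs_of_nonneg (dd_nonneg P hmono e z)]
    have hlogit := logit_step (μ := fun y => Ex y (boolF (fP P)))
      (μ' := fun x => ∑ e : EdgeSlot n, Ex x (dd e (boolF (fP P))))
      (Q := 2 ^ 17 / Real.log n ^ 2) hpq.le (by positivity)
      (fun x hx => hasDerivAt_Ex (hin x hx).1 (hin x hx).2 _)
      (fun x hx => ⟨Ex_pos P htop (hin x hx).1 (hin x hx).2, Ex_lt_one P hbot (hin x hx).1 (hin x hx).2⟩)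
      (fun x hx => by
        rw [hmono' x hx]
        exact var_le hn P hsymm (hin x hx).1 (hin x hx).2)
    beta_reduce at hlogit
    have hqin : q ∈ Set.Icc p q := Set.right_mem_Icc.mpr hpq.le
    have hpin : p ∈ Set.Icc p q := Set.left_mem_Icc.mpr hpq.le
    refine logit_arith hε0 hε (Ex_pos P htop (hin q hqin).1 (hin q hqin).2)
      (Ex_lt_one P hbot (hin q hqin).1 (hin q hqin).2)
      (Ex_pos P htop (hin p hpin).1 (hin p hpin).2)
      (Ex_lt_one P hbot (hin p hpin).1 (hin p hpin).2) hp ?_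
    refine le_trans ?_ hlogit
    have hL2 : 0 < Real.log n ^ 2 := by positivity
    rw [le_div_iff₀ (by positivity)]
    have h1 : 4 * Real.log (1 / (2 * ε)) * (2 ^ 17 / Real.log n ^ 2) =
        2 ^ 19 / Real.log n ^ 2 * Real.log (1 / (2 * ε)) := by
      ring
    rw [h1]
    linarith
  · rw [hq1', Ex_one_top P htop]
    linarith

end Crest.Agent.S0077
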