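import Crest.Statements.S0078
import Crest.Agent.Lib.SymTransfer

set_option autoImplicit false
open Crest Crest.CombinatoricsR

namespace Crest.Agent.S0078

open Finset Crest.Agent.Lib.BiasedCube Crest.Agent.Lib.BiasedBonami Crest.Agent.Lib.BlockSym
open Crest.Agent.Lib.SymThreshold Crest.Agent.Lib.SymMain Crest.Agent.Lib.SymNumeric
open Crest.Agent.Lib.SymTransfer
open Crest.CombinatoricsR.HypergraphCube

/-- the relabelling of slots as a permutation. -/
def slotPerm {n r : ℕ} (σ : Equiv.Perm (Fin n)) : Equiv.Perm (HyperedgeSlot n r) where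
  toFun := relabelSlot σ
  invFun := relabelSlot σ.symm
  left_inv := by
    intro e
    apply Subtype.ext
    simp [relabelSlot, Finset.map_map]
  right_inv := by
    intro e
    apply Subtype.ext
    simp [relabelSlot, Finset.map_map]

lemma swapSym {n r : ℕ} (f : (HyperedgeSlot n r → Bool) → Bool) (hf : IsSymmetric f) :
    SwapSym (fun e : HyperedgeSlot n r => e.1) (boolF f) := by
  intro u u'
  refine ⟨slotPerm (Equiv.swap u u'), ?_, ?_⟩
  · intro e
    simp [slotPerm, relabelSlot, Finset.map_eq_image]
  · intro x
    have : f (x ∘ slotPerm (Equiv.swap u u')) = f x := hf (Equiv.swap u u') x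
    simp [boolF, this]

/-- For every r ≥ 3 there is a real constant C such that for all n ≥ r, all 0 < p < 1 and every Boolean function f of the simple r-uniform hypergraph on n labelled vertices that is invariant under renaming the vertices (no monotonicity assumed), the variance of f under independent edge-coins of bias p, namely P(f = true) · (1 - P(f = true)), is at most C · (log n)^(-r/(r-1)) times the total pivotal influence of f at bias p (natural logarithm). -/
theorem result (r : ℕ) (hr : 3 ≤ r) :
    ∃ C : ℝ, ∀ n : ℕ, r ≤ n → ∀ p : ℝ, 0 < p → p < 1 →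
      ∀ f : (Crest.CombinatoricsR.HypergraphCube.HyperedgeSlot n r → Bool) → Bool,
        Crest.CombinatoricsR.HypergraphCube.IsSymmetric f →
          Crest.CombinatoricsR.HypergraphCube.probTrue p f *
              (1 - Crest.CombinatoricsR.HypergraphCube.probTrue p f) ≤
            C / Real.log n ^ ((r : ℝ) / ((r : ℝ) - 1)) *
              Crest.CombinatoricsR.HypergraphCube.totalInfluence p f := by
  refine ⟨Cr r + 90000, ?_⟩
  intro n hn p hp0 hp1 f hf
  have hr2 : 2 ≤ r := by omega
  have hvert : ∀ e : HyperedgeSlot n r, (e.1).card = r := fun e => e.2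
  have hinj : Function.Injective (fun e : HyperedgeSlot n r => e.1) := Subtype.val_injective
  have hsym := swapSym f hf
  have hprob : probTrue p f = Ex p (boolF f) := prob_eq_Ex p f
  have hinf : totalInfluence p f = ∑ e, Inf p (boolF f) e := by
    unfold totalInfluence pivotalInfluence
    refine sum_congr rfl fun e _ => pivotal_eq_Inf p f e
  rw [hprob, hinf]
  have hvar : Ex p (boolF f) * (1 - Ex p (boolF f)) = Ex p (boolF f) - Ex p (boolF f) ^ 2 := by ring
  rw [hvar]
  have hI0 : 0 ≤ ∑ e, Inf p (boolF f) e := sum_nonneg fun e _ => Inf_nonneg hp0 hp1 _ e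
  have hrr : (2 : ℝ) ≤ r := by exact_mod_cast hr2
  have hCr0 : 0 ≤ Cr r := by
    unfold Cr; positivity
  by_cases hL : 300 ≤ Real.log n
  · refine le_trans (bound_L_large hr2 hvert hinj hp0 hp1 _ (boolF_isBool f) hsym hL)
      (mul_le_mul_of_nonneg_right ?_ hI0)
    apply div_le_div_of_nonneg_right (by linarith)
    exact Real.rpow_nonneg (by linarith) _
  · push Not at hL
    refine le_trans (poincare hp0 hp1 _ (boolF_isBool f)) (mul_le_mul_of_nonneg_right ?_ hI0)
    have hn3 : (3 : ℝ) ≤ n := by
      have : 3 ≤ n := by omega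
      exact_mod_cast this
    have hL1 : 1 ≤ Real.log n := by
      rw [Real.le_log_iff_exp_le (by linarith)]
      have := Real.exp_one_lt_d9
      linarith
    have ha2 : (r : ℝ) / ((r : ℝ) - 1) ≤ 2 := by
      rw [div_le_iff₀ (by linarith)]; linarith
    have hLa : Real.log n ^ ((r : ℝ) / ((r : ℝ) - 1)) ≤ 90000 := by
      have h1 := Real.rpow_le_rpow_of_exponent_le hL1 ha2
      have h2 : Real.log n ^ (2 : ℝ) = Real.log n ^ 2 := Real.rpow_two _
      rw [h2] at h1
      nlinarith
    have hLa0 : 0 < Real.log n ^ ((r : ℝ) / ((r : ℝ) - 1)) :=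
      Real.rpow_pos_of_pos (by linarith) _
    rw [le_div_iff₀ hLa0]
    have hν1 : p * (1 - p) ≤ 1 / 4 := nu_le
    have hν0 : 0 < p * (1 - p) := mul_pos hp0 (by linarith)
    nlinarith

end Crest.Agent.S0078
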