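import Crest.Statements.S0109
import Crest.Agent.Lib.OT.Telescoping
import Crest.Agent.Lib.OT.StepA
import Crest.Agent.Lib.OT.Identify
import Crest.Agent.Lib.OT.Key
import Crest.Agent.Lib.OT.Limit

set_option autoImplicit false
open MeasureTheory
open scoped ENNReal NNReal
open Crest.AnalysisR.OT
open Crest Crest.AnalysisR Crest.AnalysisR.OT

namespace Crest.Agent.S0109

open Crest.Agent.Lib.OT

/-- Fix d ≥ 2, a compact convex K ⊆ ℝᵈ with nonempty interior, ρ the uniform probability measure on K, and a nonempty compact Y ⊆ ℝᵈ. There is a constant C such that for all probability measures μ, ν carried by Y, all quadratic optimal transport maps Tμ from ρ to μ and Tν from ρ to ν, and every coupling π of μ and ν, ∫ ‖Tμ - Tν‖² dρ ≤ C · (∫ ‖y - z‖² dπ)^(1/3). With the best coupling: the L²(ρ) distance of the maps is at most √C times the cube root of the Wasserstein-2 distance of the targets. -/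
theorem result
    (d : ℕ) (hd : 2 ≤ d) (K : Set (EuclideanSpace ℝ (Fin d))) (hKc : IsCompact K) (hKv : Convex ℝ K)
    (hKi : (interior K).Nonempty) (Y : Set (EuclideanSpace ℝ (Fin d))) (hYc : IsCompact Y) (hYn : Y.Nonempty) :
    ∃ C : ℝ≥0, ∀ μ ν : Measure (EuclideanSpace ℝ (Fin d)), IsProbabilityOn Y μ → IsProbabilityOn Y ν →
      ∀ Tμ Tν : EuclideanSpace ℝ (Fin d) → EuclideanSpace ℝ (Fin d),
        IsOptimalMap (uniformProbOn K) μ Tμ → IsOptimalMap (uniformProbOn K) ν Tν →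
        ∀ π : Measure (EuclideanSpace ℝ (Fin d) × EuclideanSpace ℝ (Fin d)), IsPairCoupling μ ν π →
          ∫⁻ x, ‖Tμ x - Tν x‖ₑ ^ 2 ∂(uniformProbOn K) ≤ C * quadCost π ^ (1 / 3 : ℝ) := by
  -- the radius of `K`
  obtain ⟨x₀, hx₀⟩ := hKi
  obtain ⟨R₀, hR₀⟩ := hKc.isBounded.subset_closedBall x₀
  set R : ℝ := |R₀| + 1 with hR
  have hRpos : 0 < R := by positivity
  have hKR : K ⊆ Metric.closedBall x₀ R := hR₀.trans (Metric.closedBall_subset_closedBall (by
    have := le_abs_self R₀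
    linarith))
  have hKi' : (interior K).Nonempty := ⟨x₀, hx₀⟩
  -- the key bound
  have hkey : KeyBound K (2000 * R) := by
    intro ι _ A A' M hA hA' hM hAU hAU' hAd hAd' hMd hmid g hg hgb m hm hAm hAm' a
    exact key_stability hKc hKv hKi' hRpos hKR A A' M hA hA' hM hAU hAU' hAd hAd' hMd hmid g hg hgb
      m hm hAm hAm' a
  have hatom : AtomStability K ((2000 * R) ^ 2) :=
    atomStability_of_key hKc hKv hKi' (by positivity) hkey
  obtain ⟨L, hL⟩ := exists_limit_potentials hKc hKv hKi' hYc hYn (by omega) hatom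
  obtain ⟨CA, hCA⟩ := gradient_L2_le hKc hKv hKi' L
  set D : ℝ≥0 := ((2000 * R) ^ 2).toNNReal with hD
  refine ⟨CA * D ^ (1 / 3 : ℝ), ?_⟩
  intro μ ν hμ hν Tμ Tν hTμ hTν π hπ
  have hμprob := hμ.1
  have hπprob : IsProbabilityMeasure π := by
    constructor
    have h1 : (π.map Prod.fst) Set.univ = 1 := by rw [hπ.1]; exact measure_univ
    rwa [Measure.map_apply measurable_fst MeasurableSet.univ, Set.preimage_univ] at h1
  have hYm : MeasurableSet Y := hYc.isClosed.measurableSet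
  have hπY : π ((Y ×ˢ Y)ᶜ) = 0 := by
    have hsub : (Y ×ˢ Y)ᶜ ⊆ (Prod.fst ⁻¹' Yᶜ) ∪ (Prod.snd ⁻¹' Yᶜ) := by
      intro p hp
      simp only [Set.mem_compl_iff, Set.mem_prod, not_and_or] at hp
      simpa using hp
    refine measure_mono_null hsub (measure_union_null ?_ ?_)
    · rw [← Measure.map_apply measurable_fst hYm.compl, hπ.1]; exact hμ.2
    · rw [← Measure.map_apply measurable_snd hYm.compl, hπ.2]; exact hν.2
  obtain ⟨u, v, hu, hv, hcu, hcv, hGu, hGv, c, hc⟩ := hL π hπprob hπY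
  rw [hπ.1] at hGu
  rw [hπ.2] at hGv
  have hTu := optimal_ae_eq_gradient hKc hKv hKi' hYc hμ hu hcu hGu hTμ
  have hTv := optimal_ae_eq_gradient hKc hKv hKi' hYc hν hv hcv hGv hTν
  have hcongr : ∫⁻ x, ‖Tμ x - Tν x‖ₑ ^ 2 ∂(uniformProbOn K)
      = ∫⁻ x, ‖gradient u x - gradient v x‖ₑ ^ 2 ∂(uniformProbOn K) := by
    refine lintegral_congr_ae ?_
    filter_upwards [hTu, hTv] with x h1 h2
    rw [h1, h2]
  rw [hcongr]
  refine (hCA u v hu hv hcu hcv c).trans ?_
  rw [ENNReal.coe_mul, mul_assoc]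
  refine mul_le_mul_right ?_ _
  -- comparison of the real and extended costs
  have hcost : ENNReal.ofReal (∫ p, ‖p.1 - p.2‖ ^ 2 ∂π) ≤ quadCost π := by
    have h1 : ∫ p, ‖p.1 - p.2‖ ^ 2 ∂π = (quadCost π).toReal := by
      unfold quadCost
      rw [integral_eq_lintegral_of_nonneg_ae (Filter.Eventually.of_forall fun p => by positivity)
        (by fun_prop)]
      congr 2
      ext p
      rw [← ofReal_norm_eq_enorm, ENNReal.ofReal_pow (norm_nonneg _)]
    rw [h1]
    exact ENNReal.ofReal_toReal_le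
  have hnn : (0 : ℝ) ≤ 1 / 3 := by norm_num
  calc ENNReal.ofReal (∫ x, (u x - v x - c) ^ 2 ∂(uniformProbOn K)) ^ (1 / 3 : ℝ)
      ≤ (((D : ℝ≥0∞)) * quadCost π) ^ (1 / 3 : ℝ) := by
        refine ENNReal.rpow_le_rpow ?_ hnn
        calc ENNReal.ofReal (∫ x, (u x - v x - c) ^ 2 ∂(uniformProbOn K))
            ≤ ENNReal.ofReal ((2000 * R) ^ 2 * ∫ p, ‖p.1 - p.2‖ ^ 2 ∂π) :=
              ENNReal.ofReal_le_ofReal hc
          _ = (D : ℝ≥0∞) * ENNReal.ofReal (∫ p, ‖p.1 - p.2‖ ^ 2 ∂π) := by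
              rw [ENNReal.ofReal_mul (by positivity)]
              rfl
          _ ≤ (D : ℝ≥0∞) * quadCost π := by gcongr
    _ = ((D ^ (1 / 3 : ℝ) : ℝ≥0) : ℝ≥0∞) * quadCost π ^ (1 / 3 : ℝ) := by
        rw [ENNReal.mul_rpow_of_nonneg _ _ hnn, ENNReal.coe_rpow_of_nonneg _ hnn]

end Crest.Agent.S0109
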