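import Crest.Statements.S0110

set_option autoImplicit false
open MeasureTheory
open scoped ENNReal NNReal
open Crest.AnalysisR.OT
open Crest Crest.AnalysisR Crest.AnalysisR.OT

namespace Crest.Agent.S0110

section aux

variable {d : ℕ}

/-- the cube -/
abbrev Q (d : ℕ) : Set (EuclideanSpace ℝ (Fin d)) := {x : EuclideanSpace ℝ (Fin d) | ∀ i, |x i| ≤ 1}

/-- uniform measure on the cube -/
noncomputable abbrev rho (d : ℕ) : Measure (EuclideanSpace ℝ (Fin d)) := uniformProbOn (Q d)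

/-- closed box -/
def box (a b : Fin d → ℝ) : Set (EuclideanSpace ℝ (Fin d)) :=
  {x | ∀ i, x i ∈ Set.Icc (a i) (b i)}

lemma measurable_coord (i : Fin d) : Measurable (fun x : EuclideanSpace ℝ (Fin d) => x i) := by
  fun_prop

lemma measurableSet_box (a b : Fin d → ℝ) : MeasurableSet (box a b) := by
  have : box a b = ⋂ i, (fun x : EuclideanSpace ℝ (Fin d) => x i) ⁻¹' Set.Icc (a i) (b i) := by
    ext x; simp [box]
  rw [this]
  exact MeasurableSet.iInter fun i => (measurable_coord i) measurableSet_Icc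

lemma volume_box (a b : Fin d → ℝ) : volume (box a b) = ∏ i, ENNReal.ofReal (b i - a i) := by
  have h := (PiLp.volume_preserving_ofLp (Fin d)).measure_preimage
    (s := Set.Icc a b) measurableSet_Icc.nullMeasurableSet
  rw [Real.volume_Icc_pi] at h
  rw [← h]
  congr 1
  ext x
  simp [box, Set.mem_Icc, Pi.le_def, forall_and]

lemma Q_eq_box : Q d = box (fun _ => -1) (fun _ => 1) := by
  ext x
  simp [box, abs_le]

lemma measurableSet_Q : MeasurableSet (Q d) := by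
  rw [Q_eq_box]; exact measurableSet_box _ _

lemma volume_Q : volume (Q d) = ∏ _i : Fin d, ENNReal.ofReal 2 := by
  rw [Q_eq_box, volume_box]
  congr 1; ext i; norm_num

lemma volume_Q_ne_zero : volume (Q d) ≠ 0 := by
  rw [volume_Q]
  simp

lemma volume_Q_ne_top : volume (Q d) ≠ ∞ := by
  rw [volume_Q]
  exact ENNReal.prod_ne_top (fun _ _ => ENNReal.ofReal_ne_top)

instance rho_prob : IsProbabilityMeasure (rho d) := by
  constructor
  simp only [rho, uniformProbOn, Measure.smul_apply, Measure.restrict_apply MeasurableSet.univ,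
    Set.univ_inter, smul_eq_mul]
  exact ENNReal.inv_mul_cancel volume_Q_ne_zero volume_Q_ne_top

lemma rho_apply {s : Set (EuclideanSpace ℝ (Fin d))} (hs : MeasurableSet s) :
    rho d s = (volume (Q d))⁻¹ * volume (s ∩ Q d) := by
  simp only [rho, uniformProbOn, Measure.smul_apply, Measure.restrict_apply hs, smul_eq_mul]

lemma ae_rho_Q : ∀ᵐ x ∂(rho d), x ∈ Q d := by
  have : rho d = (volume (Q d))⁻¹ • volume.restrict (Q d) := rfl
  rw [ae_iff, this]
  simp only [Measure.smul_apply, smul_eq_mul]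
  have h2 : (volume.restrict (Q d)) {a | a ∉ Q d} = 0 := by
    rw [Measure.restrict_apply' measurableSet_Q]
    convert measure_empty (μ := (volume : Measure (EuclideanSpace ℝ (Fin d))))
    ext x; simp
  rw [h2, mul_zero]

lemma rho_box (a b : Fin d → ℝ) (ha : ∀ i, -1 ≤ a i) (hb : ∀ i, b i ≤ 1) :
    rho d (box a b) = ∏ i, ENNReal.ofReal ((b i - a i) / 2) := by
  rw [rho_apply (measurableSet_box a b)]
  by_cases hne : ∀ i, a i ≤ b i
  · have hsub : box a b ∩ Q d = box a b := by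
      apply Set.inter_eq_left.mpr
      intro x hx i
      have := hx i
      rw [abs_le]
      exact ⟨(ha i).trans this.1, this.2.trans (hb i)⟩
    rw [hsub, volume_box, volume_Q,
      ENNReal.prod_inv_distrib (fun _ _ _ _ _ => Or.inr ENNReal.ofReal_ne_top),
      ← Finset.prod_mul_distrib]
    refine Finset.prod_congr rfl fun i _ => ?_
    rw [div_eq_inv_mul, ENNReal.ofReal_mul (by norm_num), ENNReal.ofReal_inv_of_pos (by norm_num)]
  · push Not at hne
    obtain ⟨i, hi⟩ := hne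
    have he : box a b = ∅ := by
      ext x
      simp only [box, Set.mem_ofPred_eq, Set.mem_empty_iff_false, iff_false, not_forall]
      refine ⟨i, fun h => ?_⟩
      exact absurd (h.1.trans h.2) (not_le.mpr hi)
    rw [he, Set.empty_inter, measure_empty, mul_zero]
    symm
    rw [Finset.prod_eq_zero_iff]
    refine ⟨i, Finset.mem_univ _, ?_⟩
    rw [ENNReal.ofReal_eq_zero]
    linarith

/-- a box constrained only in the coordinates i0, i1 -/
def box2 (i0 i1 : Fin d) (a0 b0 a1 b1 : ℝ) : Set (EuclideanSpace ℝ (Fin d)) :=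
  {x | x i0 ∈ Set.Icc a0 b0 ∧ x i1 ∈ Set.Icc a1 b1 ∧ x ∈ Q d}

lemma box2_eq_box {i0 i1 : Fin d} (hi : i0 ≠ i1) {a0 b0 a1 b1 : ℝ}
    (ha0 : -1 ≤ a0) (hb0 : b0 ≤ 1) (ha1 : -1 ≤ a1) (hb1 : b1 ≤ 1) :
    box2 i0 i1 a0 b0 a1 b1 =
      box (fun i => if i = i0 then a0 else if i = i1 then a1 else -1)
        (fun i => if i = i0 then b0 else if i = i1 then b1 else 1) := by
  ext x
  simp only [box2, box, Set.mem_ofPred_eq, Set.mem_Icc]
  constructor
  · rintro ⟨h0, h1, hQ⟩ i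
    by_cases h : i = i0
    · subst h; simpa using h0
    · by_cases h' : i = i1
      · subst h'; simpa [h] using h1
      · simpa [h, h', abs_le] using hQ i
  · intro H
    have h0 : a0 ≤ x i0 ∧ x i0 ≤ b0 := by simpa using H i0
    have h1 : a1 ≤ x i1 ∧ x i1 ≤ b1 := by simpa [hi.symm] using H i1
    refine ⟨h0, h1, fun i => ?_⟩
    rw [abs_le]
    have hh := H i
    by_cases h : i = i0
    · subst h; exact ⟨ha0.trans h0.1, h0.2.trans hb0⟩
    · by_cases h' : i = i1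
      · subst h'; exact ⟨ha1.trans h1.1, h1.2.trans hb1⟩
      · simpa [h, h'] using hh

lemma measurableSet_box2 {i0 i1 : Fin d} (hi : i0 ≠ i1) {a0 b0 a1 b1 : ℝ}
    (ha0 : -1 ≤ a0) (hb0 : b0 ≤ 1) (ha1 : -1 ≤ a1) (hb1 : b1 ≤ 1) :
    MeasurableSet (box2 i0 i1 a0 b0 a1 b1) := by
  rw [box2_eq_box hi ha0 hb0 ha1 hb1]; exact measurableSet_box _ _

lemma rho_box2 {i0 i1 : Fin d} (hi : i0 ≠ i1) {a0 b0 a1 b1 : ℝ}
    (ha0 : -1 ≤ a0) (hb0 : b0 ≤ 1) (ha1 : -1 ≤ a1) (hb1 : b1 ≤ 1) :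
    rho d (box2 i0 i1 a0 b0 a1 b1) =
      ENNReal.ofReal ((b0 - a0) / 2) * ENNReal.ofReal ((b1 - a1) / 2) := by
  rw [box2_eq_box hi ha0 hb0 ha1 hb1, rho_box]
  · rw [Finset.prod_eq_mul i0 i1 hi]
    · simp [hi.symm]
    · intro c _ hc
      simp [hc.1, hc.2]
    · simp
    · simp
  · intro i
    by_cases h : i = i0
    · simp [h, ha0]
    · by_cases h' : i = i1
      · subst h'; simp [h, ha1]
      · simp [h, h']
  · intro i
    by_cases h : i = i0
    · simp [h, hb0]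
    · by_cases h' : i = i1
      · subst h'; simp [h, hb1]
      · simp [h, h']

/-! ### The wedge transport map -/

variable (i0 i1 : Fin d) (h : ℝ)

/-- first atom -/
noncomputable def a1 : EuclideanSpace ℝ (Fin d) := EuclideanSpace.single i0 (-1)
/-- second atom -/
noncomputable def a2 : EuclideanSpace ℝ (Fin d) := EuclideanSpace.single i0 1
/-- third atom -/
noncomputable def a3 : EuclideanSpace ℝ (Fin d) := EuclideanSpace.single i1 h

/-- the wedge map -/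
noncomputable def T0 (x : EuclideanSpace ℝ (Fin d)) : EuclideanSpace ℝ (Fin d) :=
  if |x i0| ≤ h * (1 + x i1) then a3 i1 h else if 0 ≤ x i0 then a2 i0 else a1 i0

/-- the Brenier potential -/
noncomputable def phi (x : EuclideanSpace ℝ (Fin d)) : ℝ := max |x i0| (h * (1 + x i1))

/-- the dual potential on atoms -/
noncomputable def cc (y : EuclideanSpace ℝ (Fin d)) : ℝ := if y = a3 i1 h then -h else 0

/-- the Fenchel-Young defect -/
noncomputable def DD (x y : EuclideanSpace ℝ (Fin d)) : ℝ :=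
  phi i0 i1 h x + cc i1 h y - inner ℝ x y

/-- the set of atoms -/
noncomputable def Atoms : Set (EuclideanSpace ℝ (Fin d)) := {a1 i0, a2 i0, a3 i1 h}

lemma measurable_T0 : Measurable (T0 i0 i1 h) := by
  unfold T0
  refine Measurable.ite ?_ measurable_const (Measurable.ite ?_ measurable_const measurable_const)
  · exact measurableSet_le (measurable_coord i0).abs
      (measurable_const.mul (measurable_const.add (measurable_coord i1)))
  · exact measurableSet_le measurable_const (measurable_coord i0)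

lemma T0_mem_atoms (x : EuclideanSpace ℝ (Fin d)) : T0 i0 i1 h x ∈ Atoms i0 i1 h := by
  unfold T0 Atoms
  split_ifs <;> simp

lemma measurableSet_atoms : MeasurableSet (Atoms i0 i1 h) := by
  unfold Atoms
  exact (Set.toFinite _).measurableSet

variable {i0 i1 h}

lemma a3_ne_a2 (hi : i0 ≠ i1) : a2 i0 ≠ (a3 i1 h : EuclideanSpace ℝ (Fin d)) := by
  intro H
  have := congrArg (fun z : EuclideanSpace ℝ (Fin d) => z i0) H
  simp [a2, a3, hi] at this

lemma a3_ne_a1 (hi : i0 ≠ i1) : a1 i0 ≠ (a3 i1 h : EuclideanSpace ℝ (Fin d)) := by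
  intro H
  have := congrArg (fun z : EuclideanSpace ℝ (Fin d) => z i0) H
  simp [a1, a3, hi] at this

lemma a2_ne_a1 : a2 i0 ≠ (a1 i0 : EuclideanSpace ℝ (Fin d)) := by
  intro H
  have := congrArg (fun z : EuclideanSpace ℝ (Fin d) => z i0) H
  simp [a1, a2] at this
  linarith

lemma DD_a1 (hi : i0 ≠ i1) (x : EuclideanSpace ℝ (Fin d)) :
    DD i0 i1 h x (a1 i0) = phi i0 i1 h x + x i0 := by
  have h1 := a3_ne_a1 (h := h) hi
  simp only [DD, cc, if_neg h1]
  simp [a1, EuclideanSpace.inner_single_right]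

lemma DD_a2 (hi : i0 ≠ i1) (x : EuclideanSpace ℝ (Fin d)) :
    DD i0 i1 h x (a2 i0) = phi i0 i1 h x - x i0 := by
  have h1 := a3_ne_a2 (h := h) hi
  simp only [DD, cc, if_neg h1]
  simp [a2, EuclideanSpace.inner_single_right]

lemma DD_a3 (x : EuclideanSpace ℝ (Fin d)) :
    DD i0 i1 h x (a3 i1 h) = phi i0 i1 h x - h * (1 + x i1) := by
  simp only [DD, cc, if_true, a3, EuclideanSpace.inner_single_right]
  simp
  ring

lemma DD_nonneg (hi : i0 ≠ i1) (x : EuclideanSpace ℝ (Fin d)) {y : EuclideanSpace ℝ (Fin d)}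
    (hy : y ∈ Atoms i0 i1 h) : 0 ≤ DD i0 i1 h x y := by
  have h1 : |x i0| ≤ phi i0 i1 h x := le_max_left _ _
  have h2 : h * (1 + x i1) ≤ phi i0 i1 h x := le_max_right _ _
  have h3 := neg_abs_le (x i0)
  have h4 := le_abs_self (x i0)
  rcases hy with rfl | rfl | rfl
  · rw [DD_a1 hi]; linarith
  · rw [DD_a2 hi]; linarith
  · rw [DD_a3]; linarith

lemma DD_T0 (hi : i0 ≠ i1) (x : EuclideanSpace ℝ (Fin d)) :
    DD i0 i1 h x (T0 i0 i1 h x) = 0 := by
  unfold T0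
  split_ifs with h1 h2
  · rw [DD_a3, phi, max_eq_right h1]; ring
  · rw [DD_a2 hi, phi, max_eq_left (not_le.mp h1).le, abs_of_nonneg h2]; ring
  · rw [DD_a1 hi, phi, max_eq_left (not_le.mp h1).le, abs_of_neg (not_le.mp h2)]; ring

lemma measurable_phi : Measurable (phi i0 i1 h : EuclideanSpace ℝ (Fin d) → ℝ) := by
  unfold phi
  exact (measurable_coord i0).abs.max (measurable_const.mul (measurable_const.add (measurable_coord i1)))

lemma measurable_cc : Measurable (cc i1 h : EuclideanSpace ℝ (Fin d) → ℝ) := by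
  unfold cc
  exact Measurable.ite (measurableSet_singleton _) measurable_const measurable_const

/-- the real identity behind the cost -/
lemma cost_identity (hi : i0 ≠ i1) (hh : 0 < h) (hh2 : h ≤ 1 / 2) {x y : EuclideanSpace ℝ (Fin d)}
    (hx : x ∈ Q d) (hy : y ∈ Atoms i0 i1 h) :
    ‖x - y‖ₑ ^ 2 + ENNReal.ofReal 2 =
      ENNReal.ofReal (‖x‖ ^ 2 + 2 - 2 * phi i0 i1 h x) +
        ENNReal.ofReal (‖y‖ ^ 2 - 2 * cc i1 h y) + ENNReal.ofReal (2 * DD i0 i1 h x y) := by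
  have hphi : phi i0 i1 h x ≤ 1 := by
    apply max_le (hx i0)
    have := hx i1
    rw [abs_le] at this
    have h5 : 1 + x i1 ≤ 2 := by linarith
    nlinarith
  have hcc : cc i1 h y ≤ 0 := by
    unfold cc
    split_ifs
    · linarith
    · exact le_rfl
  have hD := DD_nonneg hi x hy
  have h1 : 0 ≤ ‖x‖ ^ 2 + 2 - 2 * phi i0 i1 h x := by nlinarith [sq_nonneg ‖x‖]
  have h2 : 0 ≤ ‖y‖ ^ 2 - 2 * cc i1 h y := by nlinarith [sq_nonneg ‖y‖]
  have h3 : 0 ≤ 2 * DD i0 i1 h x y := by linarith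
  rw [← ofReal_norm, ← ENNReal.ofReal_pow (norm_nonneg _),
    ← ENNReal.ofReal_add (sq_nonneg _) (by norm_num), ← ENNReal.ofReal_add h1 h2,
    ← ENNReal.ofReal_add (by linarith) h3]
  congr 1
  rw [norm_sub_sq_real, DD]
  ring

lemma measurable_FF : Measurable (fun x : EuclideanSpace ℝ (Fin d) =>
    ENNReal.ofReal (‖x‖ ^ 2 + 2 - 2 * phi i0 i1 h x)) := by
  have := measurable_phi (i0 := i0) (i1 := i1) (h := h)
  apply ENNReal.measurable_ofReal.comp
  exact ((measurable_norm.pow_const 2).add_const 2).sub (measurable_const.mul this)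

lemma measurable_GG : Measurable (fun y : EuclideanSpace ℝ (Fin d) =>
    ENNReal.ofReal (‖y‖ ^ 2 - 2 * cc i1 h y)) := by
  have := measurable_cc (i1 := i1) (h := h)
  apply ENNReal.measurable_ofReal.comp
  exact (measurable_norm.pow_const 2).sub (measurable_const.mul this)

lemma measurable_DD_comp {T : EuclideanSpace ℝ (Fin d) → EuclideanSpace ℝ (Fin d)}
    (hT : Measurable T) : Measurable (fun x => ENNReal.ofReal (2 * DD i0 i1 h x (T x))) := by
  have h1 := measurable_phi (i0 := i0) (i1 := i1) (h := h)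
  have h2 := measurable_cc (i1 := i1) (h := h)
  apply ENNReal.measurable_ofReal.comp
  unfold DD
  refine measurable_const.mul ((h1.add (h2.comp hT)).sub ?_)
  exact measurable_id.inner hT

lemma ae_atoms {T : EuclideanSpace ℝ (Fin d) → EuclideanSpace ℝ (Fin d)} (hT : Measurable T)
    (hmap : (rho d).map T = (rho d).map (T0 i0 i1 h)) :
    ∀ᵐ x ∂(rho d), T x ∈ Atoms i0 i1 h := by
  apply ae_of_ae_map hT.aemeasurable
  rw [hmap]
  refine (ae_map_iff (measurable_T0 i0 i1 h).aemeasurable (p := fun y => y ∈ Atoms i0 i1 h)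
    (measurableSet_atoms i0 i1 h)).mpr ?_
  exact ae_of_all _ (T0_mem_atoms i0 i1 h)

lemma cost_decomp (hi : i0 ≠ i1) (hh : 0 < h) (hh2 : h ≤ 1 / 2)
    {T : EuclideanSpace ℝ (Fin d) → EuclideanSpace ℝ (Fin d)} (hT : Measurable T)
    (hmap : (rho d).map T = (rho d).map (T0 i0 i1 h)) :
    ∫⁻ x, ‖x - T x‖ₑ ^ 2 ∂(rho d) + ENNReal.ofReal 2 =
      (∫⁻ x, ENNReal.ofReal (‖x‖ ^ 2 + 2 - 2 * phi i0 i1 h x) ∂(rho d) +
        ∫⁻ y, ENNReal.ofReal (‖y‖ ^ 2 - 2 * cc i1 h y) ∂((rho d).map (T0 i0 i1 h))) +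
      ∫⁻ x, ENNReal.ofReal (2 * DD i0 i1 h x (T x)) ∂(rho d) := by
  have e1 : ∫⁻ x, ‖x - T x‖ₑ ^ 2 ∂(rho d) + ENNReal.ofReal 2 =
      ∫⁻ x, (‖x - T x‖ₑ ^ 2 + ENNReal.ofReal 2) ∂(rho d) := by
    rw [lintegral_add_right _ measurable_const, lintegral_const, measure_univ, mul_one]
  have e2 : (∫⁻ x, ENNReal.ofReal (‖x‖ ^ 2 + 2 - 2 * phi i0 i1 h x) ∂(rho d) +
        ∫⁻ x, ENNReal.ofReal (‖T x‖ ^ 2 - 2 * cc i1 h (T x)) ∂(rho d)) +
      ∫⁻ x, ENNReal.ofReal (2 * DD i0 i1 h x (T x)) ∂(rho d) =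
      ∫⁻ x, (ENNReal.ofReal (‖x‖ ^ 2 + 2 - 2 * phi i0 i1 h x) +
        ENNReal.ofReal (‖T x‖ ^ 2 - 2 * cc i1 h (T x)) +
        ENNReal.ofReal (2 * DD i0 i1 h x (T x))) ∂(rho d) := by
    have m1 : Measurable (fun x : EuclideanSpace ℝ (Fin d) =>
        ENNReal.ofReal (‖x‖ ^ 2 + 2 - 2 * phi i0 i1 h x) +
        ENNReal.ofReal (‖T x‖ ^ 2 - 2 * cc i1 h (T x))) :=
      measurable_FF.add (measurable_GG.comp hT)
    rw [lintegral_add_left m1, lintegral_add_left measurable_FF]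
  rw [e1, ← hmap, lintegral_map measurable_GG hT, e2]
  refine lintegral_congr_ae ?_
  filter_upwards [ae_rho_Q, ae_atoms hT hmap] with x hx hTx
  exact cost_identity hi hh hh2 hx hTx

lemma norm_sq_le_of_Q {x : EuclideanSpace ℝ (Fin d)} (hx : x ∈ Q d) : ‖x‖ ^ 2 ≤ d := by
  rw [EuclideanSpace.norm_sq_eq]
  calc ∑ i, ‖x i‖ ^ 2 ≤ ∑ _i : Fin d, (1 : ℝ) := by
        refine Finset.sum_le_sum fun i _ => ?_
        have := hx i
        rw [Real.norm_eq_abs]
        have h0 := abs_nonneg (x i)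
        nlinarith
    _ = d := by simp

lemma norm_atom_le (hh : 0 < h) (hh2 : h ≤ 1 / 2) {y : EuclideanSpace ℝ (Fin d)}
    (hy : y ∈ Atoms i0 i1 h) : ‖y‖ ≤ 1 := by
  rcases hy with rfl | rfl | rfl
  · simp [a1]
  · simp [a2]
  · have : ‖(a3 i1 h : EuclideanSpace ℝ (Fin d))‖ = ‖h‖ := PiLp.norm_single _ _ _ _
    rw [this, Real.norm_eq_abs, abs_of_pos hh]
    linarith

lemma cost_T0_lt_top (hh : 0 < h) (hh2 : h ≤ 1 / 2) :
    ∫⁻ x, ‖x - T0 i0 i1 h x‖ₑ ^ 2 ∂(rho d) ≠ ∞ := by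
  have hb : ∫⁻ x, ‖x - T0 i0 i1 h x‖ₑ ^ 2 ∂(rho d) ≤ ∫⁻ _x, ENNReal.ofReal ((d + 2) ^ 2) ∂(rho d) := by
    refine lintegral_mono_ae ?_
    filter_upwards [ae_rho_Q] with x hx
    have h1 := norm_sq_le_of_Q hx
    have h2 : ‖T0 i0 i1 h x‖ ≤ 1 := norm_atom_le hh hh2 (T0_mem_atoms i0 i1 h x)
    have h3 : ‖x‖ ≤ d + 1 := by
      have : (0 : ℝ) ≤ d := Nat.cast_nonneg d
      nlinarith [norm_nonneg x]
    have h4 : ‖x - T0 i0 i1 h x‖ ≤ d + 2 := by
      have := norm_sub_le x (T0 i0 i1 h x)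
      linarith
    rw [← ofReal_norm, ← ENNReal.ofReal_pow (norm_nonneg _)]
    apply ENNReal.ofReal_le_ofReal
    have : (0 : ℝ) ≤ d := Nat.cast_nonneg d
    exact pow_le_pow_left₀ (norm_nonneg _) h4 2
  rw [lintegral_const, measure_univ, mul_one] at hb
  exact ne_top_of_le_ne_top ENNReal.ofReal_ne_top hb

lemma cost_T0 (hi : i0 ≠ i1) (hh : 0 < h) (hh2 : h ≤ 1 / 2) :
    ∫⁻ x, ‖x - T0 i0 i1 h x‖ₑ ^ 2 ∂(rho d) + ENNReal.ofReal 2 =
      (∫⁻ x, ENNReal.ofReal (‖x‖ ^ 2 + 2 - 2 * phi i0 i1 h x) ∂(rho d) +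
        ∫⁻ y, ENNReal.ofReal (‖y‖ ^ 2 - 2 * cc i1 h y) ∂((rho d).map (T0 i0 i1 h))) := by
  rw [cost_decomp hi hh hh2 (measurable_T0 i0 i1 h) rfl]
  simp [DD_T0 hi]

theorem optimal_T0 (hi : i0 ≠ i1) (hh : 0 < h) (hh2 : h ≤ 1 / 2) :
    IsOptimalMap (rho d) ((rho d).map (T0 i0 i1 h)) (T0 i0 i1 h) := by
  refine ⟨measurable_T0 i0 i1 h, rfl, fun S hS hmap => ?_⟩
  have h1 := cost_decomp hi hh hh2 hS hmap
  rw [← cost_T0 hi hh hh2] at h1
  have h2 : ∫⁻ x, ‖x - T0 i0 i1 h x‖ₑ ^ 2 ∂(rho d) + ENNReal.ofReal 2 ≤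
      ∫⁻ x, ‖x - S x‖ₑ ^ 2 ∂(rho d) + ENNReal.ofReal 2 := by
    rw [h1]; exact le_self_add
  exact (ENNReal.add_le_add_iff_right ENNReal.ofReal_ne_top).mp h2

theorem optimal_defect (hi : i0 ≠ i1) (hh : 0 < h) (hh2 : h ≤ 1 / 2)
    {T : EuclideanSpace ℝ (Fin d) → EuclideanSpace ℝ (Fin d)}
    (hT : IsOptimalMap (rho d) ((rho d).map (T0 i0 i1 h)) T) :
    ∀ᵐ x ∂(rho d), x ∈ Q d ∧ T x ∈ Atoms i0 i1 h ∧ DD i0 i1 h x (T x) ≤ 0 := by
  obtain ⟨hm, hmap, hopt⟩ := hT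
  have h1 := cost_decomp hi hh hh2 hm hmap
  have h2 := hopt _ (measurable_T0 i0 i1 h) rfl
  have h3 : ∫⁻ x, ENNReal.ofReal (2 * DD i0 i1 h x (T x)) ∂(rho d) = 0 := by
    have h4 : ∫⁻ x, ‖x - T x‖ₑ ^ 2 ∂(rho d) + ENNReal.ofReal 2 ≤
        ∫⁻ x, ‖x - T0 i0 i1 h x‖ₑ ^ 2 ∂(rho d) + ENNReal.ofReal 2 := by gcongr
    rw [h1, ← cost_T0 hi hh hh2] at h4
    have hfin : ∫⁻ x, ‖x - T0 i0 i1 h x‖ₑ ^ 2 ∂(rho d) + ENNReal.ofReal 2 ≠ ∞ :=
      ENNReal.add_ne_top.mpr ⟨cost_T0_lt_top hh hh2, ENNReal.ofReal_ne_top⟩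
    have h5 : ∫⁻ x, ‖x - T0 i0 i1 h x‖ₑ ^ 2 ∂(rho d) + ENNReal.ofReal 2 +
        ∫⁻ x, ENNReal.ofReal (2 * DD i0 i1 h x (T x)) ∂(rho d) ≤
        ∫⁻ x, ‖x - T0 i0 i1 h x‖ₑ ^ 2 ∂(rho d) + ENNReal.ofReal 2 + 0 := by
      rw [add_zero]; exact h4
    have := (ENNReal.add_le_add_iff_left hfin).mp h5
    exact le_antisymm this bot_le
  rw [lintegral_eq_zero_iff (measurable_DD_comp hm)] at h3
  filter_upwards [ae_rho_Q, ae_atoms hm hmap, h3] with x hx hTx h0
  refine ⟨hx, hTx, ?_⟩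
  have : ENNReal.ofReal (2 * DD i0 i1 h x (T x)) = 0 := h0
  rw [ENNReal.ofReal_eq_zero] at this
  linarith

/-- on the interior of the wedge every optimal map hits the third atom -/
lemma optimal_on_wedge (hi : i0 ≠ i1) {x : EuclideanSpace ℝ (Fin d)} {y : EuclideanSpace ℝ (Fin d)}
    (hy : y ∈ Atoms i0 i1 h) (hD : DD i0 i1 h x y ≤ 0) (hlt : |x i0| < h * (1 + x i1)) :
    y = a3 i1 h := by
  have h2 : h * (1 + x i1) ≤ phi i0 i1 h x := le_max_right _ _
  have h3 := neg_abs_le (x i0)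
  have h4 := le_abs_self (x i0)
  rcases hy with rfl | rfl | rfl
  · rw [DD_a1 hi] at hD; linarith
  · rw [DD_a2 hi] at hD; linarith
  · rfl

/-- to the right of the wedge every optimal map hits the second atom -/
lemma optimal_right (hi : i0 ≠ i1) {x : EuclideanSpace ℝ (Fin d)} {y : EuclideanSpace ℝ (Fin d)}
    (hy : y ∈ Atoms i0 i1 h) (hD : DD i0 i1 h x y ≤ 0) (hpos : 0 < x i0)
    (hlt : h * (1 + x i1) < x i0) : y = a2 i0 := by
  have h1 : |x i0| ≤ phi i0 i1 h x := le_max_left _ _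
  have h4 := le_abs_self (x i0)
  rcases hy with rfl | rfl | rfl
  · rw [DD_a1 hi] at hD; linarith
  · rfl
  · rw [DD_a3] at hD; linarith

/-! ### Reflection -/

/-- reflection in the coordinate i1 -/
noncomputable def R (i1 : Fin d) : EuclideanSpace ℝ (Fin d) ≃ₗᵢ[ℝ] EuclideanSpace ℝ (Fin d) :=
  LinearIsometryEquiv.piLpCongrRight 2
    (fun i => if i = i1 then LinearIsometryEquiv.neg ℝ else LinearIsometryEquiv.refl ℝ ℝ)

lemma R_apply (x : EuclideanSpace ℝ (Fin d)) (i : Fin d) :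
    (R i1 x) i = if i = i1 then - x i else x i := by
  simp only [R, LinearIsometryEquiv.piLpCongrRight_apply]
  by_cases h : i = i1 <;> simp [h]

lemma R_R (x : EuclideanSpace ℝ (Fin d)) : R i1 (R i1 x) = x := by
  ext i
  rw [R_apply, R_apply]
  by_cases h : i = i1 <;> simp [h]

lemma measurable_R : Measurable (R i1 : EuclideanSpace ℝ (Fin d) → EuclideanSpace ℝ (Fin d)) :=
  (R i1).continuous.measurable

lemma R_mem_Q (x : EuclideanSpace ℝ (Fin d)) : R i1 x ∈ Q d ↔ x ∈ Q d := by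
  have key : ∀ i, |(R i1 x) i| = |x i| := by
    intro i
    rw [R_apply]
    by_cases h : i = i1 <;> simp [h]
  simp only [Q, Set.mem_ofPred_eq, key]

lemma measurePreserving_R :
    MeasurePreserving (R i1 : EuclideanSpace ℝ (Fin d) → EuclideanSpace ℝ (Fin d)) (rho d) (rho d) := by
  refine ⟨measurable_R, ?_⟩
  have h1 : MeasurePreserving (R i1 : EuclideanSpace ℝ (Fin d) → EuclideanSpace ℝ (Fin d))
      volume volume := (R i1).measurePreserving
  have h2 := h1.restrict_preimage (measurableSet_Q (d := d))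
  have h3 : (R i1 : EuclideanSpace ℝ (Fin d) → EuclideanSpace ℝ (Fin d)) ⁻¹' Q d = Q d := by
    ext x; exact R_mem_Q x
  rw [h3] at h2
  change Measure.map _ ((volume (Q d))⁻¹ • volume.restrict (Q d)) =
    (volume (Q d))⁻¹ • volume.restrict (Q d)
  rw [Measure.map_smul, h2.map_eq]

lemma cost_conj {S : EuclideanSpace ℝ (Fin d) → EuclideanSpace ℝ (Fin d)} (hS : Measurable S) :
    ∫⁻ x, ‖x - R i1 (S (R i1 x))‖ₑ ^ 2 ∂(rho d) = ∫⁻ x, ‖x - S x‖ₑ ^ 2 ∂(rho d) := by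
  have hm : Measurable (fun x : EuclideanSpace ℝ (Fin d) => ‖x - S x‖ₑ ^ 2) :=
    ((measurable_id.sub hS).enorm).pow_const 2
  rw [← (measurePreserving_R (i1 := i1)).lintegral_comp hm]
  refine lintegral_congr fun x => ?_
  have : x - R i1 (S (R i1 x)) = R i1 (R i1 x - S (R i1 x)) := by
    rw [map_sub, R_R]
  rw [this, (R i1).enorm_map]

lemma map_conj {S : EuclideanSpace ℝ (Fin d) → EuclideanSpace ℝ (Fin d)} (hS : Measurable S) :
    (rho d).map (fun x => R i1 (S (R i1 x))) = ((rho d).map S).map (R i1) := by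
  rw [Measure.map_map measurable_R hS]
  have : (fun x => R i1 (S (R i1 x))) = (R i1 ∘ S) ∘ (R i1) := rfl
  rw [this, ← Measure.map_map (measurable_R.comp hS) measurable_R,
    (measurePreserving_R (i1 := i1)).map_eq]

lemma map_R_R (μ : Measure (EuclideanSpace ℝ (Fin d))) : (μ.map (R i1)).map (R i1) = μ := by
  rw [Measure.map_map measurable_R measurable_R]
  have : (R i1 : EuclideanSpace ℝ (Fin d) → EuclideanSpace ℝ (Fin d)) ∘ (R i1) = id := by
    ext1 x; exact R_R x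
  rw [this, Measure.map_id]

/-- conjugation by the reflection transports optimal maps -/
theorem optimal_conj {μ : Measure (EuclideanSpace ℝ (Fin d))}
    {T : EuclideanSpace ℝ (Fin d) → EuclideanSpace ℝ (Fin d)}
    (hT : IsOptimalMap (rho d) μ T) :
    IsOptimalMap (rho d) (μ.map (R i1)) (fun x => R i1 (T (R i1 x))) := by
  obtain ⟨hm, hmap, hopt⟩ := hT
  refine ⟨measurable_R.comp (hm.comp measurable_R), ?_, fun S hS hSmap => ?_⟩
  · rw [map_conj hm, hmap]
  · rw [cost_conj hm]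
    have h1 := hopt (fun x => R i1 (S (R i1 x))) (measurable_R.comp (hS.comp measurable_R))
      (by rw [map_conj hS, hSmap, map_R_R])
    rwa [cost_conj hS] at h1

/-! ### Three atoms -/

lemma three_atomic_of_map {T : EuclideanSpace ℝ (Fin d) → EuclideanSpace ℝ (Fin d)}
    (hT : Measurable T) (y : Fin 3 → EuclideanSpace ℝ (Fin d)) (hy : Function.Injective y)
    (hval : ∀ x, ∃ i, T x = y i) (hpos : ∀ i, 0 < rho d (T ⁻¹' {y i})) :
    IsThreeAtomic ((rho d).map T) := by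
  refine ⟨y, hy, fun i => (rho d (T ⁻¹' {y i})).toReal, fun i => ?_, ?_⟩
  · exact ENNReal.toReal_pos (hpos i).ne' (measure_ne_top _ _)
  · ext s hs
    rw [Measure.map_apply hT hs]
    simp only [Measure.finsetSum_apply, Measure.smul_apply, smul_eq_mul]
    simp only [ENNReal.ofReal_toReal (measure_ne_top _ _)]
    have hAm : ∀ i, MeasurableSet (T ⁻¹' {y i}) := fun i => hT (measurableSet_singleton _)
    have hdisj : Pairwise (fun i j => Disjoint (T ⁻¹' s ∩ T ⁻¹' {y i}) (T ⁻¹' s ∩ T ⁻¹' {y j})) := by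
      intro i j hij
      rw [Set.disjoint_left]
      rintro x ⟨_, h1⟩ ⟨_, h2⟩
      exact hij (hy ((Set.mem_singleton_iff.mp h1).symm.trans (Set.mem_singleton_iff.mp h2)))
    have hU : T ⁻¹' s = ⋃ i, (T ⁻¹' s ∩ T ⁻¹' {y i}) := by
      ext x
      simp only [Set.mem_iUnion, Set.mem_inter_iff, Set.mem_preimage, Set.mem_singleton_iff]
      constructor
      · intro hx
        obtain ⟨i, hi⟩ := hval x
        exact ⟨i, hx, hi⟩
      · rintro ⟨_, hx, _⟩; exact hx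
    rw [hU, measure_iUnion hdisj (fun i => (hT hs).inter (hAm i)), tsum_fintype]
    refine Finset.sum_congr rfl fun i _ => ?_
    by_cases hi : y i ∈ s
    · have : T ⁻¹' s ∩ T ⁻¹' {y i} = T ⁻¹' {y i} := by
        apply Set.inter_eq_right.mpr
        intro x hx
        have : T x = y i := hx
        simpa [this] using hi
      rw [this, Measure.dirac_apply' _ hs, Set.indicator_of_mem hi]
      simp
    · have : T ⁻¹' s ∩ T ⁻¹' {y i} = ∅ := by
        ext x
        simp only [Set.mem_inter_iff, Set.mem_preimage, Set.mem_singleton_iff,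
          Set.mem_empty_iff_false, iff_false, not_and]
        intro hx hxi
        exact hi (hxi ▸ hx)
      rw [this, Measure.dirac_apply' _ hs, Set.indicator_of_notMem hi]
      simp

lemma prob_on_of_map {T : EuclideanSpace ℝ (Fin d) → EuclideanSpace ℝ (Fin d)}
    (hT : Measurable T) (hQ : ∀ x, T x ∈ Q d) : IsProbabilityOn (Q d) ((rho d).map T) := by
  refine ⟨Measure.isProbabilityMeasure_map hT.aemeasurable, ?_⟩
  rw [Measure.map_apply hT measurableSet_Q.compl]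
  convert measure_empty (μ := rho d)
  ext x
  simpa using hQ x

/-! ### Estimates for the wedge -/

lemma rho_wedge_le (hi : i0 ≠ i1) (hh : 0 < h) (hh2 : h ≤ 1 / 4) :
    rho d (T0 i0 i1 h ⁻¹' {a3 i1 h}) ≤ ENNReal.ofReal (2 * h) := by
  have hbox : rho d (box2 i0 i1 (-(2 * h)) (2 * h) (-1) 1) = ENNReal.ofReal (2 * h) := by
    rw [rho_box2 hi (by linarith) (by linarith) le_rfl le_rfl]
    have e1 : (2 * h - -(2 * h)) / 2 = 2 * h := by ring
    have e2 : ((1 : ℝ) - -1) / 2 = 1 := by norm_num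
    rw [e1, e2, ENNReal.ofReal_one, mul_one]
  rw [← hbox]
  have hae : ∀ᵐ x ∂(rho d), x ∈ T0 i0 i1 h ⁻¹' {a3 i1 h} → x ∈ box2 i0 i1 (-(2 * h)) (2 * h) (-1) 1 := by
    filter_upwards [ae_rho_Q] with x hxQ hx
    have hx' : T0 i0 i1 h x = a3 i1 h := hx
    have hw : |x i0| ≤ h * (1 + x i1) := by
      by_contra hc
      unfold T0 at hx'
      rw [if_neg hc] at hx'
      split_ifs at hx'
      · exact a3_ne_a2 hi hx'
      · exact a3_ne_a1 hi hx'
    have h1 := hxQ i1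
    rw [abs_le] at h1
    have h2 : h * (1 + x i1) ≤ 2 * h := by nlinarith
    have h3 := (abs_le.mp (hw.trans h2))
    exact ⟨⟨h3.1, h3.2⟩, ⟨h1.1, h1.2⟩, hxQ⟩
  exact measure_mono_ae hae

/-- the quantitative bound on the moved cost -/
lemma cost_reflect (hi : i0 ≠ i1) (hh : 0 < h) (hh2 : h ≤ 1 / 4) :
    ∫⁻ y, ‖y - R i1 y‖ₑ ^ 2 ∂((rho d).map (T0 i0 i1 h)) ≤ ENNReal.ofReal (8 * h ^ 3) := by
  have hm : Measurable (fun y : EuclideanSpace ℝ (Fin d) => ‖y - R i1 y‖ₑ ^ 2) :=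
    ((measurable_id.sub measurable_R).enorm).pow_const 2
  rw [lintegral_map hm (measurable_T0 i0 i1 h)]
  have hA : MeasurableSet (T0 i0 i1 h ⁻¹' {a3 i1 h}) := measurable_T0 i0 i1 h (measurableSet_singleton _)
  have hpt : ∀ x, ‖T0 i0 i1 h x - R i1 (T0 i0 i1 h x)‖ₑ ^ 2 ≤
      (T0 i0 i1 h ⁻¹' {a3 i1 h}).indicator (fun _ => ENNReal.ofReal (4 * h ^ 2)) x := by
    intro x
    have h1 : R i1 (a2 i0) = (a2 i0 : EuclideanSpace ℝ (Fin d)) := by
      ext i
      rw [R_apply]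
      by_cases hc : i = i1
      · subst hc; simp [a2, hi.symm]
      · simp [hc]
    have h2 : R i1 (a1 i0) = (a1 i0 : EuclideanSpace ℝ (Fin d)) := by
      ext i
      rw [R_apply]
      by_cases hc : i = i1
      · subst hc; simp [a1, hi.symm]
      · simp [hc]
    have h3 : a3 i1 h - R i1 (a3 i1 h) = (EuclideanSpace.single i1 (2 * h) : EuclideanSpace ℝ (Fin d)) := by
      ext i
      rw [PiLp.sub_apply, R_apply]
      by_cases hc : i = i1
      · subst hc; simp [a3]; ring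
      · simp [hc, a3]
    by_cases hx : T0 i0 i1 h x = a3 i1 h
    · rw [Set.indicator_of_mem (show x ∈ T0 i0 i1 h ⁻¹' {a3 i1 h} from hx), hx, h3,
        ← ofReal_norm, ← ENNReal.ofReal_pow (norm_nonneg _)]
      apply ENNReal.ofReal_le_ofReal
      have : ‖(EuclideanSpace.single i1 (2 * h) : EuclideanSpace ℝ (Fin d))‖ = ‖2 * h‖ :=
        PiLp.norm_single _ _ _ _
      rw [this, Real.norm_eq_abs, sq_abs]
      nlinarith
    · have hval : T0 i0 i1 h x = a2 i0 ∨ T0 i0 i1 h x = a1 i0 := by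
        rcases T0_mem_atoms i0 i1 h x with h' | h' | h'
        · exact Or.inr h'
        · exact Or.inl h'
        · exact absurd h' hx
      have hz : T0 i0 i1 h x - R i1 (T0 i0 i1 h x) = 0 := by
        rcases hval with h' | h'
        · rw [h', h1, sub_self]
        · rw [h', h2, sub_self]
      rw [hz]
      simp
  calc ∫⁻ x, ‖T0 i0 i1 h x - R i1 (T0 i0 i1 h x)‖ₑ ^ 2 ∂(rho d)
      ≤ ∫⁻ x, (T0 i0 i1 h ⁻¹' {a3 i1 h}).indicator (fun _ => ENNReal.ofReal (4 * h ^ 2)) x ∂(rho d) :=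
        lintegral_mono hpt
    _ = ENNReal.ofReal (4 * h ^ 2) * rho d (T0 i0 i1 h ⁻¹' {a3 i1 h}) := by
        rw [lintegral_indicator hA, setLIntegral_const]
    _ ≤ ENNReal.ofReal (4 * h ^ 2) * ENNReal.ofReal (2 * h) := by
        gcongr
        exact rho_wedge_le hi hh hh2
    _ = ENNReal.ofReal (8 * h ^ 3) := by
        rw [← ENNReal.ofReal_mul (by positivity)]
        congr 1
        ring

/-- the lower bound region -/
lemma rho_B (hi : i0 ≠ i1) (hh : 0 < h) (hh2 : h ≤ 1 / 4) :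
    rho d (box2 i0 i1 (h / 2) h (3 / 4) 1) = ENNReal.ofReal (h / 32) := by
  rw [rho_box2 hi (by linarith) (by linarith) (by norm_num) le_rfl, ← ENNReal.ofReal_mul (by linarith)]
  congr 1
  ring

lemma rho_A3_pos (hi : i0 ≠ i1) (hh : 0 < h) (hh2 : h ≤ 1 / 4) :
    0 < rho d (T0 i0 i1 h ⁻¹' {a3 i1 h}) := by
  have hle : box2 i0 i1 (h / 2) h (3 / 4) 1 ⊆ T0 i0 i1 h ⁻¹' {a3 i1 h} := by
    rintro x ⟨⟨h1, h2⟩, ⟨h3, h4⟩, _⟩
    show T0 i0 i1 h x = a3 i1 h
    unfold T0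
    rw [if_pos]
    rw [abs_of_nonneg (by linarith)]
    nlinarith
  refine lt_of_lt_of_le ?_ (measure_mono hle)
  rw [rho_B hi hh hh2]
  simp only [ENNReal.ofReal_pos]
  linarith

lemma rho_A2_pos (hi : i0 ≠ i1) (hh : 0 < h) (hh2 : h ≤ 1 / 8) :
    0 < rho d (T0 i0 i1 h ⁻¹' {a2 i0}) := by
  have hle : box2 i0 i1 (1 / 2) 1 (-1) 1 ⊆ T0 i0 i1 h ⁻¹' {a2 i0} := by
    rintro x ⟨⟨h1, h2⟩, ⟨h3, h4⟩, _⟩
    show T0 i0 i1 h x = a2 i0
    unfold T0
    rw [if_neg, if_pos (by linarith)]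
    rw [abs_of_nonneg (by linarith)]
    push Not
    nlinarith
  refine lt_of_lt_of_le ?_ (measure_mono hle)
  rw [rho_box2 hi (by norm_num) le_rfl le_rfl le_rfl]
  norm_num

lemma rho_A1_pos (hi : i0 ≠ i1) (hh : 0 < h) (hh2 : h ≤ 1 / 8) :
    0 < rho d (T0 i0 i1 h ⁻¹' {a1 i0}) := by
  have hle : box2 i0 i1 (-1) (-(1 / 2)) (-1) 1 ⊆ T0 i0 i1 h ⁻¹' {a1 i0} := by
    rintro x ⟨⟨h1, h2⟩, ⟨h3, h4⟩, _⟩
    show T0 i0 i1 h x = a1 i0
    unfold T0
    rw [if_neg, if_neg (by linarith)]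
    rw [abs_of_neg (by linarith)]
    push Not
    nlinarith
  refine lt_of_lt_of_le ?_ (measure_mono hle)
  rw [rho_box2 hi le_rfl (by norm_num) le_rfl le_rfl]
  norm_num

/-- the atom vector -/
noncomputable def yy (i0 i1 : Fin d) (h : ℝ) : Fin 3 → EuclideanSpace ℝ (Fin d) :=
  ![a1 i0, a2 i0, a3 i1 h]

lemma yy_inj (hi : i0 ≠ i1) : Function.Injective (yy i0 i1 h) := by
  intro a b hab
  have h1 := a3_ne_a1 (h := h) hi
  have h2 := a3_ne_a2 (h := h) hi
  have h3 := a2_ne_a1 (i0 := i0)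
  fin_cases a <;> fin_cases b <;> simp [yy] at hab ⊢
  · exact h3.symm hab
  · exact h1 hab
  · exact h3 hab
  · exact h2 hab
  · exact h1 hab.symm
  · exact h2 hab.symm

lemma T0_val (x : EuclideanSpace ℝ (Fin d)) : ∃ i, T0 i0 i1 h x = yy i0 i1 h i := by
  rcases T0_mem_atoms i0 i1 h x with h' | h' | h'
  · exact ⟨0, h'⟩
  · exact ⟨1, h'⟩
  · exact ⟨2, h'⟩

lemma atoms_mem_Q (hh : 0 < h) (hh2 : h ≤ 1) {y : EuclideanSpace ℝ (Fin d)}
    (hy : y ∈ Atoms i0 i1 h) : y ∈ Q d := by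
  rcases hy with rfl | rfl | rfl
  · intro i
    by_cases hc : i = i0
    · subst hc; simp [a1]
    · simp [a1, hc]
  · intro i
    by_cases hc : i = i0
    · subst hc; simp [a2]
    · simp [a2, hc]
  · intro i
    by_cases hc : i = i1
    · subst hc; simp [a3, abs_of_pos hh, hh2]
    · simp [a3, hc]

/-- the two measures -/
theorem three_atomic_mu (hi : i0 ≠ i1) (hh : 0 < h) (hh2 : h ≤ 1 / 8) :
    IsThreeAtomic ((rho d).map (T0 i0 i1 h)) := by
  refine three_atomic_of_map (measurable_T0 i0 i1 h) (yy i0 i1 h) (yy_inj hi) T0_val ?_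
  intro i
  fin_cases i
  · exact rho_A1_pos hi hh hh2
  · exact rho_A2_pos hi hh hh2
  · exact rho_A3_pos hi hh (by linarith)

theorem three_atomic_nu (hi : i0 ≠ i1) (hh : 0 < h) (hh2 : h ≤ 1 / 8) :
    IsThreeAtomic (((rho d).map (T0 i0 i1 h)).map (R i1)) := by
  rw [Measure.map_map measurable_R (measurable_T0 i0 i1 h)]
  refine three_atomic_of_map (measurable_R.comp (measurable_T0 i0 i1 h))
    (fun j => R i1 (yy i0 i1 h j)) ((R i1).injective.comp (yy_inj hi)) ?_ ?_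
  · intro x
    obtain ⟨j, hj⟩ := T0_val (i0 := i0) (i1 := i1) (h := h) x
    exact ⟨j, by simp [hj]⟩
  · intro i
    have : ((R i1 : EuclideanSpace ℝ (Fin d) → EuclideanSpace ℝ (Fin d)) ∘ T0 i0 i1 h) ⁻¹'
        {R i1 (yy i0 i1 h i)} = T0 i0 i1 h ⁻¹' {yy i0 i1 h i} := by
      ext x
      simp
    rw [this]
    fin_cases i
    · exact rho_A1_pos hi hh hh2
    · exact rho_A2_pos hi hh hh2
    · exact rho_A3_pos hi hh (by linarith)

theorem prob_mu (hh : 0 < h) (hh2 : h ≤ 1 / 8) :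
    IsProbabilityOn (Q d) ((rho d).map (T0 i0 i1 h)) :=
  prob_on_of_map (measurable_T0 i0 i1 h)
    (fun x => atoms_mem_Q hh (by linarith) (T0_mem_atoms i0 i1 h x))

theorem prob_nu (hh : 0 < h) (hh2 : h ≤ 1 / 8) :
    IsProbabilityOn (Q d) (((rho d).map (T0 i0 i1 h)).map (R i1)) := by
  rw [Measure.map_map measurable_R (measurable_T0 i0 i1 h)]
  refine prob_on_of_map (measurable_R.comp (measurable_T0 i0 i1 h)) (fun x => ?_)
  exact (R_mem_Q _).mpr (atoms_mem_Q hh (by linarith) (T0_mem_atoms i0 i1 h x))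

/-- lower bound for the L2 distance of any optimal maps -/
theorem lower_bound (hi : i0 ≠ i1) (hh : 0 < h) (hh2 : h ≤ 1 / 8)
    {Tμ Tν : EuclideanSpace ℝ (Fin d) → EuclideanSpace ℝ (Fin d)}
    (h1 : IsOptimalMap (rho d) ((rho d).map (T0 i0 i1 h)) Tμ)
    (h2 : IsOptimalMap (rho d) (((rho d).map (T0 i0 i1 h)).map (R i1)) Tν) :
    ENNReal.ofReal (h / 32) ≤ ∫⁻ x, ‖Tμ x - Tν x‖ₑ ^ 2 ∂(rho d) := by
  have hh2' : h ≤ 1 / 2 := by linarith
  have hμ := optimal_defect hi hh hh2' h1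
  have h2' : IsOptimalMap (rho d) ((rho d).map (T0 i0 i1 h)) (fun x => R i1 (Tν (R i1 x))) := by
    have := optimal_conj (i1 := i1) h2
    rwa [map_R_R] at this
  have hν := optimal_defect hi hh hh2' h2'
  have hν' := (measurePreserving_R (i1 := i1)).quasiMeasurePreserving.ae hν
  have hB : MeasurableSet (box2 i0 i1 (h / 2) h (3 / 4) 1) :=
    measurableSet_box2 hi (by linarith) (by linarith) (by norm_num) le_rfl
  rw [← rho_B hi hh (by linarith), ← lintegral_indicator_one hB]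
  refine lintegral_mono_ae ?_
  filter_upwards [hμ, hν'] with x hx1 hx2
  by_cases hxB : x ∈ box2 i0 i1 (h / 2) h (3 / 4) 1
  · rw [Set.indicator_of_mem hxB]
    obtain ⟨⟨b1, b2⟩, ⟨b3, b4⟩, _⟩ := hxB
    have e1 : Tμ x = a3 i1 h := by
      refine optimal_on_wedge hi hx1.2.1 hx1.2.2 ?_
      rw [abs_of_nonneg (by linarith)]
      nlinarith
    have e2 : R i1 (Tν (R i1 (R i1 x))) = a2 i0 := by
      refine optimal_right hi hx2.2.1 hx2.2.2 ?_ ?_
      · rw [R_apply, if_neg hi]; linarith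
      · rw [R_apply, R_apply, if_neg hi, if_pos rfl]
        nlinarith
    rw [R_R] at e2
    have e3 : Tν x = a2 i0 := by
      have h5 : R i1 (a2 i0) = (a2 i0 : EuclideanSpace ℝ (Fin d)) := by
        ext i
        rw [R_apply]
        by_cases hc : i = i1
        · subst hc; simp [a2, hi.symm]
        · simp [hc]
      rw [← h5, ← e2, R_R]
    rw [e1, e3, Pi.one_apply]
    have hcoord : 1 ≤ ‖(a3 i1 h - a2 i0 : EuclideanSpace ℝ (Fin d))‖ := by
      have := PiLp.norm_apply_le (p := 2) (a3 i1 h - a2 i0 : EuclideanSpace ℝ (Fin d)) i0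
      simpa [a3, a2, hi] using this
    rw [← ofReal_norm, ← ENNReal.ofReal_pow (norm_nonneg _), ← ENNReal.ofReal_one]
    apply ENNReal.ofReal_le_ofReal
    nlinarith
  · rw [Set.indicator_of_notMem hxB]
    exact bot_le

lemma exists_h (α : ℝ) (hα : 1 / 3 < α) (C : ℝ≥0) :
    ∃ h : ℝ, 0 < h ∧ h ≤ 1 / 8 ∧ (C : ℝ) * (8 * h ^ 3) ^ α < h / 32 := by
  set γ : ℝ := 3 * α - 1 with hγ
  have hγpos : 0 < γ := by rw [hγ]; linarith
  have hαpos : 0 < α := by linarith
  set K : ℝ := (C : ℝ) * (8 : ℝ) ^ α * 32 + 1 with hK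
  have hKpos : 0 < K := by
    have : 0 ≤ (C : ℝ) * (8 : ℝ) ^ α * 32 := by positivity
    rw [hK]; linarith
  set r : ℝ := (K⁻¹) ^ (1 / γ) with hr
  have hrpos : 0 < r := by positivity
  refine ⟨min (1 / 8) r, lt_min (by norm_num) hrpos, min_le_left _ _, ?_⟩
  set h := min (1 / 8) r with hhdef
  have hpos : 0 < h := lt_min (by norm_num) hrpos
  have hle : h ≤ r := min_le_right _ _
  have h1 : h ^ γ ≤ K⁻¹ := by
    calc h ^ γ ≤ r ^ γ := Real.rpow_le_rpow hpos.le hle hγpos.le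
      _ = K⁻¹ := by
        rw [hr, ← Real.rpow_mul (by positivity), one_div, inv_mul_cancel₀ hγpos.ne', Real.rpow_one]
  have h2 : (8 * h ^ 3) ^ α = (8 : ℝ) ^ α * (h * h ^ γ) := by
    rw [Real.mul_rpow (by norm_num) (by positivity)]
    congr 1
    rw [← Real.rpow_natCast h 3, ← Real.rpow_mul hpos.le]
    have : ((3 : ℕ) : ℝ) * α = 1 + γ := by rw [hγ]; push_cast; ring
    rw [this, Real.rpow_add hpos, Real.rpow_one]
  rw [h2]
  have h3 : (C : ℝ) * (8 : ℝ) ^ α * 32 * h ^ γ < 1 := by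
    have hc0 : 0 ≤ (C : ℝ) * (8 : ℝ) ^ α * 32 := by positivity
    have hpowpos : 0 < h ^ γ := by positivity
    calc (C : ℝ) * (8 : ℝ) ^ α * 32 * h ^ γ ≤ ((C : ℝ) * (8 : ℝ) ^ α * 32) * K⁻¹ := by gcongr
      _ < K * K⁻¹ := by
        apply mul_lt_mul_of_pos_right _ (by positivity)
        rw [hK]; linarith
      _ = 1 := mul_inv_cancel₀ hKpos.ne'
  have : (C : ℝ) * ((8 : ℝ) ^ α * (h * h ^ γ)) = h / 32 * ((C : ℝ) * (8 : ℝ) ^ α * 32 * h ^ γ) := by
    field_simp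
  rw [this]
  have h32 : 0 < h / 32 := by positivity
  nlinarith

end aux

/-- The exponent one third is optimal, even on the cube with three-atom targets: for d ≥ 2, ρ the uniform probability measure on the cube of points of ℝᵈ with all coordinates in [-1, 1], every α > 1/3 and every C ≥ 0, there are three-atomic probability measures μ, ν on that cube, each admitting a quadratic optimal transport map from ρ, such that for all such optimal maps Tμ, Tν some coupling π of μ, ν has C · (∫ ‖y - z‖² dπ)^α < ∫ ‖Tμ - Tν‖² dρ. Hence ‖Tμ - Tν‖_{L²(ρ)} > √C · W₂(μ, ν)^α. -/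
theorem result
    (d : ℕ) (hd : 2 ≤ d) (α : ℝ) (hα : 1 / 3 < α) (C : ℝ≥0) :
    ∃ μ ν : Measure (EuclideanSpace ℝ (Fin d)),
      IsProbabilityOn {x : EuclideanSpace ℝ (Fin d) | ∀ i, |x i| ≤ 1} μ ∧
      IsProbabilityOn {x : EuclideanSpace ℝ (Fin d) | ∀ i, |x i| ≤ 1} ν ∧
      IsThreeAtomic μ ∧ IsThreeAtomic ν ∧
      (∃ T, IsOptimalMap (uniformProbOn {x : EuclideanSpace ℝ (Fin d) | ∀ i, |x i| ≤ 1}) μ T) ∧
      (∃ T, IsOptimalMap (uniformProbOn {x : EuclideanSpace ℝ (Fin d) | ∀ i, |x i| ≤ 1}) ν T) ∧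
      ∀ Tμ Tν : EuclideanSpace ℝ (Fin d) → EuclideanSpace ℝ (Fin d),
        IsOptimalMap (uniformProbOn {x : EuclideanSpace ℝ (Fin d) | ∀ i, |x i| ≤ 1}) μ Tμ →
        IsOptimalMap (uniformProbOn {x : EuclideanSpace ℝ (Fin d) | ∀ i, |x i| ≤ 1}) ν Tν →
        ∃ π : Measure (EuclideanSpace ℝ (Fin d) × EuclideanSpace ℝ (Fin d)), IsPairCoupling μ ν π ∧
          (C : ℝ≥0∞) * quadCost π ^ α < ∫⁻ x, ‖Tμ x - Tν x‖ₑ ^ 2 ∂(uniformProbOn {x : EuclideanSpace ℝ (Fin d) | ∀ i, |x i| ≤ 1}) := by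
  obtain ⟨h, hh, hh8, hnum⟩ := exists_h α hα C
  let i0 : Fin d := ⟨0, by omega⟩
  let i1 : Fin d := ⟨1, by omega⟩
  have hi : i0 ≠ i1 := by
    intro H
    have := congrArg Fin.val H
    simp [i0, i1] at this
  have hαpos : 0 < α := by linarith
  refine ⟨(rho d).map (T0 i0 i1 h), ((rho d).map (T0 i0 i1 h)).map (R i1), prob_mu hh hh8,
    prob_nu hh hh8, three_atomic_mu hi hh hh8, three_atomic_nu hi hh hh8,
    ⟨T0 i0 i1 h, optimal_T0 hi hh (by linarith)⟩,
    ⟨_, optimal_conj (i1 := i1) (optimal_T0 hi hh (by linarith))⟩, ?_⟩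
  intro Tμ Tν h1 h2
  have hm : Measurable (fun y : EuclideanSpace ℝ (Fin d) => (y, R i1 y)) :=
    measurable_id.prodMk measurable_R
  refine ⟨((rho d).map (T0 i0 i1 h)).map (fun y => (y, R i1 y)), ⟨?_, ?_⟩, ?_⟩
  · rw [Measure.map_map measurable_fst hm]
    exact Measure.map_id
  · rw [Measure.map_map measurable_snd hm]
    rfl
  · have hlow := lower_bound hi hh hh8 h1 h2
    have hq : quadCost (((rho d).map (T0 i0 i1 h)).map (fun y => (y, R i1 y))) ≤
        ENNReal.ofReal (8 * h ^ 3) := by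
      unfold quadCost
      rw [lintegral_map ?_ hm]
      · exact cost_reflect hi hh (by linarith)
      · exact ((measurable_fst.sub measurable_snd).enorm).pow_const 2
    refine lt_of_lt_of_le ?_ hlow
    calc (C : ℝ≥0∞) * quadCost (((rho d).map (T0 i0 i1 h)).map (fun y => (y, R i1 y))) ^ α
        ≤ (C : ℝ≥0∞) * ENNReal.ofReal (8 * h ^ 3) ^ α := by gcongr
      _ = ENNReal.ofReal ((C : ℝ) * (8 * h ^ 3) ^ α) := by
          rw [ENNReal.ofReal_rpow_of_pos (by positivity), ENNReal.ofReal_mul (by positivity)]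
          simp
      _ < ENNReal.ofReal (h / 32) := by
          apply (ENNReal.ofReal_lt_ofReal_iff (by positivity)).mpr hnum

end Crest.Agent.S0110
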