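import Crest.Statements.S0112
import Crest.Agent.Lib.BRFinal

set_option autoImplicit false
open Crest Crest.AnalysisR Crest.AnalysisR.OperatorAlgebra

namespace Crest.Agent.S0112

/-- Bounded recovery. Let S be modular data on H (algebra M, cyclic separating unit vector ξ, D = log of the modular operator) with ergodic state, ω a free ultrafilter on ℕ, T a bounded operator, δₙ → 0 positive, hₙ unit vectors with D-spectral support in [s − δₙ, s + δₙ]. If some c > 0 bounds the ω-mean over t of ‖T exp(itD) hₙ‖² from below infinitely often, along a subsequence n_j there are v_j ∈ M, C and η > 0 with ‖v_j‖ ≤ C, ‖T (v_j ξ)‖ ≥ η, v_j ξ supported in [s − 4δ_{n_j}, s + 4δ_{n_j}]. -/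
theorem result
    {H : Type*} [NormedAddCommGroup H] [InnerProductSpace ℂ H] [CompleteSpace H]
    (S : Crest.OpAlg.ModularDatum H) (herg : S.Ergodic)
    (ω : Ultrafilter ℕ) (hω : (ω : Filter ℕ) ≤ Filter.atTop)
    (T : H →L[ℂ] H) (s : ℝ) (δ : ℕ → ℝ) (hδ : ∀ n, 0 < δ n)
    (hδ0 : Filter.Tendsto δ Filter.atTop (nhds 0))
    (h : ℕ → H) (hh : ∀ n, ‖h n‖ = 1)
    (hband : ∀ n, S.D.SupportedIn (Set.Icc (s - δ n) (s + δ n)) (h n))
    (hpos : ∃ c : ℝ, 0 < c ∧ ∃ᶠ n in Filter.atTop,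
      c ≤ Crest.OpAlg.ultraMean ω (fun t : ℝ => ‖T (S.D.wave t (h n))‖ ^ 2)) :
    ∃ (n' : ℕ → ℕ) (v : ℕ → (H →L[ℂ] H)) (C η : ℝ), StrictMono n' ∧ 0 < η ∧
      ∀ j : ℕ, v j ∈ S.M ∧ ‖v j‖ ≤ C ∧ η ≤ ‖T (v j S.vac)‖ ∧
        S.D.SupportedIn (Set.Icc (s - 4 * δ (n' j)) (s + 4 * δ (n' j))) (v j S.vac) := by
  obtain ⟨c, hc, hfreq⟩ := hpos
  obtain ⟨f, ψ, hf, hψc, hψ1, hψone, hψzero, hψF⟩ := Crest.Agent.Lib.BRSmooth.exists_kernel
  obtain ⟨Δ, hΔ⟩ : ∃ Δ, ∀ n, δ n ≤ Δ := by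
    obtain ⟨Δ, hΔ⟩ := hδ0.bddAbove_range
    exact ⟨Δ, fun n => hΔ ⟨n, rfl⟩⟩
  have hpos1 : (0 : ℝ) < 1 + Real.exp (s + Δ) := by positivity
  set η₀ : ℝ := Real.sqrt (c / (2 * (1536 * (1 + Real.exp (s + Δ))))) with hη₀
  have hη₀pos : 0 < η₀ := Real.sqrt_pos.2 (by positivity)
  have hη₀sq : η₀ ^ 2 = c / (2 * (1536 * (1 + Real.exp (s + Δ)))) :=
    Real.sq_sqrt (by positivity)
  have hsmall : ∀ n, 1536 * η₀ ^ 2 * (1 + Real.exp (s + δ n)) < c := by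
    intro n
    have h1 : 1 + Real.exp (s + δ n) ≤ 1 + Real.exp (s + Δ) := by
      have : Real.exp (s + δ n) ≤ Real.exp (s + Δ) := Real.exp_le_exp.2 (by linarith [hΔ n])
      linarith
    have h2 : 1536 * η₀ ^ 2 * (1 + Real.exp (s + δ n)) ≤
        1536 * η₀ ^ 2 * (1 + Real.exp (s + Δ)) :=
      mul_le_mul_of_nonneg_left h1 (by positivity)
    have h3 : 1536 * η₀ ^ 2 * (1 + Real.exp (s + Δ)) = c / 2 := by
      rw [hη₀sq]
      field_simp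
    linarith
  obtain ⟨φ, hφ, hφ2⟩ := Filter.extraction_of_frequently_atTop hfreq
  have hv := fun j => Crest.Agent.Lib.BRFinal.exists_v herg ω hω T hf hψc hψ1 hψone hψzero hψF
    s (δ (φ j)) (hδ _) (hh (φ j)) (hband (φ j)) hη₀pos (hsmall (φ j)) (hφ2 j)
  choose v hv using hv
  exact ⟨φ, v, ∫ r, ‖f r‖, η₀, hφ, hη₀pos, hv⟩

end Crest.Agent.S0112
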