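import Crest.Statements.S0166
import Crest.Agent.Lib.TreeBlocks
import Crest.Agent.Lib.Diamond

set_option autoImplicit false
open Crest Crest.AnalysisR

namespace Crest.Agent.S0166

open Crest.AnalysisR.TreePotential Crest.Agent.Lib.TreeSpace Crest.Agent.Lib.AUC
open Crest.Agent.Lib.L2Sum Crest.Agent.Lib.TreeBlocks Filter Topology
open scoped ENNReal

/-- The Banach space: the `ℓ²`-sum of the finite-depth blocks. -/
abbrev EE : Type := lp (fun k : ℕ => ↥(XK k)) 2

local notation "G" => PotentialModel.global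

lemma valid_global (s : List ℕ) : Valid G s := fun h => by cases h

/-- The homogeneous form of the midpoint inequality in a block. -/
lemma midpoint_hom {x y : AG} {t u v A η : ℝ} (ht : 0 ≤ t) (hu : 0 ≤ u) (hv : 0 ≤ v) (hη : 0 ≤ η)
    (h : ∀ a b : ℝ, 0 ≤ a → 0 ≤ b → a ^ 2 + b ^ 2 ≤ 1 → a * ‖x‖ + (t * b / 2) * ‖y‖ ≤ A + η)
    (hA : 0 ≤ A) :
    u * ‖x‖ + (t / 2) * v * ‖y‖ ≤ Real.sqrt (u ^ 2 + v ^ 2) * (A + η) := by
  set w : ℝ := Real.sqrt (u ^ 2 + v ^ 2) with hw
  have hw2 : w ^ 2 = u ^ 2 + v ^ 2 := Real.sq_sqrt (by positivity)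
  have hw0 : 0 ≤ w := Real.sqrt_nonneg _
  rcases eq_or_lt_of_le hw0 with h0 | h0
  · have hu0 : u = 0 := by
      have : u ^ 2 + v ^ 2 = 0 := by rw [← hw2, ← h0]; ring
      nlinarith [sq_nonneg u, sq_nonneg v]
    have hv0 : v = 0 := by
      have : u ^ 2 + v ^ 2 = 0 := by rw [← hw2, ← h0]; ring
      nlinarith [sq_nonneg u, sq_nonneg v]
    rw [hu0, hv0, ← h0]
    simp
  have h1 := h (u / w) (v / w) (by positivity) (by positivity) (by
    have : (u / w) ^ 2 + (v / w) ^ 2 = (u ^ 2 + v ^ 2) / w ^ 2 := by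
      field_simp
    rw [this, hw2]
    exact div_self_le_one _)
  have h2 := mul_le_mul_of_nonneg_left h1 h0.le
  calc u * ‖x‖ + (t / 2) * v * ‖y‖ = w * (u / w * ‖x‖ + t * (v / w) / 2 * ‖y‖) := by
        field_simp
    _ ≤ _ := h2

lemma sum_ind {K K' : ℕ} (hK : K ≤ K') (f : ℕ → ℝ) :
    ∑ k ∈ Finset.range K', (if k < K then f k else 0) = ∑ k ∈ Finset.range K, f k := by
  rw [← Finset.sum_filter]
  congr 1
  ext k
  simp only [Finset.mem_filter, Finset.mem_range]
  omega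

/-- The common kernel of the finitely many coordinate functionals. -/
lemma cof_blocks (K : ℕ) (S : ℕ → Finset (List ℕ)) :
    IsCofSet {y : EE | ∀ k < K, ∀ s ∈ S k, coordAt G ((y k : XK k) : AG) s = 0} := by
  classical
  let ι := Σ k : Fin K, {s // s ∈ S k}
  let φ : ι → (EE →L[ℝ] ℝ) := fun i =>
    (lp.evalCLM ℝ (fun _ : PotentialTest G => ℝ) ⊤ (deltaTest (valid_global i.2.1))).comp
      ((XK i.1).subtypeL.comp (pi (Y := fun k : ℕ => ↥(XK k)) i.1))
  have : {y : EE | ∀ k < K, ∀ s ∈ S k, coordAt G ((y k : XK k) : AG) s = 0}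
      = {y : EE | ∀ i, φ i y = 0} := by
    ext y
    constructor
    · rintro h ⟨⟨k, hk⟩, ⟨s, hs⟩⟩
      have := h k hk s hs
      rwa [coordAt_valid _ (valid_global s)] at this
    · intro h k hk s hs
      rw [coordAt_valid _ (valid_global s)]
      exact h ⟨⟨k, hk⟩, ⟨s, hs⟩⟩
  rw [this]
  exact isCofSet_ker φ

/-- The norm of a block vector. -/
lemma norm_block (k : ℕ) (a : XK k) : ‖a‖ = ‖(a : AG)‖ := rfl

lemma coord_add (x y : EE) (t : ℝ) (k : ℕ) :
    ‖(x + t • y) k‖ = ‖((x k : XK k) : AG) + t • ((y k : XK k) : AG)‖ := rfl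

lemma coord_sub (x y : EE) (t : ℝ) (k : ℕ) :
    ‖(x - t • y) k‖ = ‖((x k : XK k) : AG) - t • ((y k : XK k) : AG)‖ := rfl

set_option maxHeartbeats 1000000 in
/-- The averaged midpoint bound in the `ℓ²`-sum. -/
theorem avg_bound {t : ℝ} (ht : 0 < t) (x : EE) (hx : ‖x‖ = 1) {η : ℝ} (hη : 0 < η) :
    ∃ F : Set EE, IsCofSet F ∧ ∀ y ∈ F, ‖y‖ = 1 →
      Real.sqrt (1 + t ^ 2 / 4) - η ≤ (‖x + t • y‖ + ‖x - t • y‖) / 2 := by
  classical
  set D : ℝ := Real.sqrt (1 + t ^ 2 / 4) with hD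
  have hDpos : 0 < D := Real.sqrt_pos.mpr (by positivity)
  have hD2 : D ^ 2 = 1 + t ^ 2 / 4 := Real.sq_sqrt (by positivity)
  set δ : ℝ := η / (2 * D) with hδ
  have hδpos : 0 < δ := by positivity
  have hxs := hasSum_sq x
  rw [hx, one_pow] at hxs
  obtain ⟨K, hK⟩ : ∃ K, 1 - δ ≤ ∑ k ∈ Finset.range K, ‖x k‖ ^ 2 := by
    have h1 := hxs.tendsto_sum_nat.eventually (lt_mem_nhds (show 1 - δ < 1 by linarith))
    obtain ⟨K, hK⟩ := h1.exists
    exact ⟨K, hK.le⟩
  set η' : ℝ := η / (2 * ((K : ℝ) + 1)) with hη'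
  have hη'pos : 0 < η' := by positivity
  have hmid : ∀ k, ∃ S : Finset (List ℕ), ∀ y ∈ modelSpace G, (∀ s ∈ S, coordAt G y s = 0) →
      ∀ t a b : ℝ, 0 ≤ t → 0 ≤ a → 0 ≤ b → a ^ 2 + b ^ 2 ≤ 1 →
        a * ‖((x k : XK k) : AG)‖ + (t * b / 2) * ‖y‖
          ≤ (‖((x k : XK k) : AG) + t • y‖ + ‖((x k : XK k) : AG) - t • y‖) / 2 + η' :=
    fun k => midpoint_amb (XK_le k (x k).2) hη'pos
  choose S hS using hmid
  refine ⟨_, cof_blocks K S, ?_⟩
  intro y hyF hy
  have hys := hasSum_sq y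
  rw [hy, one_pow] at hys
  obtain ⟨K'', hK''⟩ : ∃ K'', 1 - δ ≤ ∑ k ∈ Finset.range K'', ‖y k‖ ^ 2 := by
    have h1 := hys.tendsto_sum_nat.eventually (lt_mem_nhds (show 1 - δ < 1 by linarith))
    obtain ⟨K', hK'⟩ := h1.exists
    exact ⟨K', hK'.le⟩
  set K' : ℕ := max K K'' with hK'def
  have hKK' : K ≤ K' := le_max_left _ _
  have hK''K' : K'' ≤ K' := le_max_right _ _
  have hy1 : 1 - δ ≤ ∑ k ∈ Finset.range K', ‖y k‖ ^ 2 := by
    refine hK''.trans ?_
    exact Finset.sum_le_sum_of_subset_of_nonneg (Finset.range_subset_range.mpr hK''K')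
      (fun _ _ _ => sq_nonneg _)
  -- weights
  set u : ℕ → ℝ := fun k => if k < K then ‖x k‖ / D else 0 with hu
  set v : ℕ → ℝ := fun k => (t / 2) * ‖y k‖ / D with hv
  set w : ℕ → ℝ := fun k => Real.sqrt (u k ^ 2 + v k ^ 2) with hw
  have hu0 : ∀ k, 0 ≤ u k := by
    intro k
    simp only [hu]
    split_ifs <;> positivity
  have hv0 : ∀ k, 0 ≤ v k := fun k => by
    simp only [hv]
    positivity
  have hw2 : ∀ k, w k ^ 2 = u k ^ 2 + v k ^ 2 := fun k => Real.sq_sqrt (by positivity)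
  have hxbound : ∑ k ∈ Finset.range K, ‖x k‖ ^ 2 ≤ 1 := by
    have := sum_sq_le x (Finset.range K)
    rwa [hx, one_pow] at this
  have hybound : ∑ k ∈ Finset.range K', ‖y k‖ ^ 2 ≤ 1 := by
    have := sum_sq_le y (Finset.range K')
    rwa [hy, one_pow] at this
  have husq : ∑ k ∈ Finset.range K', u k ^ 2 = (∑ k ∈ Finset.range K, ‖x k‖ ^ 2) / D ^ 2 := by
    have h1 : ∀ k, u k ^ 2 = if k < K then ‖x k‖ ^ 2 / D ^ 2 else 0 := by
      intro k
      simp only [hu]
      split_ifs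
      · rw [div_pow]
      · simp
    simp only [h1]
    rw [sum_ind hKK', Finset.sum_div]
  have hvsq : ∑ k ∈ Finset.range K', v k ^ 2
      = (t ^ 2 / 4) * (∑ k ∈ Finset.range K', ‖y k‖ ^ 2) / D ^ 2 := by
    rw [Finset.mul_sum, Finset.sum_div]
    refine Finset.sum_congr rfl fun k _ => ?_
    simp only [hv]
    rw [div_pow, mul_pow]
    ring
  have hwsum : ∑ k ∈ Finset.range K', w k ^ 2 ≤ 1 := by
    simp only [hw2]
    rw [Finset.sum_add_distrib, husq, hvsq, ← add_div, hD2, div_le_one (by positivity)]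
    nlinarith [sq_nonneg t]
  have hwle : ∀ k ∈ Finset.range K', w k ≤ 1 := by
    intro k hk
    have h1 : w k ^ 2 ≤ ∑ k ∈ Finset.range K', w k ^ 2 :=
      Finset.single_le_sum (f := fun k => w k ^ 2) (fun _ _ => sq_nonneg _) hk
    have h2 : w k ^ 2 ≤ 1 := h1.trans hwsum
    exact (sq_le_one_iff₀ (Real.sqrt_nonneg _)).mp h2
  set A : ℕ → ℝ := fun k => (‖(x + t • y) k‖ + ‖(x - t • y) k‖) / 2 with hA
  have hA0 : ∀ k, 0 ≤ A k := fun k => by
    simp only [hA]
    positivity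
  -- the coordinatewise inequality
  have hcoord : ∀ k ∈ Finset.range K', u k * ‖x k‖ + (t / 2) * v k * ‖y k‖
      ≤ w k * A k + (if k < K then η' else 0) := by
    intro k hk
    by_cases hkK : k < K
    · have hyk : ∀ s ∈ S k, coordAt G ((y k : XK k) : AG) s = 0 := hyF k hkK
      have h1 := midpoint_hom (x := ((x k : XK k) : AG)) (y := ((y k : XK k) : AG)) (t := t)
        (u := u k) (v := v k) (A := A k) (η := η') ht.le (hu0 k) (hv0 k) hη'pos.le
        (fun a b ha hb hab => by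
          have := hS k ((y k : XK k) : AG) (XK_le k (y k).2) hyk t a b ht.le ha hb hab
          simpa only [hA, coord_add, coord_sub] using this)
        (hA0 k)
      have h2 : w k * (A k + η') ≤ w k * A k + η' := by
        have := hwle k hk
        nlinarith
      rw [if_pos hkK]
      exact h1.trans h2
    · have hu0' : u k = 0 := by
        simp only [hu]
        rw [if_neg hkK]
      have hwv : w k = v k := by
        simp only [hw]
        rw [hu0', zero_pow two_ne_zero, zero_add, Real.sqrt_sq (hv0 k)]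
      rw [if_neg hkK, hu0', hwv, add_zero, zero_mul, zero_add]
      have hdiff : 2 * t * ‖y k‖ ≤ ‖(x + t • y) k‖ + ‖(x - t • y) k‖ := by
        have h1 : (2 * t) • (y k) = (x + t • y) k - (x - t • y) k := by
          have : (x + t • y) - (x - t • y) = (2 * t) • y := by module
          have h2 := congrArg (fun z : EE => z k) this
          exact h2.symm
        have h2 : ‖(2 * t) • (y k)‖ = 2 * t * ‖y k‖ := by
          rw [norm_smul, Real.norm_eq_abs, abs_of_pos (by positivity)]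
        rw [← h2, h1]
        exact norm_sub_le _ _
      have hyk : 0 ≤ ‖y k‖ := norm_nonneg _
      have hAk : t * ‖y k‖ ≤ A k := by
        simp only [hA]
        linarith
      have hvk := hv0 k
      have : (t / 2) * ‖y k‖ ≤ A k := by nlinarith
      calc (t / 2) * v k * ‖y k‖ = v k * ((t / 2) * ‖y k‖) := by ring
        _ ≤ v k * A k := by gcongr
  -- sum up
  have hsum := Finset.sum_le_sum hcoord
  rw [Finset.sum_add_distrib, Finset.sum_add_distrib, sum_ind hKK'] at hsum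
  have herr : ∑ k ∈ Finset.range K, η' ≤ η / 2 := by
    rw [Finset.sum_const, Finset.card_range, nsmul_eq_mul, hη']
    have : (K : ℝ) * (η / (2 * ((K : ℝ) + 1))) = (η / 2) * ((K : ℝ) / ((K : ℝ) + 1)) := by
      field_simp
    rw [this]
    have h2 : (K : ℝ) / ((K : ℝ) + 1) ≤ 1 := by
      rw [div_le_one (by positivity)]
      linarith
    nlinarith
  have hlhs1 : ∑ k ∈ Finset.range K', u k * ‖x k‖ = (∑ k ∈ Finset.range K, ‖x k‖ ^ 2) / D := by
    have h1 : ∀ k, u k * ‖x k‖ = if k < K then ‖x k‖ ^ 2 / D else 0 := by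
      intro k
      simp only [hu]
      split_ifs
      · ring
      · simp
    simp only [h1]
    rw [sum_ind hKK', Finset.sum_div]
  have hlhs2 : ∑ k ∈ Finset.range K', (t / 2) * v k * ‖y k‖
      = (t ^ 2 / 4) * (∑ k ∈ Finset.range K', ‖y k‖ ^ 2) / D := by
    rw [Finset.mul_sum, Finset.sum_div]
    refine Finset.sum_congr rfl fun k _ => ?_
    simp only [hv]
    ring
  have hr1 : ∑ k ∈ Finset.range K', w k * ‖(x + t • y) k‖ ≤ ‖x + t • y‖ :=
    weighted_le _ _ w hwsum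
  have hr2 : ∑ k ∈ Finset.range K', w k * ‖(x - t • y) k‖ ≤ ‖x - t • y‖ :=
    weighted_le _ _ w hwsum
  have hright : ∑ k ∈ Finset.range K', w k * A k
      = (∑ k ∈ Finset.range K', w k * ‖(x + t • y) k‖
        + ∑ k ∈ Finset.range K', w k * ‖(x - t • y) k‖) / 2 := by
    rw [← Finset.sum_add_distrib, Finset.sum_div]
    refine Finset.sum_congr rfl fun k _ => ?_
    simp only [hA]
    ring
  rw [hlhs1, hlhs2, hright] at hsum
  have hmain : D - η / 2 ≤ (∑ k ∈ Finset.range K, ‖x k‖ ^ 2) / D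
      + (t ^ 2 / 4) * (∑ k ∈ Finset.range K', ‖y k‖ ^ 2) / D := by
    rw [← add_div, le_div_iff₀ hDpos]
    have h1 : (t ^ 2 / 4) * (1 - δ) ≤ (t ^ 2 / 4) * (∑ k ∈ Finset.range K', ‖y k‖ ^ 2) := by
      gcongr
    have h2 : η / 2 * D = δ * D ^ 2 := by
      rw [hδ]
      field_simp
    have h3 : (D - η / 2) * D = D ^ 2 - δ * D ^ 2 := by
      rw [sub_mul, h2]
      ring
    rw [h3, hD2]
    have h4 : 1 + t ^ 2 / 4 - δ * (1 + t ^ 2 / 4) = (1 - δ) + (t ^ 2 / 4) * (1 - δ) := by ring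
    rw [h4]
    linarith
  linarith

/-- Sibling coordinates in a block get close to every closed finite-codimensional subspace. -/
lemma key {F : Set EE} (hF : IsCofSet F) {k : ℕ} (r : List ℕ) (hr : r.length < k) {ε : ℝ}
    (hε : 0 < ε) : ∃ a : ℕ, ∃ y ∈ F,
      ‖(lp.single 2 k ⟨coordVector G (a :: r), coord_mem_XK (by simpa using hr)⟩ : EE) - y‖ < ε := by
  refine exists_near_cof_of_avg hF
    (fun a => (lp.single 2 k ⟨coordVector G (a :: r), coord_mem_XK (by simpa using hr)⟩ : EE))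
    ⟨2, fun i => ?_⟩ (fun φ hφ => ?_) hε
  · rw [lp.norm_single (by norm_num)]
    exact norm_coord_le _
  · refine (tendsto_avg_sibling (m := G) r φ hφ).congr fun n => ?_
    have h := map_smul (iota (Y := fun k : ℕ => ↥(XK k)) k) (n : ℝ)⁻¹
      (∑ i ∈ Finset.range n, (⟨coordVector G (φ i :: r), coord_mem_XK (by simpa using hr)⟩ : XK k))
    rw [map_sum] at h
    have h2 : (n : ℝ)⁻¹ • ∑ i ∈ Finset.range n,
        (lp.single 2 k ⟨coordVector G (φ i :: r), coord_mem_XK (by simpa using hr)⟩ : EE)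
        = lp.single 2 k ((n : ℝ)⁻¹ • ∑ i ∈ Finset.range n,
          (⟨coordVector G (φ i :: r), coord_mem_XK (by simpa using hr)⟩ : XK k)) := h.symm
    rw [h2, lp.norm_single (by norm_num), Submodule.coe_norm (s := XK k), Submodule.coe_smul,
      Submodule.coe_sum]

lemma not_fd : ¬ FiniteDimensional ℝ EE := by
  intro hfd
  have hF : IsCofSet ({0} : Set EE) := by
    refine ⟨⊥, by simp, isClosed_singleton, ?_⟩
    exact Module.Finite.quotient ℝ _
  obtain ⟨a, y, hy, hlt⟩ := key hF (k := 1) [] (by simp) one_pos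
  have hy0 : y = 0 := hy
  rw [hy0, sub_zero, lp.norm_single (by norm_num)] at hlt
  have h1 : 1 ≤ ‖coordVector G [a]‖ := one_le_norm_coord (by simp)
  exact absurd hlt (not_lt.mpr h1)

lemma no_auc (N : EE → ℝ) (hN1 : ∀ x y : EE, N (x + y) ≤ N x + N y)
    (hN2 : ∀ (a : ℝ) (x : EE), N (a • x) = |a| * N x)
    (hN3 : ∃ a b : ℝ, 0 < a ∧ ∀ x : EE, a * ‖x‖ ≤ N x ∧ N x ≤ b * ‖x‖)
    (hA : ∀ t : ℝ, 0 < t → ∃ c : ℝ, 0 < c ∧ ∀ x : EE, N x = 1 → ∃ F : Set EE, IsCofSet F ∧
      ∀ y ∈ F, N y = 1 → c ≤ N (x + t • y) - 1) : False := by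
  refine no_auc_of_walk (X := EE) N hN1 hN2 hN3 hA (κ := 1) (C := 1) (c₁ := 1)
    one_pos one_pos ?_
  intro n
  refine ⟨fun j => {x | ∃ v : List ℕ, v.length = j + 1 ∧ ∃ hm : pathVec G v ∈ XK (n + 1),
      x = (lp.single 2 (n + 1) ⟨pathVec G v, hm⟩ : EE)},
    ⟨_, [0], rfl, pathVec_mem_XK (by simp), rfl⟩, ?_, ?_⟩
  · rintro j hj x ⟨v, hv, hm, rfl⟩
    have hv0 : v ≠ [] := by
      intro h
      simp [h] at hv
    rw [lp.norm_single (by norm_num)]
    exact ⟨one_le_norm_pathVec hv0, norm_pathVec_le v⟩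
  · rintro j hj x ⟨v, hv, hm, rfl⟩ F hF ε hε
    have hlen : v.length < n + 1 := by omega
    obtain ⟨a, y, hy, hlt⟩ := key hF (k := n + 1) v hlen hε
    have hm' : pathVec G (a :: v) ∈ XK (n + 1) := pathVec_mem_XK (by simp; omega)
    have hdiff : (lp.single 2 (n + 1) ⟨pathVec G (a :: v), hm'⟩ : EE)
        - lp.single 2 (n + 1) ⟨pathVec G v, hm⟩
        = lp.single 2 (n + 1) ⟨coordVector G (a :: v), coord_mem_XK (by simpa using hlen)⟩ := by
      rw [← lp.single_sub]
      congr 1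
      ext1
      simp [pathVec]
    refine ⟨_, ⟨a :: v, by simp [hv], hm', rfl⟩, ?_, y, hy, ?_⟩
    · rw [hdiff, lp.norm_single (by norm_num)]
      exact one_le_norm_coord (by simp)
    · rw [hdiff]
      exact hlt

lemma max_mod : Crest.Agent.Lib.Diamond.MaxMod EE := by
  intro t ht x hx η hη
  obtain ⟨F, hF, hb⟩ := avg_bound ht x hx hη
  refine ⟨F, hF, fun y hy hyn => (hb y hy hyn).trans ?_⟩
  have h1 := le_max_left ‖x + t • y‖ ‖x - t • y‖
  have h2 := le_max_right ‖x + t • y‖ ‖x - t • y‖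
  linarith

/-- There is a real Banach space (RealBanach record) that is separable, infinite-dimensional and reflexive, whose given norm has at every t > 0 averaged midpoint asymptotic modulus at least √(1 + t²/12) - 1 and at least (√(1 + t²/4) - 1)/2 and maximum-based midpoint modulus at least √(1 + t²/4) - 1, on which no equivalent norm is asymptotically uniformly convex, and in which for every k every map of the depth-k countably branching diamond graph of distortion at most D has 1 + k/4 ≤ D². -/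
theorem result :
    ∃ E : Crest.AnalysisR.RealBanach, E.IsSeparableInfiniteDim ∧ E.IsReflexive ∧
      (∀ t : ℝ, 0 < t → E.MidpointModulusGE E.norm t (Real.sqrt (1 + t ^ 2 / 12) - 1) ∧
        E.MidpointModulusGE E.norm t ((Real.sqrt (1 + t ^ 2 / 4) - 1) / 2) ∧
        E.MaxMidpointModulusGE E.norm t (Real.sqrt (1 + t ^ 2 / 4) - 1)) ∧
      (∀ N : E.X → ℝ, E.IsEquivNorm N → ¬ E.IsAUC N) ∧
      ∀ (k : ℕ) (f : Crest.AnalysisR.DiamondVertex k → E.X) (D : ℝ),
        E.HasDistortionLE k f D → 1 + (k : ℝ) / 4 ≤ D ^ 2 := by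
  refine ⟨⟨EE, inferInstance, inferInstance, inferInstance⟩, ⟨?_, ?_⟩, ?_, ?_, ?_, ?_⟩
  · exact separable fun k => separable_XK k
  · exact not_fd
  · exact reflexive_lp2 fun k => reflexive_XK k
  · intro t ht
    have hsq : (1 : ℝ) ≤ Real.sqrt (1 + t ^ 2 / 4) := Real.one_le_sqrt.mpr (by nlinarith [sq_nonneg t])
    have hle : Real.sqrt (1 + t ^ 2 / 12) ≤ Real.sqrt (1 + t ^ 2 / 4) :=
      Real.sqrt_le_sqrt (by nlinarith [sq_nonneg t])
    refine ⟨?_, ?_, ?_⟩
    · intro x hx η hη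
      obtain ⟨F, hF, hb⟩ := avg_bound ht x hx hη
      refine ⟨F, hF, fun y hy hyn => ?_⟩
      have := hb y hy hyn
      show _ ≤ (‖x + t • y‖ + ‖x - t • y‖) / 2 - 1
      linarith
    · intro x hx η hη
      obtain ⟨F, hF, hb⟩ := avg_bound ht x hx hη
      refine ⟨F, hF, fun y hy hyn => ?_⟩
      have := hb y hy hyn
      show _ ≤ (‖x + t • y‖ + ‖x - t • y‖) / 2 - 1
      linarith
    · intro x hx η hη
      obtain ⟨F, hF, hb⟩ := max_mod t ht x hx η hη
      refine ⟨F, hF, fun y hy hyn => ?_⟩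
      have := hb y hy hyn
      show _ ≤ max ‖x + t • y‖ ‖x - t • y‖ - 1
      linarith
  · intro N hN hA
    exact no_auc N hN.1 hN.2.1 hN.2.2 hA
  · intro k f D h
    exact Crest.Agent.Lib.Diamond.distortion_bound (X := EE) max_mod k f D h

end Crest.Agent.S0166
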