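import Crest.Statements.S0167
import Crest.Agent.Lib.Daugavet

set_option autoImplicit false
open Crest Crest.AnalysisR

namespace Crest.Agent.S0167

open MeasureTheory

section L1

variable {Ω : Type} [MeasurableSpace Ω] {P : Measure Ω} [IsProbabilityMeasure P]

lemma norm_eq_int_abs (f : Lp ℝ 1 P) : ‖f‖ = ∫ z, |(f : Ω → ℝ) z| ∂P := by
  rw [L1.norm_eq_integral_norm]
  simp only [Real.norm_eq_abs]

lemma norm_sub_eq_int (f g : Lp ℝ 1 P) : ‖f - g‖ = ∫ z, |(f : Ω → ℝ) z - (g : Ω → ℝ) z| ∂P := by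
  rw [norm_eq_int_abs]
  refine integral_congr_ae ?_
  filter_upwards [Lp.coeFn_sub f g] with z hz
  rw [hz, Pi.sub_apply]

lemma norm_add_smul_eq_int (f g : Lp ℝ 1 P) (t : ℝ) :
    ‖f + t • g‖ = ∫ z, |(f : Ω → ℝ) z + t * (g : Ω → ℝ) z| ∂P := by
  rw [norm_eq_int_abs]
  refine integral_congr_ae ?_
  filter_upwards [Lp.coeFn_add f (t • g), Lp.coeFn_smul t g] with z hz hz2
  rw [hz, Pi.add_apply, hz2, Pi.smul_apply, smul_eq_mul]

lemma norm_sub_smul_eq_int (f g : Lp ℝ 1 P) (t : ℝ) :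
    ‖f - t • g‖ = ∫ z, |(f : Ω → ℝ) z - t * (g : Ω → ℝ) z| ∂P := by
  rw [norm_eq_int_abs]
  refine integral_congr_ae ?_
  filter_upwards [Lp.coeFn_sub f (t • g), Lp.coeFn_smul t g] with z hz hz2
  rw [hz, Pi.sub_apply, hz2, Pi.smul_apply, smul_eq_mul]

lemma int_abs (f : Lp ℝ 1 P) : Integrable (fun z => |(f : Ω → ℝ) z|) P :=
  (L1.integrable_coeFn f).abs

lemma abs_two_right (u v : ℝ) : 2 * |v| ≤ |u + v| + |u - v| := by
  have h : 2 * v = (u + v) - (u - v) := by ring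
  have h2 := abs_sub (u + v) (u - v)
  rw [← h, abs_mul] at h2
  norm_num at h2
  linarith

lemma abs_two_left (u v : ℝ) : 2 * |u| ≤ |u + v| + |u - v| := by
  have h : 2 * u = (u + v) + (u - v) := by ring
  have h2 := abs_add_le (u + v) (u - v)
  rw [← h, abs_mul] at h2
  norm_num at h2
  linarith

/-- The mass of `y` on the set where it differs from `g` is about one half, when `‖g‖ ≤ ‖y - g‖`. -/
lemma half_mass {x y g : Lp ℝ 1 P} {t a : ℝ} (ht : 0 < t) (ha : 0 < a) (hx : ‖x‖ = 1)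
    (hy : ‖y‖ = 1) (hg : ‖g‖ ≤ ‖y - g‖) :
    t * (1 / 2 - a) - ∫ z in {z | a < |(y : Ω → ℝ) z - (g : Ω → ℝ) z|}, |(x : Ω → ℝ) z| ∂P
      ≤ (‖x + t • y‖ + ‖x - t • y‖) / 2 - 1 := by
  set A : Set Ω := {z | a < |(y : Ω → ℝ) z - (g : Ω → ℝ) z|} with hAdef
  have hmy := (Lp.stronglyMeasurable y).measurable
  have hmg := (Lp.stronglyMeasurable g).measurable
  have hmx := (Lp.stronglyMeasurable x).measurable
  have hA : MeasurableSet A := measurableSet_lt measurable_const (hmy.sub hmg).abs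
  have hiy := int_abs y
  have hig := int_abs g
  have hix := int_abs x
  have hiyg : Integrable (fun z => |(y : Ω → ℝ) z - (g : Ω → ℝ) z|) P :=
    ((L1.integrable_coeFn y).sub (L1.integrable_coeFn g)).abs
  -- splittings
  have hs1 := integral_add_compl hA hiy
  have hs2 := integral_add_compl hA hig
  have hs3 := integral_add_compl hA hiyg
  have hs4 := integral_add_compl hA hix
  rw [← norm_eq_int_abs, hy] at hs1
  rw [← norm_eq_int_abs] at hs2
  rw [← norm_sub_eq_int] at hs3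
  rw [← norm_eq_int_abs, hx] at hs4
  -- bound on the complement
  have hb1 : ∫ z in Aᶜ, |(y : Ω → ℝ) z - (g : Ω → ℝ) z| ∂P ≤ a := by
    have h1 : ∫ z in Aᶜ, |(y : Ω → ℝ) z - (g : Ω → ℝ) z| ∂P ≤ ∫ _ in Aᶜ, a ∂P := by
      refine setIntegral_mono_on hiyg.integrableOn (integrable_const a).integrableOn hA.compl ?_
      intro z hz
      exact not_lt.mp hz
    refine h1.trans ?_
    rw [setIntegral_const, smul_eq_mul]
    have h2 : P.real Aᶜ ≤ 1 := measureReal_le_one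
    nlinarith
  -- triangle inequalities
  have hb2 : ∫ z in A, |(y : Ω → ℝ) z - (g : Ω → ℝ) z| ∂P
      ≤ ∫ z in A, |(y : Ω → ℝ) z| ∂P + ∫ z in A, |(g : Ω → ℝ) z| ∂P := by
    rw [← integral_add hiy.integrableOn hig.integrableOn]
    exact setIntegral_mono_on hiyg.integrableOn (hiy.integrableOn.add hig.integrableOn) hA
      (fun z _ => abs_sub _ _)
  have hb3 : ∫ z in Aᶜ, |(y : Ω → ℝ) z| ∂P
      ≤ ∫ z in Aᶜ, |(g : Ω → ℝ) z| ∂P + ∫ z in Aᶜ, |(y : Ω → ℝ) z - (g : Ω → ℝ) z| ∂P := by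
    rw [← integral_add hig.integrableOn hiyg.integrableOn]
    refine setIntegral_mono_on hiy.integrableOn (hig.integrableOn.add hiyg.integrableOn) hA.compl
      (fun z _ => ?_)
    have := abs_add_le ((g : Ω → ℝ) z) ((y : Ω → ℝ) z - (g : Ω → ℝ) z)
    simpa using this
  have hσ : 1 / 2 - a ≤ ∫ z in A, |(y : Ω → ℝ) z| ∂P := by linarith
  -- the integrand
  have hi1 : Integrable (fun z => |(x : Ω → ℝ) z + t * (y : Ω → ℝ) z|) P :=
    ((L1.integrable_coeFn x).add ((L1.integrable_coeFn y).const_mul t)).abs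
  have hi2 : Integrable (fun z => |(x : Ω → ℝ) z - t * (y : Ω → ℝ) z|) P :=
    ((L1.integrable_coeFn x).sub ((L1.integrable_coeFn y).const_mul t)).abs
  have hi3 : Integrable (fun z => |(x : Ω → ℝ) z + t * (y : Ω → ℝ) z|
      + |(x : Ω → ℝ) z - t * (y : Ω → ℝ) z|) P := hi1.add hi2
  have hsum : ‖x + t • y‖ + ‖x - t • y‖ = ∫ z, (|(x : Ω → ℝ) z + t * (y : Ω → ℝ) z|
      + |(x : Ω → ℝ) z - t * (y : Ω → ℝ) z|) ∂P := by
    rw [norm_add_smul_eq_int, norm_sub_smul_eq_int, integral_add hi1 hi2]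
  have hs5 := integral_add_compl hA hi3
  have hb4 : (2 * t) * ∫ z in A, |(y : Ω → ℝ) z| ∂P
      ≤ ∫ z in A, (|(x : Ω → ℝ) z + t * (y : Ω → ℝ) z|
        + |(x : Ω → ℝ) z - t * (y : Ω → ℝ) z|) ∂P := by
    rw [← integral_const_mul]
    refine setIntegral_mono_on (hiy.const_mul _).integrableOn hi3.integrableOn hA (fun z _ => ?_)
    have h1 := abs_two_right ((x : Ω → ℝ) z) (t * (y : Ω → ℝ) z)
    rw [abs_mul, abs_of_pos ht] at h1
    linarith
  have hb5 : 2 * ∫ z in Aᶜ, |(x : Ω → ℝ) z| ∂P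
      ≤ ∫ z in Aᶜ, (|(x : Ω → ℝ) z + t * (y : Ω → ℝ) z|
        + |(x : Ω → ℝ) z - t * (y : Ω → ℝ) z|) ∂P := by
    rw [← integral_const_mul]
    refine setIntegral_mono_on (hix.const_mul _).integrableOn hi3.integrableOn hA.compl
      (fun z _ => ?_)
    exact abs_two_left ((x : Ω → ℝ) z) (t * (y : Ω → ℝ) z)
  have hfin : (2 * t) * (1 / 2 - a) ≤ (2 * t) * ∫ z in A, |(y : Ω → ℝ) z| ∂P := by gcongr
  rw [hsum, ← hs5]
  linarith

end L1

section main

variable {Ω : Type} [MeasurableSpace Ω] {P : Measure Ω} [IsProbabilityMeasure P]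
  {E : Submodule ℝ (Lp ℝ 1 P)}

open Crest.AnalysisR.L1Subspace Crest.Agent.Lib.AUC Crest.Agent.Lib.Daugavet

lemma ua_cont (x : Lp ℝ 1 P) {η : ℝ} (hη : 0 < η) :
    ∃ δ : ℝ, 0 < δ ∧ ∀ A : Set Ω, MeasurableSet A → P A < ENNReal.ofReal δ →
      ∫ z in A, |(x : Ω → ℝ) z| ∂P < η := by
  have hi := int_abs x
  have hfin : ∫⁻ z, ENNReal.ofReal |(x : Ω → ℝ) z| ∂P ≠ ⊤ := hi.lintegral_lt_top.ne
  obtain ⟨δ, hδ, hδ2⟩ := exists_pos_setLIntegral_lt_of_measure_lt hfin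
    (ε := ENNReal.ofReal η) (by simpa using hη)
  obtain ⟨r, hr, hr2⟩ := ENNReal.lt_iff_exists_nnreal_btwn.mp hδ
  refine ⟨r, by exact_mod_cast hr, fun A hA hPA => ?_⟩
  have h1 : P A < δ := by
    refine lt_trans hPA ?_
    simpa using hr2
  have h2 := hδ2 A h1
  rw [← ofReal_integral_eq_lintegral_ofReal hi.integrableOn
    (Filter.Eventually.of_forall fun z => abs_nonneg _)] at h2
  exact (ENNReal.ofReal_lt_ofReal_iff hη).mp h2

lemma measureDist_lt {f g : Lp ℝ 1 P} {δ : ℝ} (h : measureDist P f g < δ) :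
    ∃ a : ℝ, 0 < a ∧ a < δ ∧
      P {z | a < |(f : Ω → ℝ) z - (g : Ω → ℝ) z|} < ENNReal.ofReal a := by
  have hne : {a : ℝ | 0 < a ∧ P {z | a < |(f : Ω → ℝ) z - (g : Ω → ℝ) z|} < ENNReal.ofReal a}.Nonempty := by
    refine ⟨2, by norm_num, ?_⟩
    refine lt_of_le_of_lt prob_le_one ?_
    simp
  obtain ⟨a, ⟨ha, ha2⟩, ha3⟩ := exists_lt_of_csInf_lt hne h
  exact ⟨a, ha, ha3, ha2⟩

lemma midGE (htb : UnitBallTotallyBoundedInMeasure P E) {t : ℝ} (ht : 0 < t) (x : E)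
    (hx : ‖x‖ = 1) {η : ℝ} (hη : 0 < η) :
    ∃ F : Set E, IsCofSet F ∧ ∀ y ∈ F, ‖y‖ = 1 →
      max (t / 2) (t - 1) - η ≤ (‖x + t • y‖ + ‖x - t • y‖) / 2 - 1 := by
  obtain ⟨δ, hδ, hUI⟩ := ua_cont (x : Lp ℝ 1 P) (show 0 < η / 2 by positivity)
  set δ' : ℝ := min δ (η / (2 * t)) with hδ'
  have hδ'pos : 0 < δ' := lt_min hδ (by positivity)
  obtain ⟨s, hs1, hs2⟩ := htb δ' hδ'pos
  have hdual : ∀ g : s, ∃ φ : E →L[ℝ] ℝ, ‖φ‖ ≤ 1 ∧
      φ ⟨(g : Lp ℝ 1 P), (hs1 g g.2).1⟩ = ‖(g : Lp ℝ 1 P)‖ := by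
    intro g
    obtain ⟨φ, h1, h2⟩ := exists_dual_vector'' ℝ (⟨(g : Lp ℝ 1 P), (hs1 g g.2).1⟩ : E)
    exact ⟨φ, h1, by simpa using h2⟩
  choose φ hφ1 hφ2 using hdual
  refine ⟨_, isCofSet_ker φ, ?_⟩
  intro y hy hyn
  have hyn' : ‖(y : Lp ℝ 1 P)‖ = 1 := hyn
  have hxn' : ‖(x : Lp ℝ 1 P)‖ = 1 := hx
  -- second bound: triangle inequality
  have htri : t ≤ (‖x + t • y‖ + ‖x - t • y‖) / 2 := by
    have h1 : ‖(2 * t) • y‖ ≤ ‖x + t • y‖ + ‖x - t • y‖ := by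
      have : (2 * t) • y = (x + t • y) - (x - t • y) := by
        rw [two_mul, add_smul]; abel
      rw [this]
      exact norm_sub_le _ _
    rw [norm_smul, hyn, mul_one, Real.norm_eq_abs, abs_of_pos (by positivity)] at h1
    linarith
  obtain ⟨g, hg, hgd⟩ := hs2 y y.2 hyn'.le
  obtain ⟨a, ha, haδ, hPA⟩ := measureDist_lt hgd
  have hgE := (hs1 g hg).1
  have hnorm : ‖g‖ ≤ ‖(y : Lp ℝ 1 P) - g‖ := by
    have h1 := hφ2 ⟨g, hg⟩
    have h2 : φ ⟨g, hg⟩ y = 0 := hy ⟨g, hg⟩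
    have h3 : φ ⟨g, hg⟩ (⟨g, hgE⟩ - y) = ‖g‖ := by
      rw [map_sub, h2, sub_zero]
      exact h1
    have h4 := (φ ⟨g, hg⟩).le_opNorm (⟨g, hgE⟩ - y)
    have h5 : ‖(⟨g, hgE⟩ - y : E)‖ = ‖(y : Lp ℝ 1 P) - g‖ := by
      rw [norm_sub_rev, Submodule.coe_norm, Submodule.coe_sub]
    rw [h3, h5, Real.norm_eq_abs] at h4
    have h6 : ‖φ ⟨g, hg⟩‖ * ‖(y : Lp ℝ 1 P) - g‖ ≤ 1 * ‖(y : Lp ℝ 1 P) - g‖ := by
      gcongr
      exact hφ1 _
    have h7 := le_abs_self ‖g‖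
    rw [abs_of_nonneg (norm_nonneg g)] at h4
    linarith
  have hm := half_mass (x := (x : Lp ℝ 1 P)) (y := (y : Lp ℝ 1 P)) (g := g) ht ha hxn' hyn' hnorm
  have hA : MeasurableSet {z | a < |((y : Lp ℝ 1 P) : Ω → ℝ) z - (g : Ω → ℝ) z|} :=
    measurableSet_lt measurable_const
      ((Lp.stronglyMeasurable (y : Lp ℝ 1 P)).measurable.sub (Lp.stronglyMeasurable g).measurable).abs
  have hδa : a < δ := lt_of_lt_of_le haδ (min_le_left _ _)
  have hPA2 : P {z | a < |((y : Lp ℝ 1 P) : Ω → ℝ) z - (g : Ω → ℝ) z|} < ENNReal.ofReal δ :=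
    lt_of_lt_of_le hPA (ENNReal.ofReal_le_ofReal hδa.le)
  have hUI2 := hUI _ hA hPA2
  have hta : t * a ≤ η / 2 := by
    have : a ≤ η / (2 * t) := haδ.le.trans (min_le_right _ _)
    calc t * a ≤ t * (η / (2 * t)) := by gcongr
      _ = η / 2 := by field_simp
  have hm2 : (‖(x : Lp ℝ 1 P) + t • (y : Lp ℝ 1 P)‖ + ‖(x : Lp ℝ 1 P) - t • (y : Lp ℝ 1 P)‖) / 2 - 1
      = (‖x + t • y‖ + ‖x - t • y‖) / 2 - 1 := by
    have h1 : ‖x + t • y‖ = ‖(x : Lp ℝ 1 P) + t • (y : Lp ℝ 1 P)‖ := by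
      rw [Submodule.coe_norm, Submodule.coe_add, Submodule.coe_smul]
    have h2 : ‖x - t • y‖ = ‖(x : Lp ℝ 1 P) - t • (y : Lp ℝ 1 P)‖ := by
      rw [Submodule.coe_norm, Submodule.coe_sub, Submodule.coe_smul]
    rw [h1, h2]
  rw [hm2] at hm
  rcases max_cases (t / 2) (t - 1) with ⟨h1, _⟩ | ⟨h1, _⟩
  · rw [h1]
    nlinarith
  · rw [h1]
    linarith


/-- Lower bound for the one-sided modulus (valid in any normed space). -/
lemma oneGE {X : Type*} [NormedAddCommGroup X] [NormedSpace ℝ X] {t : ℝ} (x : X) (hx : ‖x‖ = 1)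
    {η : ℝ} (hη : 0 < η) :
    ∃ F : Set X, IsCofSet F ∧ ∀ y ∈ F, ‖y‖ = 1 → max 0 (t - 2) - η ≤ ‖x + t • y‖ - 1 := by
  obtain ⟨φ, h1, h2⟩ := exists_dual_vector'' ℝ x
  have h2' : φ x = ‖x‖ := by simpa using h2
  refine ⟨_, isCofSet_ker (fun _ : Unit => φ), ?_⟩
  intro y hy hyn
  have hy0 : φ y = 0 := hy ()
  have h3 : (1 : ℝ) ≤ ‖x + t • y‖ := by
    have h4 := φ.le_opNorm (x + t • y)
    rw [map_add, map_smul, hy0, smul_zero, add_zero, h2', hx, Real.norm_eq_abs, abs_of_pos one_pos] at h4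
    have h5 : ‖φ‖ * ‖x + t • y‖ ≤ 1 * ‖x + t • y‖ := by
      gcongr
    linarith
  have h6 : t - 1 ≤ ‖x + t • y‖ := by
    have h7 : ‖t • y‖ ≤ ‖x + t • y‖ + ‖x‖ := by
      have : t • y = (x + t • y) - x := by abel
      conv_lhs => rw [this]
      exact norm_sub_le _ _
    rw [norm_smul, hyn, mul_one, hx, Real.norm_eq_abs] at h7
    have := le_abs_self t
    linarith
  rcases max_cases 0 (t - 2) with ⟨h, _⟩ | ⟨h, _⟩ <;> rw [h] <;> linarith

/-- Upper bound for `‖x + t y‖` when `‖x + 2 y‖` is almost one. -/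
lemma far_bound {X : Type*} [NormedAddCommGroup X] [NormedSpace ℝ X] {t η : ℝ} (ht : 0 < t)
    (hη : 0 < η) {x y : X} (hx : ‖x‖ = 1) (hy : ‖y‖ = 1) (h : ‖x + (2 : ℝ) • y‖ ≤ 1 + η) :
    ‖x + t • y‖ ≤ 1 + max 0 (t - 2) + η := by
  rcases le_or_gt t 2 with h2 | h2
  · have h3 : x + t • y = (1 - t / 2) • x + (t / 2) • (x + (2 : ℝ) • y) := by
      have : t / 2 * 2 = t := by ring
      rw [smul_add, smul_smul, this, sub_smul, one_smul]
      abel
    rw [h3]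
    refine (norm_add_le _ _).trans ?_
    rw [norm_smul, norm_smul, hx, Real.norm_eq_abs, Real.norm_eq_abs,
      abs_of_nonneg (by linarith), abs_of_pos (by positivity)]
    have h4 : t / 2 * ‖x + (2 : ℝ) • y‖ ≤ t / 2 * (1 + η) := by gcongr
    have h5 : (0 : ℝ) ≤ max 0 (t - 2) := le_max_left _ _
    nlinarith
  · have h3 : x + t • y = (x + (2 : ℝ) • y) + (t - 2) • y := by
      rw [sub_smul]; abel
    rw [h3]
    refine (norm_add_le _ _).trans ?_
    rw [norm_smul, hy, mul_one, Real.norm_eq_abs, abs_of_pos (by linarith)]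
    have h5 : t - 2 ≤ max 0 (t - 2) := le_max_right _ _
    linarith

lemma oneLE {X : Type*} [NormedAddCommGroup X] [NormedSpace ℝ X] (hD : HasDaugavetProperty X)
    {t : ℝ} (ht : 0 < t) (x : X) (hx : ‖x‖ = 1) {F : Set X} (hF : IsCofSet F) {η : ℝ}
    (hη : 0 < η) : ∃ y ∈ F, ‖y‖ = 1 ∧ ‖x + t • y‖ - 1 ≤ max 0 (t - 2) + η := by
  obtain ⟨y, hyF, hy, hfar⟩ := exists_far_in_cof hD hx hF hη
  refine ⟨y, hyF, hy, ?_⟩
  have := far_bound ht hη hx hy hfar
  linarith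

lemma midLE {X : Type*} [NormedAddCommGroup X] [NormedSpace ℝ X] (hD : HasDaugavetProperty X)
    {t : ℝ} (ht : 0 < t) (x : X) (hx : ‖x‖ = 1) {F : Set X} (hF : IsCofSet F) {η : ℝ}
    (hη : 0 < η) :
    ∃ y ∈ F, ‖y‖ = 1 ∧ (‖x + t • y‖ + ‖x - t • y‖) / 2 - 1 ≤ max (t / 2) (t - 1) + η := by
  obtain ⟨y, hyF, hy, hfar⟩ := exists_far_in_cof hD hx hF hη
  refine ⟨y, hyF, hy, ?_⟩
  have h1 := far_bound ht hη hx hy hfar
  have h2 : ‖x - t • y‖ ≤ 1 + t := by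
    refine (norm_sub_le _ _).trans ?_
    rw [norm_smul, hx, hy, mul_one, Real.norm_eq_abs, abs_of_pos ht]
  have h3 : max 0 (t - 2) + t ≤ 2 * max (t / 2) (t - 1) := by
    rcases max_cases 0 (t - 2) with ⟨h, _⟩ | ⟨h, _⟩
    · rw [h]
      have := le_max_left (t / 2) (t - 1)
      linarith
    · rw [h]
      have := le_max_right (t / 2) (t - 1)
      linarith
  linarith

lemma noAUC {X : Type*} [NormedAddCommGroup X] [NormedSpace ℝ X] (hD : HasDaugavetProperty X)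
    (x₀ : X) (hx₀ : ‖x₀‖ = 1) (N : X → ℝ)
    (hNadd : ∀ x y : X, N (x + y) ≤ N x + N y)
    (hNhom : ∀ (a : ℝ) (x : X), N (a • x) = abs a * N x)
    (hNeq : ∃ a b : ℝ, 0 < a ∧ ∀ x : X, a * ‖x‖ ≤ N x ∧ N x ≤ b * ‖x‖)
    (hA : ∀ t : ℝ, 0 < t → ∃ c : ℝ, 0 < c ∧ ∀ x : X, N x = 1 → ∃ F : Set X, IsCofSet F ∧
      ∀ y ∈ F, N y = 1 → c ≤ N (x + t • y) - 1) : False := by
  refine no_auc_of_walk N hNadd hNhom hNeq hA (κ := 2) (C := 3) (c₁ := 1) (by norm_num) one_pos ?_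
  intro n
  set η : ℝ := 1 / ((n : ℝ) + 1) with hηdef
  have hη : 0 < η := by positivity
  have hpow : ∀ j ≤ n, (1 + η) ^ j ≤ 3 := by
    intro j hj
    have h1 : (1 + η) ^ j ≤ (1 + η) ^ n :=
      pow_le_pow_right₀ (by linarith) hj
    have h2 : 1 + η ≤ Real.exp η := by
      linarith [Real.add_one_le_exp η]
    have h3 : (1 + η) ^ n ≤ Real.exp η ^ n := by
      gcongr
    have h4 : Real.exp η ^ n = Real.exp ((n : ℝ) * η) := by
      rw [← Real.exp_nat_mul]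
    have h5 : (n : ℝ) * η ≤ 1 := by
      rw [hηdef]
      have h0 : (0 : ℝ) < (n : ℝ) + 1 := by positivity
      rw [mul_one_div, div_le_one h0]
      linarith
    have h6 : Real.exp ((n : ℝ) * η) ≤ Real.exp 1 := Real.exp_le_exp.mpr h5
    have h7 := Real.exp_one_lt_d9
    linarith
  refine ⟨fun j => {x | 1 ≤ ‖x‖ ∧ ‖x‖ ≤ (1 + η) ^ j}, ⟨x₀, by simp [hx₀]⟩, ?_, ?_⟩
  · rintro j hj x ⟨h1, h2⟩
    exact ⟨h1, h2.trans (hpow j hj)⟩
  · rintro j - x ⟨h1, h2⟩ F hF ε hε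
    have hxpos : 0 < ‖x‖ := by linarith
    set xh : X := ‖x‖⁻¹ • x with hxh
    have hxhn : ‖xh‖ = 1 := by
      rw [hxh, norm_smul, norm_inv, norm_norm]
      field_simp
    obtain ⟨y, hyF, hy, hfar⟩ := exists_far_in_cof hD hxhn hF hη
    have hxeq : x + (2 * ‖x‖) • y = ‖x‖ • (xh + (2 : ℝ) • y) := by
      rw [smul_add, hxh, smul_smul, smul_smul]
      have h3 : ‖x‖ * ‖x‖⁻¹ = 1 := by field_simp
      rw [h3, one_smul, mul_comm]
    have hlow : 1 ≤ ‖xh + (2 : ℝ) • y‖ := by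
      have h3 : ‖(2 : ℝ) • y‖ ≤ ‖xh + (2 : ℝ) • y‖ + ‖xh‖ := by
        have : (2 : ℝ) • y = (xh + (2 : ℝ) • y) - xh := by abel
        conv_lhs => rw [this]
        exact norm_sub_le _ _
      rw [norm_smul, hy, hxhn] at h3
      norm_num at h3
      linarith
    refine ⟨x + (2 * ‖x‖) • y, ⟨?_, ?_⟩, ?_, (2 * ‖x‖) • y, ?_, ?_⟩
    · rw [hxeq, norm_smul, norm_norm]
      nlinarith
    · rw [hxeq, norm_smul, norm_norm, pow_succ]
      exact mul_le_mul h2 hfar (by positivity) (by positivity)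
    · have : x + (2 * ‖x‖) • y - x = (2 * ‖x‖) • y := by abel
      rw [this, norm_smul, hy, mul_one, Real.norm_eq_abs, abs_of_pos (by positivity)]
      linarith
    · obtain ⟨S, hS, -, -⟩ := hF
      rw [← hS] at hyF ⊢
      exact S.smul_mem _ hyF
    · have : x + (2 * ‖x‖) • y - x - (2 * ‖x‖) • y = 0 := by abel
      rw [this, norm_zero]
      exact hε

end main

/-- Let E be an infinite-dimensional closed subspace of the real L¹ of a probability space whose closed unit ball is totally bounded for convergence in measure and whose norm has the Daugavet property. Then at every unit x ∈ E and every t > 0 the averaged midpoint quantity sup_F inf_y ((‖x+ty‖+‖x-ty‖)/2 - 1) equals max(t/2, t-1) and the one-sided one sup_F inf_y (‖x+ty‖ - 1) equals max(0, t-2), as matching lower and upper bounds, and E admits no equivalent asymptotically uniformly convex norm. -/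
theorem result (Ω : Type) [MeasurableSpace Ω] (P : MeasureTheory.Measure Ω) [MeasureTheory.IsProbabilityMeasure P]
    (E : Submodule ℝ (MeasureTheory.Lp ℝ 1 P)) (hcl : IsClosed (E : Set (MeasureTheory.Lp ℝ 1 P)))
    (hinf : ¬ FiniteDimensional ℝ E)
    (htb : Crest.AnalysisR.L1Subspace.UnitBallTotallyBoundedInMeasure P E)
    (hD : Crest.AnalysisR.L1Subspace.HasDaugavetProperty E) :
    (∀ t : ℝ, 0 < t →
      (Crest.AnalysisR.L1Subspace.toRealBanach P E hcl).MidpointModulusGE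
          (Crest.AnalysisR.L1Subspace.toRealBanach P E hcl).norm t (max (t / 2) (t - 1)) ∧
        (Crest.AnalysisR.L1Subspace.toRealBanach P E hcl).MidpointModulusLE
          (Crest.AnalysisR.L1Subspace.toRealBanach P E hcl).norm t (max (t / 2) (t - 1)) ∧
        (Crest.AnalysisR.L1Subspace.toRealBanach P E hcl).OneSidedModulusGE
          (Crest.AnalysisR.L1Subspace.toRealBanach P E hcl).norm t (max 0 (t - 2)) ∧
        (Crest.AnalysisR.L1Subspace.toRealBanach P E hcl).OneSidedModulusLE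
          (Crest.AnalysisR.L1Subspace.toRealBanach P E hcl).norm t (max 0 (t - 2))) ∧
      ∀ N : E → ℝ, (Crest.AnalysisR.L1Subspace.toRealBanach P E hcl).IsEquivNorm N →
        ¬ (Crest.AnalysisR.L1Subspace.toRealBanach P E hcl).IsAUC N := by
  refine ⟨fun t ht => ⟨?_, ?_, ?_, ?_⟩, ?_⟩
  · exact fun x hx η hη => midGE (E := E) htb ht x hx hη
  · exact fun x hx F hF η hη => midLE (X := E) hD ht x hx hF hη
  · exact fun x hx η hη => oneGE (X := E) x hx hη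
  · exact fun x hx F hF η hη => oneLE (X := E) hD ht x hx hF hη
  · intro N hN hA
    have hnt : Nontrivial E := by
      rcases subsingleton_or_nontrivial E with h | h
      · have h2 : Finite E := Finite.of_subsingleton
        exact absurd (Module.Finite.of_finite : FiniteDimensional ℝ E) hinf
      · exact h
    obtain ⟨x₀, hx₀⟩ := exists_norm_eq E (zero_le_one' ℝ)
    exact noAUC (X := E) hD x₀ hx₀ N hN.1 hN.2.1 hN.2.2 hA

end Crest.Agent.S0167
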