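import Crest.Statements.S0168
import Crest.Agent.Lib.TreeSpace

set_option autoImplicit false
open Crest Crest.AnalysisR

namespace Crest.Agent.S0168

open Crest.AnalysisR.TreePotential Crest.Agent.Lib.TreeSpace Crest.Agent.Lib.AUC Filter Topology

section

variable {m : PotentialModel}

lemma pathVec_mem (v : List ℕ) : pathVec m v ∈ modelSpace m := by
  induction v with
  | nil => exact coord_mem m []
  | cons a v ih => exact add_mem ih (coord_mem m _)

/-- Sibling coordinates get close to every closed finite-codimensional subspace. -/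
lemma key {F : Set (modelSpace m)} (hF : IsCofSet F) (r : List ℕ) {ε : ℝ} (hε : 0 < ε) :
    ∃ a : ℕ, ∃ y ∈ F, ‖(⟨coordVector m (a :: r), coord_mem m _⟩ : modelSpace m) - y‖ < ε := by
  refine exists_near_cof_of_avg hF (fun a => ⟨coordVector m (a :: r), coord_mem m _⟩)
    ⟨2, fun i => norm_coord_le _⟩ (fun φ hφ => ?_) hε
  refine (tendsto_avg_sibling (m := m) r φ hφ).congr fun n => ?_
  rw [Submodule.coe_norm (s := modelSpace m), Submodule.coe_smul, Submodule.coe_sum]

/-- The coordinate kernels. -/
lemma cof_coord (Y : Submodule ℝ (Amb m)) (S : Finset (List ℕ)) :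
    IsCofSet {y : Y | ∀ s ∈ S, coordAt m y.1 s = 0} := by
  classical
  let ι := {s : S // Valid m s.1}
  let φ : ι → (Y →L[ℝ] ℝ) := fun i =>
    (lp.evalCLM (𝕜 := ℝ) (E := fun _ : PotentialTest m => ℝ) (p := ⊤) (deltaTest i.2)).comp
      Y.subtypeL
  have : {y : Y | ∀ s ∈ S, coordAt m y.1 s = 0} = {y : Y | ∀ i, φ i y = 0} := by
    ext y
    constructor
    · intro h i
      have := h i.1.1 i.1.2
      rwa [coordAt_valid _ i.2] at this
    · intro h s hs
      by_cases hv : Valid m s
      · rw [coordAt_valid _ hv]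
        exact h ⟨⟨s, hs⟩, hv⟩
      · simp [coordAt, hv]
  rw [this]
  exact isCofSet_ker φ

/-- The midpoint bound in the model. -/
lemma midpoint_main {t : ℝ} (ht : 0 < t) (x : modelSpace m) (hx : ‖x‖ = 1) {η : ℝ} (hη : 0 < η) :
    ∃ F : Set (modelSpace m), IsCofSet F ∧ ∀ y ∈ F, ‖y‖ = 1 →
      Real.sqrt (1 + t ^ 2 / 4) - 1 - η ≤ (‖x + t • y‖ + ‖x - t • y‖) / 2 - 1 := by
  have hxn : ‖(x : Amb m)‖ = 1 := hx
  obtain ⟨S, hS⟩ := midpoint_amb (x := (x : Amb m)) x.2 hη
  refine ⟨_, cof_coord (modelSpace m) S, ?_⟩
  intro y hy hyn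
  have hyn' : ‖(y : Amb m)‖ = 1 := hyn
  set D : ℝ := Real.sqrt (1 + t ^ 2 / 4) with hD
  have hDpos : 0 < D := Real.sqrt_pos.mpr (by positivity)
  have hDsq : D ^ 2 = 1 + t ^ 2 / 4 := Real.sq_sqrt (by positivity)
  have hab : (1 / D) ^ 2 + ((t / 2) / D) ^ 2 ≤ 1 := by
    have : (1 / D) ^ 2 + ((t / 2) / D) ^ 2 = (1 + t ^ 2 / 4) / D ^ 2 := by
      field_simp
      ring
    rw [this, hDsq, div_self (by positivity)]
  have hmain := hS (y : Amb m) y.2 hy t (1 / D) ((t / 2) / D) ht.le (by positivity)
    (by positivity) hab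
  rw [hxn, hyn'] at hmain
  have hval : 1 / D * 1 + t * (t / 2 / D) / 2 * 1 = D := by
    field_simp
    nlinarith
  rw [hval] at hmain
  rw [Submodule.coe_norm (s := modelSpace m) (x + t • y),
    Submodule.coe_norm (s := modelSpace m) (x - t • y), Submodule.coe_add, Submodule.coe_sub,
    Submodule.coe_smul]
  linarith

end


/-- For each of the four bounded-potential coordinate models on the countably branching tree (rootless sibling, rooted sibling, antichain, global), the generated space, namely the closure of the span of the coordinate vectors in the supremum norm over the model's tests, is separable and infinite-dimensional, its norm has at every unit centre and every 0 < t < 1 averaged midpoint asymptotic quantity at least √(1 + t²/4) - 1, and no equivalent norm on it is asymptotically uniformly convex. -/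
theorem result
    (m : Crest.AnalysisR.TreePotential.PotentialModel) :
    (Crest.AnalysisR.TreePotential.modelBanach m).IsSeparableInfiniteDim ∧
      (∀ t : ℝ, 0 < t → t < 1 →
        (Crest.AnalysisR.TreePotential.modelBanach m).MidpointModulusGE
          (Crest.AnalysisR.TreePotential.modelBanach m).norm t (Real.sqrt (1 + t ^ 2 / 4) - 1)) ∧
      ∀ N : (Crest.AnalysisR.TreePotential.modelBanach m).X → ℝ,
        (Crest.AnalysisR.TreePotential.modelBanach m).IsEquivNorm N →
          ¬ (Crest.AnalysisR.TreePotential.modelBanach m).IsAUC N := by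
  refine ⟨⟨?_, ?_⟩, ?_, ?_⟩
  · -- separability
    have h1 : TopologicalSpace.IsSeparable (Set.range (coordVector m)) :=
      (Set.countable_range _).isSeparable
    have h2 : TopologicalSpace.IsSeparable
        ((modelSpace m : Submodule ℝ (Amb m)) : Set (Amb m)) := by
      rw [modelSpace, Submodule.topologicalClosure_coe]
      exact h1.span.closure
    exact h2.separableSpace
  · -- infinite dimension
    intro hfd
    have hfd' : FiniteDimensional ℝ (modelSpace m) := hfd
    have hF : IsCofSet ({0} : Set (modelSpace m)) := by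
      refine ⟨⊥, by simp, isClosed_singleton, ?_⟩
      exact Module.Finite.quotient ℝ _
    obtain ⟨a, y, hy, hlt⟩ := key hF [] one_pos
    have hy0 : y = 0 := hy
    rw [hy0, sub_zero] at hlt
    have h1 : 1 ≤ ‖coordVector m [a]‖ := one_le_norm_coord (by simp)
    exact absurd hlt (not_lt.mpr h1)
  · -- midpoint modulus
    exact fun t ht _ x hx η hη => midpoint_main ht x hx hη
  · -- no asymptotically uniformly convex renorming
    intro N hN hA
    refine no_auc_of_walk (X := modelSpace m) N hN.1 hN.2.1 hN.2.2 hA (κ := 1) (C := 1) (c₁ := 1)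
      one_pos one_pos ?_
    intro n
    refine ⟨fun j => {x | ∃ v : List ℕ, v.length = j + 1 ∧ x = ⟨pathVec m v, pathVec_mem v⟩},
      ⟨_, [0], rfl, rfl⟩, ?_, ?_⟩
    · rintro j - x ⟨v, hv, rfl⟩
      have hv0 : v ≠ [] := by
        intro h
        simp [h] at hv
      exact ⟨one_le_norm_pathVec hv0, norm_pathVec_le v⟩
    · rintro j - x ⟨v, hv, rfl⟩ F hF ε hε
      obtain ⟨a, y, hy, hlt⟩ := key hF v hε
      have hdiff : (⟨pathVec m (a :: v), pathVec_mem (a :: v)⟩ : modelSpace m)
          - ⟨pathVec m v, pathVec_mem v⟩ = ⟨coordVector m (a :: v), coord_mem m _⟩ := by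
        ext1
        simp [pathVec]
      refine ⟨⟨pathVec m (a :: v), pathVec_mem (a :: v)⟩, ⟨a :: v, by simp [hv], rfl⟩, ?_, y, hy, ?_⟩
      · rw [hdiff]
        exact one_le_norm_coord (by simp)
      · rw [hdiff]
        exact hlt

end Crest.Agent.S0168
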