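import Crest.Statements.S0169
import Crest.Agent.Lib.AUC

set_option autoImplicit false
open MeasureTheory ProbabilityTheory
open Crest Crest.AnalysisR

namespace Crest.Agent.S0169

/-- The non-root vertices on the root path of `v`. -/
def pathSet : List ℕ → Finset (List ℕ)
  | [] => ∅
  | a :: v => insert (a :: v) (pathSet v)

lemma mem_pathSet {v u : List ℕ} (h : u ∈ pathSet v) : u.length ≤ v.length := by
  induction v with
  | nil => simp [pathSet] at h
  | cons a v ih =>
    simp only [pathSet, Finset.mem_insert] at h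
    rcases h with rfl | h
    · exact le_rfl
    · exact (ih h).trans (by simp)

lemma cons_notMem_pathSet (a : ℕ) (v : List ℕ) : (a :: v) ∉ pathSet v := by
  intro h
  have := mem_pathSet h
  simp at this

lemma nil_notMem_pathSet (v : List ℕ) : [] ∉ pathSet v := by
  induction v with
  | nil => simp [pathSet]
  | cons a v ih =>
    simp only [pathSet, Finset.mem_insert, not_or]
    exact ⟨by simp, ih⟩

section prob

variable {Ω : Type} [MeasurableSpace Ω] {μ : Measure Ω} [IsProbabilityMeasure μ]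
  {ν : Measure ℝ} [IsProbabilityMeasure ν] {W : List ℕ → Ω → ℝ}

open Crest.AnalysisR.TreeProduct

lemma pathProduct_eq_prod (W : List ℕ → Ω → ℝ) (v : List ℕ) :
    pathProduct W v = ∏ u ∈ pathSet v, W u := by
  induction v with
  | nil => rfl
  | cons a v ih =>
    rw [pathSet, Finset.prod_insert (cons_notMem_pathSet a v), mul_comm, ← ih]
    rfl

lemma measurable_pathProduct (hW : ∀ v, Measurable (W v)) (v : List ℕ) :
    Measurable (pathProduct W v) := by
  induction v with
  | nil => exact measurable_const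
  | cons a v ih => exact ih.mul (hW _)

lemma indep_path_cons (hW : IsRealization ν μ W) (a : ℕ) (v : List ℕ) :
    IndepFun (pathProduct W v) (W (a :: v)) μ := by
  rw [pathProduct_eq_prod]
  exact hW.2.1.indepFun_finsetProd_of_notMem hW.1 (cons_notMem_pathSet a v)

/-- Independence of the path product from a measurable function of finitely many other
coordinates. -/
lemma indep_path_finset (hW : IsRealization ν μ W) (v : List ℕ) (T : Finset (List ℕ))
    (hT : Disjoint (pathSet v) T) (g : (T → ℝ) → ℝ) (hg : Measurable g) :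
    IndepFun (pathProduct W v) (fun ω => g (fun i : T => W i ω)) μ := by
  have h := hW.2.1.indepFun_finset (pathSet v) T hT hW.1
  have h2 := h.comp (φ := fun f : (pathSet v → ℝ) => ∏ i, f i) (ψ := g)
    (Finset.measurable_prod _ (fun i _ => measurable_pi_apply i)) hg
  convert h2 using 1
  swap
  · rfl
  ext ω
  rw [pathProduct_eq_prod, Finset.prod_apply]
  simp only [Function.comp]
  rw [← Finset.prod_coe_sort]

variable (hW : IsRealization ν μ W)
include hW

lemma map_W {u : List ℕ} (hu : u ≠ []) : Measure.map (W u) μ = ν := hW.2.2 u hu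

lemma integral_comp_W {u : List ℕ} (hu : u ≠ []) {g : ℝ → ℝ}
    (hg : Measurable g) : ∫ ω, g (W u ω) ∂μ = ∫ x, g x ∂ν := by
  rw [← map_W hW hu, integral_map (hW.1 u).aemeasurable hg.aestronglyMeasurable]

lemma integrable_comp_W {u : List ℕ} (hu : u ≠ []) {g : ℝ → ℝ}
    (hg : Measurable g) (hi : Integrable g ν) : Integrable (fun ω => g (W u ω)) μ := by
  rw [← map_W hW hu] at hi
  exact (integrable_map_measure hg.aestronglyMeasurable (hW.1 u).aemeasurable).mp hi

end prob

section moments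

variable {ν : Measure ℝ} [IsProbabilityMeasure ν]

lemma integrable_id_of_mean (hmean : ∫ x, x ∂ν = 1) : Integrable (fun x : ℝ => x) ν := by
  by_contra h
  rw [integral_undef h] at hmean
  norm_num at hmean

lemma ae_pos (hpos : ν (Set.Ioi 0) = 1) : ∀ᵐ x ∂ν, (0 : ℝ) < x := by
  have h1 : ν (Set.Ioi (0 : ℝ))ᶜ = 0 := (prob_compl_eq_zero_iff measurableSet_Ioi).mpr hpos
  rw [ae_iff]
  simpa [Set.compl_def] using h1

lemma integral_abs_eq_one (hpos : ν (Set.Ioi 0) = 1) (hmean : ∫ x, x ∂ν = 1) :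
    ∫ x, |x| ∂ν = 1 := by
  rw [← hmean]
  refine integral_congr_ae ?_
  filter_upwards [ae_pos hpos] with x hx
  exact abs_of_pos hx

lemma integrable_sub_one (hmean : ∫ x, x ∂ν = 1) :
    Integrable (fun x : ℝ => x - 1) ν :=
  (integrable_id_of_mean hmean).sub (integrable_const 1)

lemma integrable_abs_sub_one (hmean : ∫ x, x ∂ν = 1) :
    Integrable (fun x : ℝ => |x - 1|) ν := (integrable_sub_one hmean).abs

lemma kappa_pos (hnc : ∀ c : ℝ, ν ≠ Measure.dirac c) (hmean : ∫ x, x ∂ν = 1) :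
    0 < ∫ x, |x - 1| ∂ν := by
  refine lt_of_le_of_ne (integral_nonneg fun x => abs_nonneg _) fun h => ?_
  have h0 := (integral_eq_zero_iff_of_nonneg (fun x => abs_nonneg _)
    (integrable_abs_sub_one hmean)).mp h.symm
  have hae : (id : ℝ → ℝ) =ᵐ[ν] fun _ => 1 := by
    filter_upwards [h0] with x hx
    have : |x - 1| = 0 := hx
    have := abs_eq_zero.mp this
    simp only [id]
    linarith
  apply hnc 1
  have h1 : ν.map id = ν.map (fun _ : ℝ => (1 : ℝ)) := Measure.map_congr hae
  rw [Measure.map_id, Measure.map_const] at h1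
  simpa using h1

lemma integrable_sq_sub_one (hmean : ∫ x, x ∂ν = 1)
    (hm2 : Integrable (fun x : ℝ => x ^ 2) ν) : Integrable (fun x : ℝ => (x - 1) ^ 2) ν := by
  have h1 := (integrable_id_of_mean hmean).const_mul 2
  have h2 := (hm2.sub h1).add (integrable_const (1 : ℝ))
  refine h2.congr (Filter.Eventually.of_forall fun x => ?_)
  simp only [Pi.add_apply, Pi.sub_apply]
  ring

end moments

section paths

variable {Ω : Type} [MeasurableSpace Ω] {μ : Measure Ω} [IsProbabilityMeasure μ]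
  {ν : Measure ℝ} [IsProbabilityMeasure ν] {W : List ℕ → Ω → ℝ}

open Crest.AnalysisR.TreeProduct

lemma cons_ne_nil' (a : ℕ) (v : List ℕ) : (a :: v) ≠ [] := by simp

lemma path_props (hW : IsRealization ν μ W) (hpos : ν (Set.Ioi 0) = 1) (hmean : ∫ x, x ∂ν = 1)
    (v : List ℕ) :
    Integrable (pathProduct W v) μ ∧ ∫ ω, |pathProduct W v ω| ∂μ = 1 := by
  induction v with
  | nil =>
    refine ⟨integrable_const _, ?_⟩
    simp [pathProduct]
  | cons a v ih =>
    have hI := indep_path_cons hW a v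
    have hWi : Integrable (W (a :: v)) μ :=
      integrable_comp_W hW (cons_ne_nil' a v) measurable_id (integrable_id_of_mean hmean)
    refine ⟨hI.integrable_mul ih.1 hWi, ?_⟩
    have hI2 := hI.comp (φ := fun x : ℝ => |x|) (ψ := fun x : ℝ => |x|)
      measurable_id.abs measurable_id.abs
    have h3 := hI2.integral_fun_mul_eq_mul_integral
      (measurable_pathProduct hW.1 v).abs.aestronglyMeasurable
      (hW.1 (a :: v)).abs.aestronglyMeasurable
    have h4 : ∫ ω, |pathProduct W (a :: v) ω| ∂μ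
        = ∫ ω, |pathProduct W v ω| * |W (a :: v) ω| ∂μ := by
      refine integral_congr_ae (Filter.Eventually.of_forall fun ω => ?_)
      simp only [pathProduct, abs_mul]
    rw [h4]
    refine h3.trans ?_
    have h5 : ∫ ω, |W (a :: v) ω| ∂μ = 1 := by
      rw [integral_comp_W hW (cons_ne_nil' a v) (g := fun x => |x|) measurable_id.abs,
        integral_abs_eq_one hpos hmean]
    have h6 : ∫ ω, |pathProduct W v ω| ∂μ = 1 := ih.2
    calc _ = (∫ ω, |pathProduct W v ω| ∂μ) * ∫ ω, |W (a :: v) ω| ∂μ := rfl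
      _ = 1 := by rw [h5, h6, one_mul]

lemma step_norm (hW : IsRealization ν μ W) (hpos : ν (Set.Ioi 0) = 1) (hmean : ∫ x, x ∂ν = 1)
    (a : ℕ) (v : List ℕ) :
    ∫ ω, |pathProduct W (a :: v) ω - pathProduct W v ω| ∂μ = ∫ x, |x - 1| ∂ν := by
  have hI := indep_path_cons hW a v
  have hI2 := hI.comp (φ := fun x : ℝ => |x|) (ψ := fun x : ℝ => |x - 1|)
    measurable_id.abs (measurable_id.sub_const 1).abs
  have h3 := hI2.integral_fun_mul_eq_mul_integral
    (measurable_pathProduct hW.1 v).abs.aestronglyMeasurable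
    (((hW.1 (a :: v)).sub_const 1).abs).aestronglyMeasurable
  have h4 : ∫ ω, |pathProduct W (a :: v) ω - pathProduct W v ω| ∂μ
      = ∫ ω, |pathProduct W v ω| * |W (a :: v) ω - 1| ∂μ := by
    refine integral_congr_ae (Filter.Eventually.of_forall fun ω => ?_)
    simp only [pathProduct]
    rw [← abs_mul]
    congr 1
    ring
  rw [h4]
  refine h3.trans ?_
  have h5 : ∫ ω, |W (a :: v) ω - 1| ∂μ = ∫ x, |x - 1| ∂ν := by
    rw [integral_comp_W hW (cons_ne_nil' a v) (g := fun x => |x - 1|)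
      (measurable_id.sub_const 1).abs]
  calc _ = (∫ ω, |pathProduct W v ω| ∂μ) * ∫ ω, |W (a :: v) ω - 1| ∂μ := rfl
    _ = _ := by rw [h5, (path_props hW hpos hmean v).2, one_mul]

/-- The expected square of a sum of independent centred coordinates. -/
lemma sum_sq_integral (hW : IsRealization ν μ W) (hmean : ∫ x, x ∂ν = 1)
    (hm2 : Integrable (fun x : ℝ => x ^ 2) ν) (T : Finset (List ℕ)) (hT : [] ∉ T) :
    ∫ ω, (∑ u ∈ T, (W u ω - 1)) ^ 2 ∂μ = (T.card : ℝ) * ∫ x, (x - 1) ^ 2 ∂ν := by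
  have hne : ∀ u ∈ T, u ≠ [] := fun u hu h => hT (h ▸ hu)
  set X : List ℕ → Ω → ℝ := fun u ω => W u ω - 1 with hX
  have hmeasX : ∀ u, Measurable (X u) := fun u => (hW.1 u).sub_const 1
  have hsq : ∀ u ∈ T, Integrable (fun ω => (X u ω) ^ 2) μ := fun u hu =>
    integrable_comp_W hW (hne u hu) (g := fun x => (x - 1) ^ 2)
      ((measurable_id.sub_const 1).pow_const 2) (integrable_sq_sub_one hmean hm2)
  have hmem : ∀ u ∈ T, MemLp (X u) 2 μ := fun u hu =>
    (memLp_two_iff_integrable_sq (hmeasX u).aestronglyMeasurable).mpr (hsq u hu)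
  have hpair : Set.Pairwise (T : Set (List ℕ)) fun i j => IndepFun (X i) (X j) μ := by
    intro i _ j _ hij
    exact (hW.2.1.indepFun hij).comp (measurable_id.sub_const 1) (measurable_id.sub_const 1)
  have hvar := IndepFun.variance_sum hmem hpair
  have hmean0 : ∀ u ∈ T, ∫ ω, X u ω ∂μ = 0 := by
    intro u hu
    have : ∫ ω, X u ω ∂μ = ∫ x, (x - 1) ∂ν :=
      integral_comp_W hW (hne u hu) (g := fun x => x - 1) (measurable_id.sub_const 1)
    rw [this, integral_sub (integrable_id_of_mean hmean) (integrable_const 1), hmean]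
    simp
  have hvarX : ∀ u ∈ T, variance (X u) μ = ∫ x, (x - 1) ^ 2 ∂ν := by
    intro u hu
    rw [variance_eq_integral (hmeasX u).aemeasurable]
    have hm0 : μ[X u] = 0 := hmean0 u hu
    rw [hm0]
    have := integral_comp_W (μ := μ) hW (hne u hu) (g := fun x => (x - 1) ^ 2)
      ((measurable_id.sub_const 1).pow_const 2)
    simpa [hX] using this
  have hsum_meas : Measurable (∑ u ∈ T, X u) := by
    have h1 : (∑ u ∈ T, X u) = fun ω => ∑ u ∈ T, X u ω := by
      ext ω; simp
    rw [h1]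
    exact Finset.measurable_sum _ fun u _ => hmeasX u
  have hsum_int : ∀ u ∈ T, Integrable (X u) μ := fun u hu =>
    (hmem u hu).integrable (by norm_num)
  have hmean_sum : μ[∑ u ∈ T, X u] = 0 := by
    have h1 : (∑ u ∈ T, X u) = fun ω => ∑ u ∈ T, X u ω := by
      ext ω; simp
    show ∫ ω, (∑ u ∈ T, X u) ω ∂μ = 0
    rw [h1, integral_finset_sum _ hsum_int]
    exact Finset.sum_eq_zero hmean0
  rw [variance_eq_integral hsum_meas.aemeasurable, hmean_sum,
    Finset.sum_congr rfl hvarX, Finset.sum_const, nsmul_eq_mul] at hvar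
  rw [← hvar]
  refine integral_congr_ae (Filter.Eventually.of_forall fun ω => ?_)
  simp [hX]

/-- The key average estimate. -/
lemma avg_bound (hW : IsRealization ν μ W) (hpos : ν (Set.Ioi 0) = 1) (hmean : ∫ x, x ∂ν = 1)
    (hm2 : Integrable (fun x : ℝ => x ^ 2) ν) (v : List ℕ) (T : Finset (List ℕ))
    (hTv : Disjoint (pathSet v) T) (hT : [] ∉ T) (hcard : 0 < T.card) :
    ∫ ω, |pathProduct W v ω * ((T.card : ℝ)⁻¹ * ∑ u ∈ T, (W u ω - 1))| ∂μ
      ≤ (1 + ∫ x, (x - 1) ^ 2 ∂ν) / Real.sqrt T.card := by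
  have hne : ∀ u ∈ T, u ≠ [] := fun u hu h => hT (h ▸ hu)
  set N : ℝ := (T.card : ℝ) with hN
  have hNpos : 0 < N := by rw [hN]; exact_mod_cast hcard
  set σ2 : ℝ := ∫ x, (x - 1) ^ 2 ∂ν with hσ2
  have hσ2nn : 0 ≤ σ2 := integral_nonneg fun x => sq_nonneg _
  set S : Ω → ℝ := fun ω => ∑ u ∈ T, (W u ω - 1) with hS
  have hSmeas : Measurable S := Finset.measurable_sum _ fun u _ => (hW.1 u).sub_const 1
  -- independence
  have hindep : IndepFun (pathProduct W v) S μ := by
    have h := indep_path_finset hW v T hTv (fun f => ∑ i, (f i - 1))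
      (Finset.measurable_sum _ fun i _ => (measurable_pi_apply i).sub_const 1)
    convert h using 1
    ext ω
    simp only [hS]
    rw [← Finset.sum_coe_sort]
  have hI2 := hindep.comp (φ := fun x : ℝ => |x|) (ψ := fun x : ℝ => |N⁻¹ * x|)
    measurable_id.abs (measurable_id.const_mul _).abs
  have h3 := hI2.integral_fun_mul_eq_mul_integral
    (measurable_pathProduct hW.1 v).abs.aestronglyMeasurable
    ((hSmeas.const_mul _).abs).aestronglyMeasurable
  have h4 : ∫ ω, |pathProduct W v ω * (N⁻¹ * S ω)| ∂μ = ∫ ω, |N⁻¹ * S ω| ∂μ := by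
    have : ∫ ω, |pathProduct W v ω * (N⁻¹ * S ω)| ∂μ
        = ∫ ω, |pathProduct W v ω| * |N⁻¹ * S ω| ∂μ := by
      refine integral_congr_ae (Filter.Eventually.of_forall fun ω => ?_)
      simp only [abs_mul]
    rw [this]
    refine h3.trans ?_
    calc _ = (∫ ω, |pathProduct W v ω| ∂μ) * ∫ ω, |N⁻¹ * S ω| ∂μ := rfl
      _ = _ := by rw [(path_props hW hpos hmean v).2, one_mul]
  rw [h4]
  -- second moment
  have hS2 : ∫ ω, (S ω) ^ 2 ∂μ = N * σ2 := sum_sq_integral hW hmean hm2 T hT
  have hmemS : Integrable (fun ω => (S ω) ^ 2) μ := by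
    have hmem : ∀ u ∈ T, MemLp (fun ω => W u ω - 1) 2 μ := fun u hu =>
      (memLp_two_iff_integrable_sq ((hW.1 u).sub_const 1).aestronglyMeasurable).mpr
        (integrable_comp_W hW (hne u hu) (g := fun x => (x - 1) ^ 2)
          ((measurable_id.sub_const 1).pow_const 2) (integrable_sq_sub_one hmean hm2))
    have : MemLp S 2 μ := by
      have h0 := memLp_finset_sum T hmem
      convert h0 using 1
    exact this.integrable_sq
  set δ : ℝ := (Real.sqrt N)⁻¹ with hδ
  have hsqrtpos : 0 < Real.sqrt N := Real.sqrt_pos.mpr hNpos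
  have hδpos : 0 < δ := inv_pos.mpr hsqrtpos
  -- pointwise bound
  have hpt : ∀ ω, |N⁻¹ * S ω| ≤ δ + (N ^ 2)⁻¹ * δ⁻¹ * (S ω) ^ 2 := by
    intro ω
    set z : ℝ := N⁻¹ * S ω with hz
    have hz2 : (N ^ 2)⁻¹ * (S ω) ^ 2 = z ^ 2 := by
      rw [hz]; field_simp
    have h5 : |z| ≤ δ + δ⁻¹ * z ^ 2 := by
      have h6 : 0 ≤ δ⁻¹ * (|z| - δ) ^ 2 := by positivity
      have h7 : δ⁻¹ * (|z| - δ) ^ 2 = δ⁻¹ * z ^ 2 - 2 * |z| + δ := by
        have : |z| ^ 2 = z ^ 2 := sq_abs z
        field_simp
        nlinarith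
      have h8 := abs_nonneg z
      nlinarith
    calc |z| ≤ δ + δ⁻¹ * z ^ 2 := h5
      _ = δ + (N ^ 2)⁻¹ * δ⁻¹ * (S ω) ^ 2 := by rw [← hz2]; ring
  have hint2 : Integrable (fun ω => δ + (N ^ 2)⁻¹ * δ⁻¹ * (S ω) ^ 2) μ :=
    (integrable_const δ).add (hmemS.const_mul _)
  have hmono : ∫ ω, |N⁻¹ * S ω| ∂μ ≤ ∫ ω, (δ + (N ^ 2)⁻¹ * δ⁻¹ * (S ω) ^ 2) ∂μ := by
    refine integral_mono_of_nonneg (Filter.Eventually.of_forall fun ω => abs_nonneg _) hint2
      (Filter.Eventually.of_forall hpt)
  refine hmono.trans (le_of_eq ?_)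
  rw [integral_add (integrable_const δ) (hmemS.const_mul _), integral_const_mul, hS2]
  simp only [integral_const, smul_eq_mul, probReal_univ, one_mul]
  rw [hδ]
  have hs : Real.sqrt N * Real.sqrt N = N := Real.mul_self_sqrt hNpos.le
  field_simp
  nlinarith

end paths

section banach

variable {Ω : Type} [MeasurableSpace Ω] {μ : Measure Ω} [IsProbabilityMeasure μ]
  {ν : Measure ℝ} [IsProbabilityMeasure ν] {W : List ℕ → Ω → ℝ}

open Crest.AnalysisR.TreeProduct

lemma norm_toLp_one {f : Ω → ℝ} (hf : MemLp f 1 μ) : ‖hf.toLp f‖ = ∫ ω, |f ω| ∂μ := by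
  rw [L1.norm_eq_integral_norm]
  refine integral_congr_ae ?_
  filter_upwards [hf.coeFn_toLp] with ω hω
  rw [hω, Real.norm_eq_abs]

lemma coeFn_finset_sum {ι : Type*} (s : Finset ι) (g : ι → Lp ℝ 1 μ) :
    ⇑(∑ i ∈ s, g i) =ᵐ[μ] fun ω => ∑ i ∈ s, (g i : Ω → ℝ) ω := by
  classical
  induction s using Finset.induction_on with
  | empty =>
    filter_upwards [Lp.coeFn_zero ℝ 1 μ] with ω h
    simpa using h
  | insert a s ha ih =>
    rw [Finset.sum_insert ha]
    filter_upwards [Lp.coeFn_add (g a) (∑ i ∈ s, g i), ih] with ω h1 h2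
    rw [h1, Finset.sum_insert ha, Pi.add_apply, h2]

variable (hW : IsRealization ν μ W) (hpos : ν (Set.Ioi 0) = 1) (hmean : ∫ x, x ∂ν = 1)

include hW hpos hmean

lemma memLp_path (v : List ℕ) : MemLp (pathProduct W v) 1 μ :=
  memLp_one_iff_integrable.mpr (path_props hW hpos hmean v).1

/-- The class of a path product in `L¹`. -/
noncomputable def cls (v : List ℕ) : Lp ℝ 1 μ := (memLp_path hW hpos hmean v).toLp (pathProduct W v)

lemma cls_coe (v : List ℕ) : (cls hW hpos hmean v : Ω → ℝ) =ᵐ[μ] pathProduct W v :=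
  (memLp_path hW hpos hmean v).coeFn_toLp

lemma cls_mem (v : List ℕ) : cls hW hpos hmean v ∈ productSpan μ W := by
  refine subset_closure (Submodule.subset_span ?_)
  exact ⟨v, cls_coe hW hpos hmean v⟩

/-- The path product as a point of the span. -/
noncomputable def pt (v : List ℕ) : productSpan μ W := ⟨cls hW hpos hmean v, cls_mem hW hpos hmean v⟩

lemma norm_pt (v : List ℕ) : ‖pt hW hpos hmean v‖ = 1 := by
  show ‖cls hW hpos hmean v‖ = 1
  rw [cls, norm_toLp_one]
  exact (path_props hW hpos hmean v).2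

lemma norm_pt_sub (a : ℕ) (v : List ℕ) :
    ‖pt hW hpos hmean (a :: v) - pt hW hpos hmean v‖ = ∫ x, |x - 1| ∂ν := by
  show ‖cls hW hpos hmean (a :: v) - cls hW hpos hmean v‖ = _
  rw [L1.norm_eq_integral_norm, ← step_norm hW hpos hmean a v]
  refine integral_congr_ae ?_
  filter_upwards [Lp.coeFn_sub (cls hW hpos hmean (a :: v)) (cls hW hpos hmean v),
    cls_coe hW hpos hmean (a :: v), cls_coe hW hpos hmean v] with ω h1 h2 h3
  rw [h1, Pi.sub_apply, h2, h3, Real.norm_eq_abs]

lemma norm_avg (hm2 : Integrable (fun x : ℝ => x ^ 2) ν) (v : List ℕ) (φ : ℕ → ℕ) (hφ : StrictMono φ)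
    (n : ℕ) :
    ‖(n : ℝ)⁻¹ • ∑ i ∈ Finset.range n, (pt hW hpos hmean (φ i :: v) - pt hW hpos hmean v)‖
      ≤ (1 + ∫ x, (x - 1) ^ 2 ∂ν) / Real.sqrt n := by
  classical
  rcases Nat.eq_zero_or_pos n with rfl | hn
  · simp
  set c : ℕ → List ℕ := fun i => φ i :: v with hc
  have hcinj : Function.Injective c := by
    intro i j hij
    have : φ i = φ j := (List.cons.inj hij).1
    exact hφ.injective this
  set T : Finset (List ℕ) := (Finset.range n).image c with hT
  have hcard : T.card = n := by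
    rw [hT, Finset.card_image_of_injective _ hcinj, Finset.card_range]
  have hdisj : Disjoint (pathSet v) T := by
    rw [Finset.disjoint_left]
    intro u hu hu'
    obtain ⟨i, -, rfl⟩ := Finset.mem_image.mp hu'
    exact cons_notMem_pathSet _ _ hu
  have hnil : [] ∉ T := by
    intro h
    obtain ⟨i, -, hi⟩ := Finset.mem_image.mp h
    simp [hc] at hi
  have hb := avg_bound hW hpos hmean hm2 v T hdisj hnil (by rw [hcard]; exact hn)
  rw [hcard] at hb
  refine le_trans (le_of_eq ?_) hb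
  have hcoe : ((((n : ℝ)⁻¹ • ∑ i ∈ Finset.range n,
      (pt hW hpos hmean (φ i :: v) - pt hW hpos hmean v)) : productSpan μ W) : Lp ℝ 1 μ)
      = (n : ℝ)⁻¹ • ∑ i ∈ Finset.range n,
        (cls hW hpos hmean (φ i :: v) - cls hW hpos hmean v) := by
    simp [pt]
  have hnorm : ‖(n : ℝ)⁻¹ • ∑ i ∈ Finset.range n,
      (pt hW hpos hmean (φ i :: v) - pt hW hpos hmean v)‖
      = ‖((((n : ℝ)⁻¹ • ∑ i ∈ Finset.range n,
      (pt hW hpos hmean (φ i :: v) - pt hW hpos hmean v)) : productSpan μ W) : Lp ℝ 1 μ)‖ := rfl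
  rw [hnorm, hcoe, L1.norm_eq_integral_norm]
  refine integral_congr_ae ?_
  have hall : ∀ᵐ ω ∂μ, ∀ i : ℕ,
      ((cls hW hpos hmean (φ i :: v) - cls hW hpos hmean v : Lp ℝ 1 μ) : Ω → ℝ) ω
        = pathProduct W (φ i :: v) ω - pathProduct W v ω := by
    rw [ae_all_iff]
    intro i
    filter_upwards [Lp.coeFn_sub (cls hW hpos hmean (φ i :: v)) (cls hW hpos hmean v),
      cls_coe hW hpos hmean (φ i :: v), cls_coe hW hpos hmean v] with ω h1 h2 h3
    rw [h1, Pi.sub_apply, h2, h3]
  filter_upwards [Lp.coeFn_smul (n : ℝ)⁻¹ (∑ i ∈ Finset.range n,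
      (cls hW hpos hmean (φ i :: v) - cls hW hpos hmean v)),
    coeFn_finset_sum (Finset.range n)
      (fun i => cls hW hpos hmean (φ i :: v) - cls hW hpos hmean v), hall] with ω h1 h2 h3
  rw [h1, Pi.smul_apply, h2, Real.norm_eq_abs, smul_eq_mul]
  simp only [h3]
  congr 1
  rw [hT, Finset.sum_image (fun i _ j _ h => hcinj h)]
  have h4 : ∀ i, pathProduct W (φ i :: v) ω - pathProduct W v ω
      = pathProduct W v ω * (W (c i) ω - 1) := by
    intro i
    simp only [pathProduct, hc]
    ring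
  simp only [h4]
  rw [← Finset.mul_sum]
  ring

end banach

/-- Let ν be a Borel probability law on ℝ carried by (0,∞), not a point mass, with mean 1 and finite second moment, and W an independent family of real random variables on a probability space indexed by the vertices of the countably branching tree (finite lists of naturals; root [], parent of a :: v is v), each non-root one with law ν. Then the closed linear span in L¹ of the path products ∏_{root ≺ u ≼ v} W_u is infinite-dimensional and has no equivalent asymptotically uniformly convex norm. -/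
theorem result (ν : Measure ℝ) [IsProbabilityMeasure ν] (hpos : ν (Set.Ioi 0) = 1)
    (hnc : ∀ c : ℝ, ν ≠ Measure.dirac c) (hmean : ∫ x, x ∂ν = 1)
    (hm2 : Integrable (fun x : ℝ => x ^ 2) ν)
    (Ω : Type) [MeasurableSpace Ω] (μ : Measure Ω) [IsProbabilityMeasure μ]
    (W : List ℕ → Ω → ℝ) (hW : Crest.AnalysisR.TreeProduct.IsRealization ν μ W) :
    ¬ FiniteDimensional ℝ (Crest.AnalysisR.TreeProduct.productSpan μ W) ∧
      ∀ N : (Crest.AnalysisR.TreeProduct.spanBanach μ W).X → ℝ,
        (Crest.AnalysisR.TreeProduct.spanBanach μ W).IsEquivNorm N →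
          ¬ (Crest.AnalysisR.TreeProduct.spanBanach μ W).IsAUC N := by
  have hκ : 0 < ∫ x, |x - 1| ∂ν := kappa_pos hnc hmean
  -- every closed finite-codimensional subspace nearly contains a step of the walk
  have key : ∀ (v : List ℕ) (F : Set (Crest.AnalysisR.TreeProduct.productSpan μ W)),
      Crest.Agent.Lib.AUC.IsCofSet F → ∀ ε : ℝ, 0 < ε →
      ∃ a : ℕ, ∃ y ∈ F, ‖(pt hW hpos hmean (a :: v) - pt hW hpos hmean v) - y‖ < ε := by
    intro v F hF ε hε
    refine Crest.Agent.Lib.AUC.exists_near_cof_of_avg hF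
      (fun a => pt hW hpos hmean (a :: v) - pt hW hpos hmean v) ⟨2, fun i => ?_⟩ ?_ hε
    · refine (norm_sub_le _ _).trans ?_
      rw [norm_pt, norm_pt]
      norm_num
    · intro φ hφ
      have h1 : Filter.Tendsto (fun n : ℕ =>
          (1 + ∫ x, (x - 1) ^ 2 ∂ν) / Real.sqrt n) Filter.atTop (nhds 0) := by
        refine Filter.Tendsto.div_atTop tendsto_const_nhds ?_
        exact Real.tendsto_sqrt_atTop.comp tendsto_natCast_atTop_atTop
      exact squeeze_zero (fun _ => norm_nonneg _)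
        (fun n => norm_avg hW hpos hmean hm2 v φ hφ n) h1
  constructor
  · intro hfd
    -- the zero subspace has finite codimension
    have hF : Crest.Agent.Lib.AUC.IsCofSet
        ({0} : Set (Crest.AnalysisR.TreeProduct.productSpan μ W)) := by
      refine ⟨⊥, by simp, isClosed_singleton, ?_⟩
      exact Module.Finite.quotient ℝ _
    obtain ⟨a, y, hy, hlt⟩ := key [] _ hF _ hκ
    have hy0 : y = 0 := hy
    rw [hy0, sub_zero, norm_pt_sub] at hlt
    exact lt_irrefl _ hlt
  · intro N hN hA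
    refine Crest.Agent.Lib.AUC.no_auc_of_walk (X := Crest.AnalysisR.TreeProduct.productSpan μ W)
      N hN.1 hN.2.1 hN.2.2 hA (κ := ∫ x, |x - 1| ∂ν) (C := 1) (c₁ := 1) hκ one_pos ?_
    intro n
    refine ⟨fun j => {x | ∃ v : List ℕ, v.length = j ∧ x = pt hW hpos hmean v},
      ⟨_, [], rfl, rfl⟩, ?_, ?_⟩
    · rintro j - x ⟨v, -, rfl⟩
      rw [norm_pt]
      exact ⟨le_rfl, le_rfl⟩
    · rintro j - x ⟨v, hv, rfl⟩ F hF ε hε
      obtain ⟨a, y, hy, hlt⟩ := key v F hF ε hε
      refine ⟨pt hW hpos hmean (a :: v), ⟨a :: v, by simp [hv], rfl⟩, ?_, y, hy, hlt⟩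
      rw [norm_pt_sub]

end Crest.Agent.S0169
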