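import Crest.Statements.S0209
import Crest.Agent.Lib.Gas.AssembleFinal

set_option autoImplicit false
open Crest Crest.ProbabilityR

namespace Crest.Agent.S0209

open Crest.Agent.Lib.Gas in
/-- There is a bounded continuous stable radial pair potential in three-space (energy of `N` particles `≥ -B N`) with `φ(r)` at most `C r^(-3-1/32)` in size for `r ≥ 1`, an open density interval centred at `5p/3`, `p > 0` the unit-separation packing density (`packingNumber L / L^3 → p`), and one `β_c ∈ [7/8, 9/8]` such that at each `ρ` in it the free energy per volume `-lim_L log Z_{[0,L]^3, ⌊ρL^3⌋}(β)/(β L^3)` exists for `β > 0`, with one-sided `β`-derivatives at `β_c`, left above right. -/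
theorem result :
    ∃ φ : ℝ → ℝ, Continuous φ ∧ (∃ M : ℝ, ∀ r : ℝ, |φ r| ≤ M) ∧
      (∃ B : ℝ, ∀ (N : ℕ) (x : Fin N → Crest.ProbabilityR.Continuum.Pt), -B * N ≤ Crest.ProbabilityR.Continuum.energy φ x) ∧
      (∃ C : ℝ, ∀ r : ℝ, 1 ≤ r → |φ r| ≤ C * r ^ (-(3 + 1 / 32 : ℝ))) ∧
      ∃ p η βc : ℝ, 0 < p ∧
        Filter.Tendsto (fun L : ℝ => (Crest.ProbabilityR.Continuum.packingNumber L : ℝ) / L ^ 3)
          Filter.atTop (nhds p) ∧
        0 < η ∧ η ≤ 5 * p / 3 ∧ 7 / 8 ≤ βc ∧ βc ≤ 9 / 8 ∧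
        ∃ f : ℝ → ℝ → ℝ,
          (∀ ρ : ℝ, 5 * p / 3 - η < ρ → ρ < 5 * p / 3 + η → ∀ β : ℝ, 0 < β →
            Filter.Tendsto (fun L : ℝ => -(1 / (β * L ^ 3)) *
                Real.log (Crest.ProbabilityR.Continuum.partitionFn φ L ⌊ρ * L ^ 3⌋₊ β))
              Filter.atTop (nhds (f β ρ))) ∧
          (∀ ρ : ℝ, 5 * p / 3 - η < ρ → ρ < 5 * p / 3 + η → ∃ Dl Dr : ℝ,
            HasDerivWithinAt (fun β => f β ρ) Dl (Set.Iio βc) βc ∧
            HasDerivWithinAt (fun β => f β ρ) Dr (Set.Ioi βc) βc ∧ Dr < Dl) := by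
  obtain ⟨G, p, η, βc, hv, -, hdec, -, hp, hlim, hη, hη', hβ1, hβ2, hkink⟩ := gas_main false
  obtain ⟨hvc, M, hM⟩ := hv rfl
  have hTc := GasSetup.Tc_continuous (G := G) coefOne_ok
  -- `ρ ≥ 0` on the interval
  have hρ0 : ∀ ρ : ℝ, 5 * p / 3 - η < ρ → 0 ≤ ρ := fun ρ h => by linarith
  refine ⟨G.φc coefOne, hvc.sub hTc, ?_, ⟨G.U / 2, fun N x => GasSetup.stable_φc coefOne_ok N x⟩,
    hdec, p, η, βc, hp, hlim, hη, hη', hβ1, hβ2,
    fun β ρ => -(1 / β) * Psi (G.φc coefOne) β ρ, ?_, ?_⟩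
  · refine ⟨M + 2 * G.A / ballVol 5, fun r => ?_⟩
    have h1 := hM r
    have h2 := Tc_le G coefOne_ok r
    have h3 := GasSetup.Tc_nonneg (G := G) coefOne_ok r
    have h4 : G.φc coefOne r = G.v r - G.Tc coefOne r := rfl
    rw [h4, abs_le]
    have := abs_le.mp h1
    constructor <;> linarith [this.1, this.2]
  · intro ρ h1 _ β hβ
    exact gas_limit G hβ (hρ0 ρ h1)
  · intro ρ h1 h2
    obtain ⟨e₁, e₂, he, hsub⟩ := hkink ρ h1 h2
    exact gas_deriv G hβ1 hβ2 (hρ0 ρ h1) he hsub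

end Crest.Agent.S0209
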