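import Crest.Statements.S0210
import Crest.Agent.Lib.Gas.AssembleFinal

set_option autoImplicit false
open Crest Crest.ProbabilityR

namespace Crest.Agent.S0210

open Crest.Agent.Lib.Gas in
/-- There is a measurable radial pair potential in three-space, finite and locally bounded at positive distances, tending to `+∞` at `0`, below `-a < 0` on an interval, with `r² φ(r)` integrable at large `r`, `r³ φ(r) → 0`, and stable on configurations of distinct points, whose canonical free energy per volume `-lim_L log Z_{[0,L]^3, ⌊ρL^3⌋}(β)/(β L^3)` exists for all `β, ρ > 0` and has, on some open density interval, at one `β_c ∈ (1/2, 3/2)` a left `β`-derivative strictly above the right. -/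
theorem result :
    ∃ φ : ℝ → ℝ, Measurable φ ∧
      (∀ a b : ℝ, 0 < a → a ≤ b → ∃ M : ℝ, ∀ r : ℝ, a ≤ r → r ≤ b → |φ r| ≤ M) ∧
      Filter.Tendsto φ (nhdsWithin 0 (Set.Ioi 0)) Filter.atTop ∧
      (∃ r₁ r₂ a : ℝ, 0 < r₁ ∧ r₁ < r₂ ∧ 0 < a ∧ ∀ r : ℝ, r₁ ≤ r → r ≤ r₂ → φ r ≤ -a) ∧
      (∃ R : ℝ, 0 < R ∧ MeasureTheory.IntegrableOn (fun r : ℝ => r ^ 2 * |φ r|) (Set.Ioi R)) ∧
      Filter.Tendsto (fun r : ℝ => r ^ 3 * φ r) Filter.atTop (nhds 0) ∧
      (∃ B : ℝ, ∀ (N : ℕ) (x : Fin N → Crest.ProbabilityR.Continuum.Pt), Function.Injective x →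
        -B * N ≤ Crest.ProbabilityR.Continuum.energy φ x) ∧
      ∃ f : ℝ → ℝ → ℝ,
        (∀ ρ : ℝ, 0 < ρ → ∀ β : ℝ, 0 < β →
          Filter.Tendsto (fun L : ℝ => -(1 / (β * L ^ 3)) *
              Real.log (Crest.ProbabilityR.Continuum.partitionFn φ L ⌊ρ * L ^ 3⌋₊ β))
            Filter.atTop (nhds (f β ρ))) ∧
        ∃ ρ₁ ρ₂ βc : ℝ, 0 ≤ ρ₁ ∧ ρ₁ < ρ₂ ∧ 1 / 2 < βc ∧ βc < 3 / 2 ∧
          ∀ ρ : ℝ, ρ₁ < ρ → ρ < ρ₂ → ∃ Dl Dr : ℝ,
            HasDerivWithinAt (fun β => f β ρ) Dl (Set.Iio βc) βc ∧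
            HasDerivWithinAt (fun β => f β ρ) Dr (Set.Ioi βc) βc ∧ Dr < Dl := by
  obtain ⟨G, p, η, βc, -, hv, hdec, hatt, hp, hlim, hη, hη', hβ1, hβ2, hkink⟩ := gas_main true
  obtain ⟨hvb, hvt⟩ := hv rfl
  obtain ⟨C, hC⟩ := hdec
  have hTb : ∀ r, G.Tc coefOne r ≤ 2 * G.A / ballVol 5 := Tc_le G coefOne_ok
  have hTn : ∀ r, 0 ≤ G.Tc coefOne r := GasSetup.Tc_nonneg (G := G) coefOne_ok
  have hφ : ∀ r, G.φc coefOne r = G.v r - G.Tc coefOne r := fun _ => rfl
  have hmeas : Measurable (G.φc coefOne) := GasSetup.φc_measurable coefOne_ok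
  have hCnn : 0 ≤ C := by
    have := hC 1 le_rfl
    simp only [Real.one_rpow, mul_one] at this
    exact (abs_nonneg _).trans this
  refine ⟨G.φc coefOne, hmeas, ?_, ?_, ?_, ?_, ?_,
    ⟨G.U / 2, fun N x _ => GasSetup.stable_φc coefOne_ok N x⟩,
    fun β ρ => -(1 / β) * Psi (G.φc coefOne) β ρ, ?_, 5 * p / 3 - η, 5 * p / 3 + η, βc, ?_, ?_, ?_, ?_, ?_⟩
  · intro a b ha hab
    obtain ⟨M, hM⟩ := hvb a b ha hab
    refine ⟨M + 2 * G.A / ballVol 5, fun r h1 h2 => ?_⟩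
    have h3 := abs_le.mp (hM r h1 h2)
    rw [hφ, abs_le]
    constructor <;> linarith [h3.1, h3.2, hTb r, hTn r]
  · refine Filter.tendsto_atTop_mono' _ ?_ (Filter.tendsto_atTop_add_const_right _ (-(2 * G.A / ballVol 5)) hvt)
    exact Filter.Eventually.of_forall fun r => by
      rw [hφ]; linarith [hTb r]
  · obtain ⟨a, ha, h⟩ := hatt
    exact ⟨1, 2, a, by norm_num, by norm_num, ha, h⟩
  · refine ⟨1, by norm_num, ?_⟩
    have hint : MeasureTheory.IntegrableOn (fun r : ℝ => C * r ^ (-(1 + 1 / 32 : ℝ))) (Set.Ioi 1) :=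
      (integrableOn_Ioi_rpow_of_lt (by norm_num) (by norm_num)).const_mul C
    refine hint.mono' ?_ ?_
    · exact ((measurable_id.pow_const 2).mul hmeas.abs).aestronglyMeasurable
    · refine (MeasureTheory.ae_restrict_iff' measurableSet_Ioi).mpr (Filter.Eventually.of_forall fun r hr => ?_)
      have hr1 : (1 : ℝ) < r := hr
      have hr0 : 0 < r := by linarith
      have h1 := hC r hr1.le
      have h2 : r ^ 2 * r ^ (-(3 + 1 / 32 : ℝ)) = r ^ (-(1 + 1 / 32 : ℝ)) := by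
        rw [← Real.rpow_natCast r 2, ← Real.rpow_add hr0]
        norm_num
      rw [Real.norm_of_nonneg (by positivity)]
      calc r ^ 2 * |G.φc coefOne r| ≤ r ^ 2 * (C * r ^ (-(3 + 1 / 32 : ℝ))) := by gcongr
        _ = C * r ^ (-(1 + 1 / 32 : ℝ)) := by rw [← h2]; ring
  · have hlim0 : Filter.Tendsto (fun r : ℝ => C * r ^ (-(1 / 32 : ℝ))) Filter.atTop (nhds 0) := by
      have := (tendsto_rpow_neg_atTop (y := 1 / 32) (by norm_num)).const_mul C
      simpa using this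
    refine squeeze_zero_norm' ?_ hlim0
    filter_upwards [Filter.eventually_ge_atTop 1] with r hr
    have hr0 : 0 < r := by linarith
    have h1 := hC r hr
    have h2 : r ^ 3 * r ^ (-(3 + 1 / 32 : ℝ)) = r ^ (-(1 / 32 : ℝ)) := by
      rw [← Real.rpow_natCast r 3, ← Real.rpow_add hr0]
      norm_num
    rw [norm_mul, Real.norm_of_nonneg (by positivity), Real.norm_eq_abs]
    calc r ^ 3 * |G.φc coefOne r| ≤ r ^ 3 * (C * r ^ (-(3 + 1 / 32 : ℝ))) := by gcongr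
      _ = C * r ^ (-(1 / 32 : ℝ)) := by rw [← h2]; ring
  · intro ρ hρ β hβ
    exact gas_limit G hβ hρ.le
  · linarith
  · linarith
  · linarith
  · linarith
  · intro ρ h1 h2
    obtain ⟨e₁, e₂, he, hsub⟩ := hkink ρ h1 h2
    exact gas_deriv G hβ1 hβ2 (by linarith) he hsub

end Crest.Agent.S0210
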