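import Crest.Statements.S0254
import Crest.Agent.Lib.LocSites
import Crest.Agent.Lib.LocSplit

set_option autoImplicit false
open Crest Crest.ProbabilityR

namespace Crest.Agent.S0254

open MeasureTheory Filter Topology SimpleGraph Crest.Agent.Lib.Loc
open Crest.ProbabilityR.GraphTables
open scoped Classical

section aux

variable (f : unitInterval → unitInterval × (ℕ → Sk))

/-- The noise attached to the pairs. -/
noncomputable def noiseOf (G : SimpleGraph ℕ) (x0 : ℕ → unitInterval) (W : ℕ × ℕ → Sk) :
    Sym2 ℕ → Sk :=
  fun e => W (siteOf G x0 e)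

/-- The rule. -/
noncomputable def PhiR (G : SimpleGraph ℕ) (x : ℕ → unitInterval) : Sym2 ℕ → Bool :=
  if GoodG G ∧ Function.Injective (splitMap f x).1 then
    dataF.Xi (tableOf G) (noiseOf G (splitMap f x).1 (splitMap f x).2)
  else fun _ => false

variable {f}

lemma measurable_noise (hf : Measurable f) :
    Measurable (fun z : Tab × (ℕ → unitInterval) =>
      noiseOf (Gp z.1) (splitMap f z.2).1 (splitMap f z.2).2) := by
  have hs := measurable_splitMap hf
  refine measurable_pi_lambda _ fun e => ?_
  refine measurable_of_key (κ := ℕ × ℕ)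
    (key := fun z : Tab × (ℕ → unitInterval) => siteOf (Gp z.1) (splitMap f z.2).1 e)
    (g := fun q z => (splitMap f z.2).2 q) ?_ ?_ (fun z => rfl)
  · intro q
    have h1 : Measurable (fun z : Tab × (ℕ → unitInterval) =>
        ((z.1, (splitMap f z.2).1) : ZZ)) :=
      measurable_fst.prodMk (measurable_fst.comp (hs.comp measurable_snd))
    exact ((measurable_siteOf e).comp h1) (measurableSet_singleton q)
  · intro q
    exact (measurable_pi_apply q).comp (measurable_snd.comp (hs.comp measurable_snd))

lemma measurableSet_inj (hf : Measurable f) :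
    MeasurableSet {x : ℕ → unitInterval | Function.Injective (splitMap f x).1} := by
  have hs := measurable_splitMap hf
  have h1 : ∀ a, Measurable (fun x : ℕ → unitInterval => (splitMap f x).1 a) := fun a =>
    (measurable_pi_apply a).comp (measurable_fst.comp hs)
  have : {x : ℕ → unitInterval | Function.Injective (splitMap f x).1} =
      ⋂ a, ⋂ b, {x | (splitMap f x).1 a ≠ (splitMap f x).1 b} ∪ {_x | a = b} := by
    ext x
    simp only [Set.mem_ofPred_eq, Set.mem_iInter, Set.mem_union, Function.Injective]
    constructor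
    · intro h a b
      by_cases h2 : (splitMap f x).1 a = (splitMap f x).1 b
      · exact Or.inr (h h2)
      · exact Or.inl h2
    · intro h a b hab
      rcases h a b with h2 | h2
      · exact absurd hab h2
      · exact h2
  rw [this]
  exact MeasurableSet.iInter fun a => MeasurableSet.iInter fun b =>
    (measurableSet_eq_fun (h1 a) (h1 b)).compl.union (MeasurableSet.const _)

/-- Joint measurability of the rule. -/
theorem measurable_PhiR (hf : Measurable f) :
    Measurable (fun z : Tab × (ℕ → unitInterval) => PhiR f (Gp z.1) z.2) := by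
  unfold PhiR
  refine Measurable.ite ?_ ?_ measurable_const
  · exact (measurable_fst measurableSet_good).inter (measurable_snd (measurableSet_inj hf))
  · exact measurable_dataF_Xi.comp ((measurable_nrm.comp measurable_fst).prodMk (measurable_noise hf))

/-- Equivariance of the rule. -/
theorem PhiR_equi (σ : Equiv.Perm ℕ) (G : SimpleGraph ℕ) (x : ℕ → unitInterval) :
    PhiR f (G.comap σ) (x ∘ σ) = PhiR f G x ∘ Sym2.map σ := by
  have hsplit1 : (splitMap f (x ∘ σ)).1 = (splitMap f x).1 ∘ σ := rfl
  have hsplit2 : ∀ q, (splitMap f (x ∘ σ)).2 q = (splitMap f x).2 (σ q.1, q.2) := fun q => rfl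
  by_cases h : GoodG G ∧ Function.Injective (splitMap f x).1
  · obtain ⟨hG, hx⟩ := h
    have hG' : GoodG (G.comap σ) := hG.comap σ
    have hx' : Function.Injective (splitMap f (x ∘ σ)).1 := by
      rw [hsplit1]
      exact hx.comp σ.injective
    unfold PhiR
    rw [if_pos ⟨hG', hx'⟩, if_pos ⟨hG, hx⟩]
    have hp : tableOf G ∈ dataF.PG := by
      change GoodG (Gp (tableOf G))
      rw [Gp, graphOfTable_tableOf]
      exact hG
    have hp' : tableOf (G.comap σ) ∈ dataF.PG := by
      change GoodG (Gp (tableOf (G.comap σ)))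
      rw [Gp, graphOfTable_tableOf]
      exact hG'
    have hν : ∀ F S : Finset (Sym2 ℕ), mass (dataF.ν (tableOf (G.comap σ))) F S =
        mass (dataF.ν (tableOf G)) (F.map (rhoE σ).toEmbedding) (S.map (rhoE σ).toEmbedding) := by
      intro F S
      change mass (νG (Gp (tableOf (G.comap σ)))) F S =
        mass (νG (Gp (tableOf G))) (F.map (rhoE σ).toEmbedding) (S.map (rhoE σ).toEmbedding)
      rw [Gp, Gp, graphOfTable_tableOf, graphOfTable_tableOf]
      exact νG_mass_comap σ hG F S
    have hFs : ∀ e N, (dataF.Fs (tableOf (G.comap σ)) e N).map (rhoE σ).toEmbedding =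
        dataF.Fs (tableOf G) (rhoE σ e) N := by
      intro e N
      change (fsG (Gp (tableOf (G.comap σ))) e N).map (rhoE σ).toEmbedding =
        fsG (Gp (tableOf G)) (rhoE σ e) N
      rw [Gp, Gp, graphOfTable_tableOf, graphOfTable_tableOf]
      exact fsG_comap σ hG e N
    have hnoise : noiseOf (G.comap σ) (splitMap f (x ∘ σ)).1 (splitMap f (x ∘ σ)).2 =
        fun l => noiseOf G (splitMap f x).1 (splitMap f x).2 (rhoE σ l) := by
      funext l
      unfold noiseOf
      rw [hsplit2, hsplit1]
      have hx0 : Function.Injective (splitMap f x).1 := hx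
      rw [siteOf_comap (G := G) hx0 σ l]
    rw [hnoise]
    exact dataF_regular.Xi_equivariant hp hp' (rhoE σ) hν hFs _
  · have h' : ¬ (GoodG (G.comap σ) ∧ Function.Injective (splitMap f (x ∘ σ)).1) := by
      rintro ⟨h1, h2⟩
      apply h
      refine ⟨GoodG.of_comap σ h1, ?_⟩
      rw [hsplit1] at h2
      intro a b hab
      have := @h2 (σ.symm a) (σ.symm b) (by simpa using hab)
      simpa using this
    unfold PhiR
    rw [if_neg h, if_neg h']
    rfl

/-- The law of the rule on a good graph. -/
theorem PhiR_law (hf : Measurable f)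
    (hlaw : (volume : Measure unitInterval).map f =
      (volume : Measure unitInterval).prod (Measure.infinitePi fun _ : ℕ => muBM))
    {G : SimpleGraph ℕ} (hG : GoodG G) :
    (Crest.ProbabilityR.Labels.labelMeasure ℕ).map (PhiR f G) = νG G := by
  set p : Tab := tableOf G with hpdef
  have hGp : Gp p = G := graphOfTable_tableOf G
  have hp : p ∈ dataF.PG := by
    change GoodG (Gp p)
    rw [hGp]
    exact hG
  set P := Crest.ProbabilityR.Labels.labelMeasure ℕ with hP
  set Q := allBM (ℕ × ℕ) with hQ
  have hPprob : IsProbabilityMeasure P := by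
    rw [hP]
    unfold Crest.ProbabilityR.Labels.labelMeasure
    infer_instance
  have hnoise : Measurable (fun z : (ℕ → unitInterval) × (ℕ × ℕ → Sk) => noiseOf G z.1 z.2) := by
    refine measurable_pi_lambda _ fun e => ?_
    refine measurable_of_key (κ := ℕ × ℕ)
      (key := fun z : (ℕ → unitInterval) × (ℕ × ℕ → Sk) => siteOf G z.1 e)
      (g := fun q z => z.2 q) ?_ ?_ (fun z => rfl)
    · intro q
      have h1 : Measurable (fun z : (ℕ → unitInterval) × (ℕ × ℕ → Sk) => ((p, z.1) : ZZ)) :=
        measurable_const.prodMk measurable_fst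
      have h2 := ((measurable_siteOf e).comp h1) (measurableSet_singleton q)
      simp only [Function.comp_def, hGp] at h2
      exact h2
    · intro q
      exact (measurable_pi_apply q).comp measurable_snd
  set Ξ : (ℕ → unitInterval) × (ℕ × ℕ → Sk) → Sym2 ℕ → Bool :=
    fun z => dataF.Xi p (noiseOf G z.1 z.2) with hΞ
  have hXip : Measurable (dataF.Xi p) :=
    measurable_dataF_Xi.comp (f := fun w => ((p, w) : Tab × (Sym2 ℕ → Sk)))
      (measurable_const.prodMk measurable_id)
  have hΞm : Measurable Ξ := hXip.comp hnoise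
  have hsplit := label_split hf hlaw
  have hs := measurable_splitMap hf
  have hinj : ∀ᵐ x ∂P, Function.Injective (splitMap f x).1 := by
    refine ae_of_ae_map (p := fun z : (ℕ → unitInterval) × (ℕ × ℕ → Sk) => Function.Injective z.1)
      hs.aemeasurable ?_
    rw [hsplit]
    exact Measure.quasiMeasurePreserving_fst.ae ae_injective_labels
  have hae : PhiR f G =ᵐ[P] Ξ ∘ splitMap f := by
    filter_upwards [hinj] with x hx
    simp only [PhiR, Function.comp]
    rw [if_pos ⟨hG, hx⟩]
  rw [Measure.map_congr hae, ← Measure.map_map hΞm hs, hsplit]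
  ext B hB
  rw [Measure.map_apply hΞm hB, Measure.prod_apply (hΞm hB)]
  have hconst : ∀ᵐ x0 ∂P, Q (Prod.mk x0 ⁻¹' (Ξ ⁻¹' B)) = νG G B := by
    filter_upwards [ae_injective_labels] with x0 hx0
    have h1 : Measurable (fun W : ℕ × ℕ → Sk => noiseOf G x0 W) :=
      measurable_pi_lambda _ fun e => measurable_pi_apply _
    have h2 : Q.map (fun W : ℕ × ℕ → Sk => noiseOf G x0 W) = allBM (Sym2 ℕ) :=
      allBM_reindex (siteOf_injective hG hx0)
    have : IsProbabilityMeasure (dataF.ν p) := by
      change IsProbabilityMeasure (νG (Gp p))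
      infer_instance
    have h3 := dataF_regular.Xi_law_BM hp hXip
    have h4 : dataF.ν p = νG G := by
      change νG (Gp p) = νG G
      rw [hGp]
    rw [h4] at h3
    rw [← h3, ← h2, Measure.map_map hXip h1, Measure.map_apply (hXip.comp h1) hB]
    rfl
  rw [lintegral_congr_ae hconst, lintegral_const, measure_univ, mul_one]

end aux

/-- One rule from (graph on `ℕ`, labels in `[0,1]^ℕ`) to edge sets, jointly measurable in (adjacency table, labels) and commuting on every input with every permutation of `ℕ` acting on graph, labels and pairs, gives i.i.d. uniform labels the free uniform spanning forest's law on every connected locally finite graph: along every exhaustion by finite connected induced pieces, for finite edge sets `F` the chance that the piece's uniform spanning tree contains `F` tends to that for the output. -/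
theorem result :
    ∃ Φ : SimpleGraph ℕ → (ℕ → unitInterval) → (Sym2 ℕ → Bool),
      Measurable (fun p : (ℕ → ℕ → Bool) × (ℕ → unitInterval) =>
          Φ (Crest.ProbabilityR.GraphTables.graphOfTable p.1) p.2) ∧
      (∀ (σ : Equiv.Perm ℕ) (G : SimpleGraph ℕ) (x : ℕ → unitInterval),
          Φ (G.comap ⇑σ) (x ∘ ⇑σ) = Φ G x ∘ Sym2.map ⇑σ) ∧
      ∀ G : SimpleGraph ℕ, G.Connected → (∀ v : ℕ, (G.neighborSet v).Finite) →
        ∀ S : ℕ → Finset ℕ, Monotone S → (∀ v : ℕ, ∃ n, v ∈ S n) →
          (∀ n, (G.induce (S n : Set ℕ)).Connected) →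
          ∀ F : Finset (Sym2 ℕ), (↑F : Set (Sym2 ℕ)) ⊆ G.edgeSet →
            Filter.Tendsto (fun n => Crest.ProbabilityR.SpanningTrees.ustContains G (S n) F) Filter.atTop
              (nhds (((Crest.ProbabilityR.Labels.labelMeasure ℕ).map (Φ G) {ω | ∀ e ∈ F, ω e = true}).toReal)) := by
  obtain ⟨f, hf, hlaw⟩ := Measure.exists_measurable_map_eq
    ((volume : Measure unitInterval).prod (Measure.infinitePi fun _ : ℕ => muBM))
  refine ⟨PhiR f, measurable_PhiR hf, PhiR_equi, ?_⟩
  intro G hconn hlf S hm hex hc F hF
  have hG : GoodG G := ⟨hconn, hlf⟩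
  rw [PhiR_law hf hlaw hG, νG_upset hG]
  exact tendsto_ust hm hex hc hF

end Crest.Agent.S0254
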