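import Crest.Statements.S0255
import Crest.Agent.Lib.LocBM
import Crest.Agent.Lib.LocSR

set_option autoImplicit false
open Crest Crest.ProbabilityR

namespace Crest.Agent.S0255

open MeasureTheory Crest.Agent.Lib.Loc

section aux

variable {Γ : Type*} [Group Γ]

/-- Translates of a fixed exhaustion. -/
noncomputable def transFs (B : ℕ → Finset Γ) (e : Γ) (N : ℕ) : Finset Γ :=
  (B N).map (Equiv.mulLeft e).toEmbedding

/-- The parametrized data. -/
noncomputable def dataOf (ν : Measure (Γ → Bool)) (B : ℕ → Finset Γ) : ParData Unit Γ where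
  ν := fun _ => ν
  Fs := fun _ => transFs B
  PG := Set.univ

lemma exists_exhaustion [Countable Γ] : ∃ B : ℕ → Finset Γ,
    (∀ N, (1 : Γ) ∈ B N) ∧ Monotone B ∧ ∀ g, ∃ N, g ∈ B N := by
  classical
  obtain ⟨f, hf⟩ := exists_surjective_nat Γ
  refine ⟨fun N => insert 1 ((Finset.range N).image f), fun N => Finset.mem_insert_self _ _, ?_, ?_⟩
  · intro M N hMN
    refine Finset.insert_subset_insert _ (Finset.image_subset_image ?_)
    exact Finset.range_mono hMN
  · intro g
    obtain ⟨n, rfl⟩ := hf g
    refine ⟨n + 1, Finset.mem_insert_of_mem (Finset.mem_image.2 ⟨n, ?_, rfl⟩)⟩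
    simp

lemma transFs_good {B : ℕ → Finset Γ} (h1 : ∀ N, (1 : Γ) ∈ B N) (hm : Monotone B)
    (hex : ∀ g, ∃ N, g ∈ B N) : GoodExh (transFs B) where
  mem := by
    intro e N
    simp only [transFs, Finset.mem_map]
    exact ⟨1, h1 N, by simp⟩
  mono := by
    intro e M N hMN
    exact Finset.map_subset_map.2 (hm hMN)
  exh := by
    intro e l
    obtain ⟨N, hN⟩ := hex (e⁻¹ * l)
    refine ⟨N, ?_⟩
    simp only [transFs, Finset.mem_map]
    exact ⟨_, hN, by simp⟩

end aux

/-- For a countable group `Γ` and a strongly Rayleigh probability law `ν` on binary configurations `Γ → Bool` that is invariant under every left shift `a ↦ (h ↦ a (g⁻¹ h))`, there is a measurable map from independent uniform labels indexed by `Γ` to configurations that commutes with every left shift and pushes the label law forward to `ν`. -/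
theorem result (Γ : Type*) [Group Γ]
    [Countable Γ] (ν : MeasureTheory.Measure (Γ → Bool)) [MeasureTheory.IsProbabilityMeasure ν]
    (hsr : Crest.ProbabilityR.StronglyRayleigh.IsStronglyRayleigh ν)
    (hinv : Crest.ProbabilityR.StronglyRayleigh.IsShiftInvariant ν) :
    ∃ Φ : (Γ → unitInterval) → (Γ → Bool), Measurable Φ ∧
      (∀ (g : Γ) (u : Γ → unitInterval),
        Φ (Crest.ProbabilityR.StronglyRayleigh.leftShift g u) =
          Crest.ProbabilityR.StronglyRayleigh.leftShift g (Φ u)) ∧
      (Crest.ProbabilityR.Labels.labelMeasure Γ).map Φ = ν := by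
  obtain ⟨B, hB1, hBm, hBex⟩ := exists_exhaustion (Γ := Γ)
  obtain ⟨ι, hι, hιlaw⟩ := Measure.exists_measurable_map_eq muBM
  set D : ParData Unit Γ := dataOf ν B with hD
  have hR : D.Regular (1 / 2) :=
    { L0 := by norm_num
      lip := fun _ _ => liplaw_of_isStronglyRayleigh ν hsr
      exh := fun _ _ => transFs_good hB1 hBm hBex }
  have hJ : D.JointM := by
    intro e N t
    exact (measurable_Mfin ν _ e t).comp measurable_snd
  have hXi := hR.measurable_Xi hJ MeasurableSet.univ
  set lift : (Γ → unitInterval) → Γ → Sk := fun u g => ι (u g) with hlift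
  have hliftm : Measurable lift :=
    measurable_pi_lambda _ fun g => hι.comp (measurable_pi_apply g)
  have hΦm : Measurable (fun u => D.Xi () (lift u)) :=
    hXi.comp (f := fun u => (((), lift u) : Unit × (Γ → Sk))) (measurable_const.prodMk hliftm)
  refine ⟨fun u => D.Xi () (lift u), hΦm, ?_, ?_⟩
  · intro g u
    set ρ : Γ ≃ Γ := Equiv.mulLeft g⁻¹ with hρ
    have hν : ∀ F S : Finset Γ, mass (D.ν ()) F S =
        mass (D.ν ()) (F.map ρ.toEmbedding) (S.map ρ.toEmbedding) := by
      intro F S
      have h1 := hinv g {ω | ∀ i ∈ F, (ω i = true ↔ i ∈ S)} (measurableSet_cyl F S)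
      have h2 : (Crest.ProbabilityR.StronglyRayleigh.leftShift g ⁻¹'
          {ω : Γ → Bool | ∀ i ∈ F, (ω i = true ↔ i ∈ S)}) =
          {ω | ∀ i ∈ F.map ρ.toEmbedding, (ω i = true ↔ i ∈ S.map ρ.toEmbedding)} := by
        ext ω
        simp only [Crest.ProbabilityR.StronglyRayleigh.leftShift, hρ, Set.mem_preimage,
          Set.mem_setOf_eq, Finset.mem_map, Equiv.coe_toEmbedding, Equiv.coe_mulLeft,
          forall_exists_index, and_imp]
        constructor
        · intro h i x hx hi
          subst hi
          have h3 := h x hx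
          constructor
          · intro h4
            exact ⟨x, h3.1 h4, rfl⟩
          · rintro ⟨y, hy, hyx⟩
            have : y = x := by simpa using hyx
            exact h3.2 (this ▸ hy)
        · intro h i hi
          have h3 := h (g⁻¹ * i) i hi rfl
          constructor
          · intro h4
            obtain ⟨y, hy, hyx⟩ := h3.1 h4
            have : y = i := by simpa using hyx
            exact this ▸ hy
          · intro h4
            exact h3.2 ⟨i, h4, rfl⟩
      rw [h2] at h1
      show (ν _).toReal = (ν _).toReal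
      rw [h1]
    have hFs : ∀ e N, (D.Fs () e N).map ρ.toEmbedding = D.Fs () (ρ e) N := by
      intro e N
      show ((B N).map _).map _ = (B N).map _
      rw [Finset.map_map]
      congr 1
      ext x
      simp [hρ, mul_assoc]
    have := hR.Xi_equivariant (Set.mem_univ ()) (Set.mem_univ ()) ρ hν hFs (lift u)
    exact this
  · have hlaw : (Crest.ProbabilityR.Labels.labelMeasure Γ).map lift = allBM Γ := by
      unfold Crest.ProbabilityR.Labels.labelMeasure allBM
      rw [Measure.infinitePi_map_pi _ (fun _ : Γ => hι)]
      simp only [hιlaw]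
    have hXm : Measurable (D.Xi ()) :=
      hXi.comp (f := fun w => (((), w) : Unit × (Γ → Sk))) (measurable_const.prodMk measurable_id)
    haveI : IsProbabilityMeasure (D.ν ()) := ‹IsProbabilityMeasure ν›
    have h3 := hR.Xi_law_BM (Set.mem_univ ()) (hXm := hXm)
    rw [← hlaw, Measure.map_map hXm hliftm] at h3
    exact h3

end Crest.Agent.S0255
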