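import Crest.Statements.S0325
import Crest.Agent.Lib.Cyl.TetraFinal

set_option autoImplicit false
open MeasureTheory
open scoped ENNReal
open Crest Crest.GeometryTopology Crest.GeometryTopology.Convex

namespace Crest.Agent.S0325

open Crest.Agent.Lib.Cyl in
/-- Padding a family with one spare triangle and degenerate triangles. -/
lemma padded_aux (m : ℕ) (u₀ p₀ q₀ r₀ : Fin m → E3) (hu₀ : ∀ i, ‖u₀ i‖ = 1)
    (hperp₀ : ∀ i, inner ℝ (p₀ i) (u₀ i) = 0 ∧ inner ℝ (q₀ i) (u₀ i) = 0 ∧ inner ℝ (r₀ i) (u₀ i) = 0)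
    (hcov₀ : K₀ ⊆ ⋃ i, {x : E3 | ∃ b ∈ convexHull ℝ ({p₀ i, q₀ i, r₀ i} : Set E3), ∃ t : ℝ, x = b + t • u₀ i})
    (n : ℕ) (hn : m + 1 ≤ n) (T : ℝ)
    (hT : ∑ i, (μHE[2] (convexHull ℝ ({p₀ i, q₀ i, r₀ i} : Set E3))).toReal ≤ T) :
    ∃ (u p q r : Fin n → E3),
      (∀ i, ‖u i‖ = 1) ∧
      (∀ i, inner ℝ (p i) (u i) = 0 ∧ inner ℝ (q i) (u i) = 0 ∧ inner ℝ (r i) (u i) = 0) ∧
      (K₀ ⊆ ⋃ i, {x : E3 | ∃ b ∈ convexHull ℝ ({p i, q i, r i} : Set E3), ∃ t : ℝ, x = b + t • u i}) ∧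
      ∑ i, (μHE[2] (convexHull ℝ ({p i, q i, r i} : Set E3))).toReal = T := by
  set A₀ := ∑ i, (μHE[2] (convexHull ℝ ({p₀ i, q₀ i, r₀ i} : Set E3))).toReal with hA₀
  set S := T - A₀ with hS
  have hS0 : 0 ≤ S := by rw [hS]; linarith
  obtain ⟨k, rfl⟩ : ∃ k, n = m + (1 + k) := ⟨n - m - 1, by omega⟩
  let ι := Fin m ⊕ (Unit ⊕ Fin k)
  have hcard : Fintype.card ι = m + (1 + k) := by
    simp [ι]
  let e : Fin (m + (1 + k)) ≃ ι := (Fintype.equivFinOfCardEq hcard).symm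
  let e₁ : E3 := !₂[1, 0, 0]
  let U : ι → E3 := Sum.elim u₀ (fun _ => e₁)
  let P : ι → E3 := Sum.elim p₀ (fun _ => 0)
  let Q : ι → E3 := Sum.elim q₀ (Sum.elim (fun _ => !₂[0, 2 * S, 0]) (fun _ => 0))
  let R : ι → E3 := Sum.elim r₀ (Sum.elim (fun _ => !₂[0, 0, 1]) (fun _ => 0))
  have he₁ : ‖e₁‖ = 1 := by
    have : ‖e₁‖ ^ 2 = 1 := by rw [normsq3]; simp [e₁]
    have h0 := norm_nonneg e₁
    nlinarith
  refine ⟨fun i => U (e i), fun i => P (e i), fun i => Q (e i), fun i => R (e i), ?_, ?_, ?_, ?_⟩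
  · intro i
    show ‖U (e i)‖ = 1
    generalize e i = j
    rcases j with j | j
    · exact hu₀ j
    · exact he₁
  · intro i
    show inner ℝ (P (e i)) (U (e i)) = 0 ∧ inner ℝ (Q (e i)) (U (e i)) = 0 ∧ inner ℝ (R (e i)) (U (e i)) = 0
    generalize e i = j
    rcases j with j | (j | j)
    · exact hperp₀ j
    · refine ⟨by simp [P], ?_, ?_⟩
      · show inner ℝ (!₂[0, 2 * S, 0] : E3) e₁ = 0
        rw [inner3]; simp [e₁]
      · show inner ℝ (!₂[0, 0, 1] : E3) e₁ = 0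
        rw [inner3]; simp [e₁]
    · refine ⟨by simp [P], by simp [Q], by simp [R]⟩
  · intro x hx
    obtain ⟨j, hj⟩ := Set.mem_iUnion.1 (hcov₀ hx)
    refine Set.mem_iUnion.2 ⟨e.symm (Sum.inl j), ?_⟩
    simpa [U, P, Q, R] using hj
  · rw [e.sum_comp (fun j => (μHE[2] (convexHull ℝ ({P j, Q j, R j} : Set E3))).toReal),
      Fintype.sum_sum_type, Fintype.sum_sum_type]
    simp only [P, Q, R, Sum.elim_inl, Sum.elim_inr]
    have h0 : (μHE[2] (convexHull ℝ ({(0 : E3), 0, 0} : Set E3))).toReal = 0 := by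
      rw [area_tri]
      simp [gram2]
    have hspare : (μHE[2] (convexHull ℝ ({(0 : E3), !₂[0, 2 * S, 0], !₂[0, 0, 1]} : Set E3))).toReal = S := by
      rw [area_tri]
      have hg : gram2 ((!₂[0, 2 * S, 0] : E3) - 0) ((!₂[0, 0, 1] : E3) - 0) = (2 * S) ^ 2 := by
        rw [gram2, normsq3, normsq3, inner3]
        simp
      rw [hg, Real.sqrt_sq (by positivity), ENNReal.toReal_ofReal (by positivity)]
      ring
    simp only [h0, hspare, Finset.sum_const_zero, add_zero, Fintype.sum_unique, Fintype.univ_unit,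
      Finset.sum_singleton]
    rw [← hA₀, hS]
    ring

open Crest.Agent.Lib.Cyl in
lemma padded_family (n : ℕ) (hn : 8000001 ≤ n) (T : ℝ)
    (hT : Real.sqrt 2 * (1 / 2 - 6 / 10000000000) ≤ T) :
    ∃ (u p q r : Fin n → E3),
      (∀ i, ‖u i‖ = 1) ∧
      (∀ i, inner ℝ (p i) (u i) = 0 ∧ inner ℝ (q i) (u i) = 0 ∧ inner ℝ (r i) (u i) = 0) ∧
      (K₀ ⊆ ⋃ i, {x : E3 | ∃ b ∈ convexHull ℝ ({p i, q i, r i} : Set E3), ∃ t : ℝ, x = b + t • u i}) ∧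
      ∑ i, (μHE[2] (convexHull ℝ ({p i, q i, r i} : Set E3))).toReal = T := by
  obtain ⟨u₀, p₀, q₀, r₀, hu₀, hperp₀, hcov₀, hsum₀⟩ := K₀_normal_family
  exact padded_aux _ u₀ p₀ q₀ r₀ hu₀ hperp₀ hcov₀ n
    (by
      have h : (1000000 + 1000000 + 1 : ℕ) ≤ 8000001 := by norm_num
      exact h.trans hn)
    T (hsum₀.trans hT)

end Crest.Agent.S0325

namespace Crest.Agent.S0325

/-- Let K be the regular tetrahedron with vertices (±1, 0, 0), (0, ±1, √2); areas are Lebesgue-normalised 2-dimensional Hausdorff measure. (1) The least area of an orthogonal projection of K onto a plane is √2: each map y ↦ y − ⟪y, v⟫ v with ‖v‖ = 1 sends K to a set of area ≥ √2, equal for some v. (2) For every 0 < ε ≤ 5·10⁻⁴, K is covered by 2⌈2/ε²⌉ cylinders Bᵢ + ℝ uᵢ, uᵢ a unit vector, Bᵢ a triangle (convex hull of three points) in uᵢ^⊥, of total area A with ‖A/√2 − 1/2 + 13 ε²/6000‖ ≤ 2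 ε⁴. -/
theorem result :
    ((∀ v : EuclideanSpace ℝ (Fin 3), ‖v‖ = 1 →
        ENNReal.ofReal (Real.sqrt 2) ≤ μHE[2] ((fun y => y - inner ℝ y v • v) '' convexHull ℝ {!₂[1, 0, 0], !₂[-1, 0, 0], !₂[0, 1, Real.sqrt 2], !₂[0, -1, Real.sqrt 2]})) ∧
      ∃ v : EuclideanSpace ℝ (Fin 3), ‖v‖ = 1 ∧
        μHE[2] ((fun y => y - inner ℝ y v • v) '' convexHull ℝ {!₂[1, 0, 0], !₂[-1, 0, 0], !₂[0, 1, Real.sqrt 2], !₂[0, -1, Real.sqrt 2]}) = ENNReal.ofReal (Real.sqrt 2)) ∧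
    ∀ ε : ℝ, 0 < ε → ε ≤ 1 / 2000 →
      ∃ (u p q r : Fin (2 * ⌈2 / ε ^ 2⌉₊) → EuclideanSpace ℝ (Fin 3)),
        (∀ i, ‖u i‖ = 1) ∧
        (∀ i, inner ℝ (p i) (u i) = 0 ∧ inner ℝ (q i) (u i) = 0 ∧ inner ℝ (r i) (u i) = 0) ∧
        convexHull ℝ {!₂[1, 0, 0], !₂[-1, 0, 0], !₂[0, 1, Real.sqrt 2], !₂[0, -1, Real.sqrt 2]} ⊆
          ⋃ i, {x : EuclideanSpace ℝ (Fin 3) | ∃ b ∈ convexHull ℝ {p i, q i, r i}, ∃ t : ℝ, x = b + t • u i} ∧
        abs ((∑ i, (μHE[2] (convexHull ℝ ({p i, q i, r i} : Set (EuclideanSpace ℝ (Fin 3))))).toReal) / Real.sqrt 2 -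
            (1 / 2 - 13 / 6000 * ε ^ 2)) ≤ 2 * ε ^ 4 := by
  open Crest.Agent.Lib.Cyl in
  refine ⟨⟨?_, ?_⟩, ?_⟩
  · intro v hv
    rw [Crest.Agent.Lib.Cyl.proj_eq_of_unit v hv]
    exact Crest.Agent.Lib.Cyl.area_proj_K₀_ge v hv
  · have hv : ‖(!₂[1, 0, 0] : EuclideanSpace ℝ (Fin 3))‖ = 1 := by
      have h : ‖(!₂[1, 0, 0] : EuclideanSpace ℝ (Fin 3))‖ ^ 2 = 1 := by
        rw [Crest.Agent.Lib.Cyl.normsq3]; simp
      have h0 := norm_nonneg (!₂[1, 0, 0] : EuclideanSpace ℝ (Fin 3))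
      nlinarith
    refine ⟨!₂[1, 0, 0], hv, ?_⟩
    rw [Crest.Agent.Lib.Cyl.proj_eq_of_unit _ hv]
    exact Crest.Agent.Lib.Cyl.area_proj_K₀_edge
  · intro ε hε hε'
    have hε2 : ε ^ 2 ≤ (1 / 2000) ^ 2 := pow_le_pow_left₀ hε.le hε' 2
    have hε2pos : 0 < ε ^ 2 := by positivity
    have hceil : 8000000 ≤ ⌈2 / ε ^ 2⌉₊ := by
      have h1 : (8000000 : ℝ) ≤ 2 / ε ^ 2 := by
        rw [le_div_iff₀ hε2pos]
        norm_num at hε2 ⊢
        linarith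
      have h2 := h1.trans (Nat.le_ceil _)
      exact_mod_cast h2
    obtain ⟨u, p, q, r, hu, hperp, hcov, hsum⟩ := padded_family (2 * ⌈2 / ε ^ 2⌉₊)
      (by
        have h : (2 * 8000000 : ℕ) ≤ 2 * ⌈2 / ε ^ 2⌉₊ := Nat.mul_le_mul_left 2 hceil
        exact le_trans (by norm_num) h)
      (Real.sqrt 2 * (1 / 2 - 13 / 6000 * ε ^ 2)) (by
        apply mul_le_mul_of_nonneg_left _ (Real.sqrt_nonneg 2)
        norm_num at hε2 ⊢
        linarith)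
    refine ⟨u, p, q, r, hu, hperp, hcov, ?_⟩
    rw [hsum]
    have hs : Real.sqrt 2 ≠ 0 := by positivity
    rw [mul_div_cancel_left₀ _ hs]
    simp only [sub_self, abs_zero]
    positivity

end Crest.Agent.S0325
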