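import Crest.Statements.S0326
import Crest.Agent.Lib.Ruled.Cell

set_option autoImplicit false
open MeasureTheory
open scoped ENNReal
open Crest Crest.GeometryTopology Crest.GeometryTopology.Convex

namespace Crest.Agent.S0326

open Crest.Agent.Lib.Ruled Set
open scoped RealInnerProductSpace

/-- Mean value estimate, uniform on a compact set. -/
lemma mv_bound (D U : Set E) (hD : IsCompact D) (hU : IsOpen U) (hDU : D ⊆ U) (V : E → E)
    (hV : ContDiffOn ℝ 1 V U) (η' : ℝ) (hη' : 0 < η') :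
    ∃ ρ₀ > 0, ∀ p₀ ∈ D, ∀ p, ‖p - p₀‖ ≤ ρ₀ →
      ‖V p - V p₀ - fderiv ℝ V p₀ (p - p₀)‖ ≤ η' * ‖p - p₀‖ := by
  obtain ⟨τ, hτ, hτU⟩ := hD.exists_cthickening_subset_open hU hDU
  have hK : IsCompact (Metric.cthickening τ D) := hD.cthickening
  have hcont : ContinuousOn (fderiv ℝ V) U := hV.continuousOn_fderiv_of_isOpen hU le_rfl
  have huc := hK.uniformContinuousOn_of_continuous (hcont.mono hτU)
  rw [Metric.uniformContinuousOn_iff] at huc
  obtain ⟨ρ₂, hρ₂, hρ₂'⟩ := huc η' hη'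
  refine ⟨min τ (ρ₂ / 2), by positivity, ?_⟩
  intro p₀ hp₀ p hp
  set r := min τ (ρ₂ / 2) with hr
  have hr0 : 0 < r := by positivity
  have hball : Metric.closedBall p₀ r ⊆ Metric.cthickening τ D := fun x hx =>
    Metric.mem_cthickening_of_dist_le x p₀ τ D hp₀ ((Metric.mem_closedBall.mp hx).trans (min_le_left _ _))
  have hp₀K := hball (Metric.mem_closedBall_self hr0.le)
  refine Convex.norm_image_sub_le_of_norm_hasFDerivWithin_le' (s := Metric.closedBall p₀ r) (f := V)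
    (f' := fderiv ℝ V) (φ := fderiv ℝ V p₀) ?_ ?_ (convex_closedBall _ _)
    (Metric.mem_closedBall_self hr0.le) (by simpa [dist_eq_norm] using hp)
  · intro x hx
    have hxU := hτU (hball hx)
    have hd : DifferentiableAt ℝ V x :=
      (hV.contDiffAt (hU.mem_nhds hxU)).differentiableAt (by norm_num)
    exact hd.hasFDerivAt.hasFDerivWithinAt
  · intro x hx
    have hd : dist x p₀ < ρ₂ := by
      have h1 : dist x p₀ ≤ ρ₂ / 2 := (Metric.mem_closedBall.mp hx).trans (min_le_right _ _)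
      linarith
    have := hρ₂' x (hball hx) p₀ hp₀K hd
    rw [dist_eq_norm] at this
    exact this.le

/-- Every point lies in the grid box of its floor index. -/
lemma mem_box_floor (ρ : ℝ) (hρ : 0 < ρ) (p : E) :
    p ∈ box ρ (⌊p 0 / ρ⌋, ⌊p 1 / ρ⌋) := by
  rw [mem_box]
  have key : ∀ t : ℝ, ρ * (⌊t / ρ⌋ : ℝ) ≤ t ∧ t < ρ * ((⌊t / ρ⌋ : ℝ) + 1) := by
    intro t
    have h1 := Int.floor_le (t / ρ)
    have h2 := Int.lt_floor_add_one (t / ρ)
    constructor
    · have := mul_le_mul_of_nonneg_left h1 hρ.le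
      rwa [mul_div_cancel₀ _ hρ.ne'] at this
    · have := mul_lt_mul_of_pos_left h2 hρ
      rwa [mul_div_cancel₀ _ hρ.ne'] at this
  exact ⟨key _, key _⟩

set_option maxHeartbeats 4000000 in
/-- Main construction, indexed by a `Finset`. -/
lemma main_cover
    (D : Set E) (hD : IsCompact D) (hne : D.Nonempty)
    (V : E → E) (U : Set E)
    (hU : IsOpen U) (hDU : D ⊆ U) (hV : ContDiffOn ℝ 1 V U) (L h : ℝ) (hL : 0 < L)
    (htr : ∀ p ∈ D, LinearMap.trace ℝ E (fderiv ℝ V p).toLinearMap = 0)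
    (hdet : ∀ p ∈ D, -(L ^ 2)⁻¹ < LinearMap.det (fderiv ℝ V p).toLinearMap ∧
      LinearMap.det (fderiv ℝ V p).toLinearMap ≤ 0)
    (ε : ℝ) (hε : 0 < ε) :
    ∃ (F : Finset (Σ _ : ℤ × ℤ, ℤ × ℤ)) (c a b g : (Σ _ : ℤ × ℤ, ℤ × ℤ) → E),
      (∀ j ∈ F, a j ≠ 0 ∧ ‖b j‖ = ‖a j‖ ∧ inner ℝ (a j) (b j) = 0) ∧
      (∀ p ∈ D, ∀ s : ℝ, |s| ≤ L → ∃ j ∈ F, ∃ x ∈ Set.Icc (0 : ℝ) 1, ∃ y ∈ Set.Icc (0 : ℝ) 1,
        p + s • V p = c j + x • a j + y • b j + s • g j) ∧
      ∑ j ∈ F, ‖a j‖ ^ 2 * J h (g j) ≤ (∫ p in D, J h (V p)) + ε := by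
  classical
  have hDm : MeasurableSet D := hD.measurableSet
  have Vc : ContinuousOn V D := hV.continuousOn.mono hDU
  have DVc : ContinuousOn (fderiv ℝ V) D :=
    (hV.continuousOn_fderiv_of_isOpen hU le_rfl).mono hDU
  -- constants from compactness
  obtain ⟨C₀, hC₀⟩ := hD.exists_bound_of_continuousOn DVc
  obtain ⟨CV₀, hCV₀⟩ := hD.exists_bound_of_continuousOn Vc
  set C := max C₀ 0 with hCdef
  have hC : 0 ≤ C := le_max_right _ _
  have hCbd : ∀ p ∈ D, ‖fderiv ℝ V p‖ ≤ C := fun p hp => (hC₀ p hp).trans (le_max_left _ _)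
  set CV := max CV₀ 0 with hCVdef
  have hCV : 0 ≤ CV := le_max_right _ _
  have hCVbd : ∀ p ∈ D, ‖V p‖ ≤ CV := fun p hp => (hCV₀ p hp).trans (le_max_left _ _)
  -- the constant κ
  have hdetc : ContinuousOn (fun p => 1 + L ^ 2 * LinearMap.det (fderiv ℝ V p).toLinearMap) D := by
    have h1 : ContinuousOn (fun p => (fderiv ℝ V p).det) D :=
      ContinuousLinearMap.continuous_det.comp_continuousOn DVc
    exact continuousOn_const.add (continuousOn_const.mul h1)
  obtain ⟨pmin, hpmin, hpmin'⟩ := hD.exists_isMinOn hne hdetc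
  set κ := 1 + L ^ 2 * LinearMap.det (fderiv ℝ V pmin).toLinearMap with hκdef
  have hL2 : 0 < L ^ 2 := by positivity
  have hκ : 0 < κ := by
    have h1 := (hdet pmin hpmin).1
    have h2 : L ^ 2 * (-(L ^ 2)⁻¹) < L ^ 2 * LinearMap.det (fderiv ℝ V pmin).toLinearMap :=
      mul_lt_mul_of_pos_left h1 hL2
    rw [mul_neg, mul_inv_cancel₀ hL2.ne'] at h2
    rw [hκdef]
    linarith
  have hκdet : ∀ p ∈ D, κ ≤ 1 + L ^ 2 * LinearMap.det (fderiv ℝ V p).toLinearMap :=
    fun p hp => hpmin' hp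
  -- integrability and the volume of D
  have hJV : ContinuousOn (fun p => J h (V p)) D := (J_continuous h).comp_continuousOn Vc
  have hint : IntegrableOn (fun p => J h (V p)) D := hJV.integrableOn_compact hD
  have hvD : volume D < ∞ := hD.measure_lt_top
  set v := (volume D).toReal with hvdef
  have hv0 : 0 ≤ v := ENNReal.toReal_nonneg
  set I₀ := ∫ p in D, J h (V p) with hI₀
  have hI₀v : I₀ ≤ v := by
    have h1 : I₀ ≤ ∫ _ in D, (1 : ℝ) :=
      setIntegral_mono_on hint (integrableOn_const hvD.ne) hDm (fun p _ => J_le_one h _)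
    rw [setIntegral_const] at h1
    simpa [Measure.real] using h1
  -- small parameters
  set η := min 1 (ε / (4 * (v + 1))) with hηdef
  have hη : 0 < η := lt_min one_pos (by positivity)
  have hη1 : η ≤ 1 := min_le_left _ _
  have hη2 : 2 * η * (v + 1) ≤ ε / 2 := by
    have h1 : η ≤ ε / (4 * (v + 1)) := min_le_right _ _
    have h2 : η * (4 * (v + 1)) ≤ ε := by
      rwa [le_div_iff₀ (by positivity)] at h1
    linarith
  set θ := min 1 (ε / (6 * (3 * v + 2))) with hθdef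
  have hθ : 0 < θ := lt_min one_pos (by positivity)
  have hθ1 : θ ≤ 1 := min_le_left _ _
  have hθ2 : 3 * θ * (3 * v + 2) ≤ ε / 2 := by
    have h1 : θ ≤ ε / (6 * (3 * v + 2)) := min_le_right _ _
    have h2 : θ * (6 * (3 * v + 2)) ≤ ε := by
      rwa [le_div_iff₀ (by positivity)] at h1
    linarith
  -- uniform continuity of J on a big ball
  have hJuc := (isCompact_closedBall (0 : E) (CV + 1)).uniformContinuousOn_of_continuous
    (J_continuous h).continuousOn
  rw [Metric.uniformContinuousOn_iff] at hJuc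
  obtain ⟨ζ, hζ, hζ'⟩ := hJuc η hη
  -- uniform continuity of V on D
  have hVuc := hD.uniformContinuousOn_of_continuous Vc
  rw [Metric.uniformContinuousOn_iff] at hVuc
  obtain ⟨ρ₁, hρ₁, hρ₁'⟩ := hVuc ζ hζ
  -- the mean value bound
  set M := (1 + L * C) / κ with hMdef
  have hM : 0 < M := by positivity
  set η' := θ / (16 * M * L) with hη'def
  have hη' : 0 < η' := by positivity
  obtain ⟨ρ₀, hρ₀, hMV⟩ := mv_bound D U hD hU hDU V hV η' hη'
  -- the thickening
  have hthick := tendsto_measure_cthickening_of_isCompact (μ := (volume : Measure E)) hD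
  have hev : ∀ᶠ r in nhds (0 : ℝ), volume (Metric.cthickening r D) < volume D + ENNReal.ofReal η := by
    apply hthick.eventually_lt_const
    exact ENNReal.lt_add_right hvD.ne (by simpa using hη)
  obtain ⟨ρ₃, hρ₃, hρ₃'⟩ := Metric.eventually_nhds_iff.mp hev
  -- the grid scale
  set ζ' := min ζ 1 with hζ'def
  have hζ'0 : 0 < ζ' := lt_min hζ one_pos
  set ρ := min (min (ρ₀ / 2) (ρ₁ / 4)) (min (ζ' / (8 * (C + 1))) (ρ₃ / 4)) with hρdef
  have hρ : 0 < ρ := by
    refine lt_min (lt_min (by positivity) (by positivity)) (lt_min (by positivity) (by positivity))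
  have hρa : 2 * ρ ≤ ρ₀ := by
    have : ρ ≤ ρ₀ / 2 := (min_le_left _ _).trans (min_le_left _ _)
    linarith
  have hρb : 2 * ρ < ρ₁ := by
    have : ρ ≤ ρ₁ / 4 := (min_le_left _ _).trans (min_le_right _ _)
    linarith
  have hρc : 4 * C * ρ < ζ' := by
    have h1 : ρ ≤ ζ' / (8 * (C + 1)) := (min_le_right _ _).trans (min_le_left _ _)
    have h2 : ρ * (8 * (C + 1)) ≤ ζ' := by
      rwa [le_div_iff₀ (by positivity)] at h1
    nlinarith
  have hρd : 2 * ρ < ρ₃ := by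
    have : ρ ≤ ρ₃ / 4 := (min_le_right _ _).trans (min_le_right _ _)
    linarith
  set δ := θ * ρ / (8 * (M + 1)) with hδdef
  have hδ : 0 < δ := by positivity
  set ηe := η' * (2 * ρ) with hηedef
  have hηe : 0 ≤ ηe := by positivity
  have hr : 2 * (2 * (1 + L * C) * (L * ηe + δ) / κ + 2 * δ) ≤ θ * ρ := by
    have e1 : 2 * (1 + L * C) * (L * ηe + δ) / κ = 2 * M * (L * ηe + δ) := by
      rw [hMdef]; field_simp
    have e2 : L * ηe * (16 * M) = θ * (2 * ρ) := by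
      rw [hηedef, hη'def]; field_simp
    have e3 : δ * (8 * (M + 1)) = θ * ρ := by
      rw [hδdef]; field_simp
    rw [e1]
    nlinarith
  have hMV' : ∀ p₀ ∈ D, ∀ p ∈ D, ‖p - p₀‖ ≤ 2 * ρ →
      ‖V p - V p₀ - fderiv ℝ V p₀ (p - p₀)‖ ≤ ηe := by
    intro p₀ hp₀ p _ hpp
    refine (hMV p₀ hp₀ p (hpp.trans hρa)).trans ?_
    exact mul_le_mul_of_nonneg_left hpp hη'.le
  have hJ1 : ∀ p ∈ D, ∀ g, ‖g - V p‖ ≤ 4 * C * ρ → J h g ≤ J h (V p) + η := by
    intro p hp g hg
    have hg1 : ‖g - V p‖ < ζ' := lt_of_le_of_lt hg hρc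
    have hg2 : ‖g - V p‖ < ζ := lt_of_lt_of_le hg1 (min_le_left _ _)
    have hg3 : ‖g - V p‖ < 1 := lt_of_lt_of_le hg1 (min_le_right _ _)
    have hgm : g ∈ Metric.closedBall (0 : E) (CV + 1) := by
      rw [mem_closedBall_zero_iff]
      have : g = (g - V p) + V p := by abel
      rw [this]
      calc _ ≤ ‖g - V p‖ + ‖V p‖ := norm_add_le _ _
        _ ≤ CV + 1 := by linarith [hCVbd p hp]
    have hVm : V p ∈ Metric.closedBall (0 : E) (CV + 1) := by
      rw [mem_closedBall_zero_iff]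
      linarith [hCVbd p hp]
    have := hζ' g hgm (V p) hVm (by rwa [dist_eq_norm])
    rw [Real.dist_eq, abs_lt] at this
    linarith [this.2]
  have hJ2 : ∀ p ∈ D, ∀ q ∈ D, ‖p - q‖ ≤ 2 * ρ → J h (V p) ≤ J h (V q) + η := by
    intro p hp q hq hpq
    have hd : dist p q < ρ₁ := by rw [dist_eq_norm]; linarith
    have h1 := hρ₁' p hp q hq hd
    have hm : ∀ r ∈ D, V r ∈ Metric.closedBall (0 : E) (CV + 1) := by
      intro r hr
      rw [mem_closedBall_zero_iff]
      linarith [hCVbd r hr]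
    have := hζ' (V p) (hm p hp) (V q) (hm q hq) h1
    rw [Real.dist_eq, abs_lt] at this
    linarith [this.2]
  -- per box data
  choose Λ c a b g hshape hcover hsum using
    cell_data D hDm V L C κ h ρ δ ηe η θ hC hκ hρ hδ hL hη.le hη1 hθ.le hθ1 hηe htr
      (fun p hp => (hdet p hp).2) hκdet hCbd hMV' hr hJ1 hJ2 hint
  -- the finite grid
  set W := Metric.cthickening (2 * ρ) D with hW
  have hWfin : volume W ≠ ∞ := (hD.cthickening.measure_lt_top).ne
  obtain ⟨I, hI, -⟩ := count_cells std 0 ρ hρ W hWfin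
  have hbox_sub : ∀ p ∈ D, ∀ i, p ∈ box ρ i → i ∈ I := by
    intro p hp i hpi
    rw [hI]
    intro u hu
    refine Metric.mem_cthickening_of_dist_le u p _ D hp ?_
    rw [dist_eq_norm]
    exact norm_sub_le_of_mem_box ρ hρ i u p hu hpi
  have hbox_subW : ∀ i ∈ I, box ρ i ⊆ W := fun i hi => (hI i).mp hi
  have hDcov : D = ⋃ i ∈ I, (D ∩ box ρ i) := by
    ext p
    constructor
    · intro hp
      exact Set.mem_biUnion (hbox_sub p hp _ (mem_box_floor ρ hρ p)) ⟨hp, mem_box_floor ρ hρ p⟩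
    · intro hp
      obtain ⟨i, -, hp'⟩ := Set.mem_iUnion₂.mp hp
      exact hp'.1
  have hboxdisj : ∀ i j : ℤ × ℤ, i ≠ j → Disjoint (box ρ i) (box ρ j) :=
    fun i j hij => lcell_disjoint std 0 ρ hρ i j hij
  refine ⟨I.sigma Λ, fun j => c j.1 j.2, fun j => a j.1 j.2, fun j => b j.1 j.2,
    fun j => g j.1 j.2, ?_, ?_, ?_⟩
  · intro j hj
    rw [Finset.mem_sigma] at hj
    exact hshape j.1 j.2 hj.2
  · intro p hp s hs
    set i : ℤ × ℤ := (⌊p 0 / ρ⌋, ⌊p 1 / ρ⌋) with hi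
    have hpi : p ∈ box ρ i := mem_box_floor ρ hρ p
    obtain ⟨mn, hmn, x, hx, y, hy, heq⟩ := hcover i p ⟨hp, hpi⟩ s hs
    refine ⟨⟨i, mn⟩, ?_, x, hx, y, hy, heq⟩
    rw [Finset.mem_sigma]
    exact ⟨hbox_sub p hp i hpi, hmn⟩
  · rw [Finset.sum_sigma]
    -- integrate over the boxes
    have hf : IntegrableOn (fun p => J h (V p) + 2 * η) D :=
      hint.add (integrableOn_const hvD.ne)
    have hsum1 : ∑ i ∈ I, ∫ p in D ∩ box ρ i, (J h (V p) + 2 * η) = ∫ p in D, (J h (V p) + 2 * η) := by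
      conv_rhs => rw [hDcov]
      rw [integral_biUnion_finset]
      · intro i _
        exact hDm.inter (measurableSet_box ρ i)
      · intro i _ j _ hij
        exact (hboxdisj i j hij).mono inter_subset_right inter_subset_right
      · intro i _
        exact hf.mono_set inter_subset_left
    have hsum2 : ∑ i ∈ I, (volume (box ρ i \ D)).toReal ≤ η := by
      have hdisj : (I : Set (ℤ × ℤ)).PairwiseDisjoint fun i => box ρ i \ D := by
        intro i _ j _ hij
        exact (hboxdisj i j hij).mono sdiff_subset sdiff_subset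
      have hmeas : ∀ i ∈ I, MeasurableSet (box ρ i \ D) := fun i _ =>
        (measurableSet_box ρ i).diff hDm
      have h1 : volume (⋃ i ∈ I, box ρ i \ D) = ∑ i ∈ I, volume (box ρ i \ D) :=
        measure_biUnion_finset hdisj hmeas
      have hsub : (⋃ i ∈ I, box ρ i \ D) ⊆ W \ D :=
        Set.iUnion₂_subset fun i hi => Set.diff_subset_diff_left (hbox_subW i hi)
      have hDW : D ⊆ W := Metric.self_subset_cthickening D
      have h2 : volume (W \ D) ≤ ENNReal.ofReal η := by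
        have hlt := hρ₃' (y := 2 * ρ) (by
          rw [Real.dist_eq, sub_zero, abs_of_pos (by positivity)]
          exact hρd)
        have hsplit : volume D + volume (W \ D) = volume W := by
          have := measure_inter_add_diff (μ := (volume : Measure E)) W hDm
          rwa [inter_eq_right.mpr hDW] at this
        rw [← hsplit] at hlt
        exact (ENNReal.add_lt_add_iff_left hvD.ne).mp hlt |>.le
      have h3 : ∑ i ∈ I, volume (box ρ i \ D) ≤ ENNReal.ofReal η := by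
        rw [← h1]
        exact (measure_mono hsub).trans h2
      have hfin : ∀ i ∈ I, volume (box ρ i \ D) ≠ ∞ := by
        intro i _
        exact ne_top_of_le_ne_top (by rw [volume_box ρ hρ]; exact ENNReal.ofReal_ne_top)
          (measure_mono sdiff_subset)
      rw [← ENNReal.toReal_sum hfin]
      have := ENNReal.toReal_mono ENNReal.ofReal_ne_top h3
      rwa [ENNReal.toReal_ofReal hη.le] at this
    have hsum3 : ∫ p in D, (J h (V p) + 2 * η) = I₀ + 2 * η * v := by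
      rw [integral_add hint (integrableOn_const hvD.ne), setIntegral_const]
      simp only [Measure.real, smul_eq_mul, ← hvdef, ← hI₀]
      ring
    calc ∑ i ∈ I, ∑ mn ∈ Λ i, ‖a i mn‖ ^ 2 * J h (g i mn)
        ≤ ∑ i ∈ I, (1 + θ) ^ 2 * ((∫ p in D ∩ box ρ i, (J h (V p) + 2 * η)) +
            2 * (volume (box ρ i \ D)).toReal) := Finset.sum_le_sum fun i _ => hsum i
      _ = (1 + θ) ^ 2 * ((I₀ + 2 * η * v) + 2 * ∑ i ∈ I, (volume (box ρ i \ D)).toReal) := by
          rw [← Finset.mul_sum, Finset.sum_add_distrib, hsum1, hsum3, Finset.mul_sum]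
      _ ≤ (1 + θ) ^ 2 * ((I₀ + 2 * η * v) + 2 * η) := by gcongr
      _ ≤ I₀ + ε := by
          have hI₀0 : 0 ≤ I₀ := integral_nonneg fun p => J_nonneg h _
          have h1 : (1 + θ) ^ 2 ≤ 1 + 3 * θ := by nlinarith
          have h2 : (I₀ + 2 * η * v) + 2 * η ≤ 3 * v + 2 := by nlinarith
          have h3 : 0 ≤ (I₀ + 2 * η * v) + 2 * η := by positivity
          calc (1 + θ) ^ 2 * ((I₀ + 2 * η * v) + 2 * η)
              ≤ (1 + 3 * θ) * ((I₀ + 2 * η * v) + 2 * η) := mul_le_mul_of_nonneg_right h1 h3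
            _ = ((I₀ + 2 * η * v) + 2 * η) + 3 * θ * ((I₀ + 2 * η * v) + 2 * η) := by ring
            _ ≤ ((I₀ + 2 * η * v) + 2 * η) + 3 * θ * (3 * v + 2) := by gcongr
            _ ≤ I₀ + ε := by nlinarith

/-- Let D ⊂ ℝ² be compact, V : ℝ² → ℝ² be C¹ on an open set containing D, and L, h > 0, with tr DV(p) = 0 and −1/L² < det DV(p) ≤ 0 for p ∈ D. Let E ⊂ ℝ × ℝ² be the ruled set of points (s, p + s V(p)), p ∈ D, −L ≤ s ≤ L. For every ε > 0, finitely many squares Tᵢ = cᵢ + [0,1]aᵢ + [0,1]bᵢ (aᵢ ⊥ bᵢ of equal nonzero length) and velocities gᵢ ∈ ℝ² exist whose sheared cylinders {(s, ξ) : ξ ∈ Tᵢ + s gᵢ} cover E, with ∑ᵢ area(Tᵢ) J(gᵢ) ≤ ∫_D J(V(p)) dp + ε, where J(g) = (1 + g₁² + h² g₂²)^(−1/2). -/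
theorem result
    (D : Set (EuclideanSpace ℝ (Fin 2))) (hD : IsCompact D)
    (V : EuclideanSpace ℝ (Fin 2) → EuclideanSpace ℝ (Fin 2)) (U : Set (EuclideanSpace ℝ (Fin 2)))
    (hU : IsOpen U) (hDU : D ⊆ U) (hV : ContDiffOn ℝ 1 V U) (L h : ℝ) (hL : 0 < L) (hh : 0 < h)
    (htr : ∀ p ∈ D, LinearMap.trace ℝ _ (fderiv ℝ V p).toLinearMap = 0)
    (hdet : ∀ p ∈ D, -(L ^ 2)⁻¹ < LinearMap.det (fderiv ℝ V p).toLinearMap ∧
      LinearMap.det (fderiv ℝ V p).toLinearMap ≤ 0)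
    (ε : ℝ) (hε : 0 < ε) :
    ∃ (k : ℕ) (c a b g : Fin k → EuclideanSpace ℝ (Fin 2)),
      (∀ i, a i ≠ 0 ∧ ‖b i‖ = ‖a i‖ ∧ inner ℝ (a i) (b i) = 0) ∧
      {z : ℝ × EuclideanSpace ℝ (Fin 2) | ∃ p ∈ D, abs z.1 ≤ L ∧ z.2 = p + z.1 • V p} ⊆
        ⋃ i, {z : ℝ × EuclideanSpace ℝ (Fin 2) | ∃ x ∈ Set.Icc (0 : ℝ) 1, ∃ y ∈ Set.Icc (0 : ℝ) 1,
          z.2 = c i + x • a i + y • b i + z.1 • g i} ∧
      ∑ i, ‖a i‖ ^ 2 / Real.sqrt (1 + (g i 0) ^ 2 + h ^ 2 * (g i 1) ^ 2) ≤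
        (∫ p in D, 1 / Real.sqrt (1 + (V p 0) ^ 2 + h ^ 2 * (V p 1) ^ 2)) + ε := by
  classical
  by_cases hne : D.Nonempty
  swap
  · have hemp : D = ∅ := Set.not_nonempty_iff_eq_empty.mp hne
    refine ⟨0, Fin.elim0, Fin.elim0, Fin.elim0, Fin.elim0, fun i => i.elim0, ?_, ?_⟩
    · rintro z ⟨p, hp, -⟩
      rw [hemp] at hp
      exact absurd hp (Set.notMem_empty p)
    · simp [hemp, hε.le]
  obtain ⟨F, c, a, b, g, hshape, hcover, hsum⟩ :=
    main_cover D hD hne V U hU hDU hV L h hL htr hdet ε hε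
  set e := F.equivFin with he
  refine ⟨F.card, fun j => c (e.symm j).1, fun j => a (e.symm j).1, fun j => b (e.symm j).1,
    fun j => g (e.symm j).1, ?_, ?_, ?_⟩
  · intro j
    exact hshape _ (e.symm j).2
  · rintro z ⟨p, hp, hs, hz⟩
    obtain ⟨j, hj, x, hx, y, hy, heq⟩ := hcover p hp z.1 hs
    refine Set.mem_iUnion.mpr ⟨e ⟨j, hj⟩, x, hx, y, hy, ?_⟩
    rw [hz, heq]
    simp
  · have hs : ∑ i : Fin F.card, ‖a (e.symm i).1‖ ^ 2 /
        Real.sqrt (1 + (g (e.symm i).1 0) ^ 2 + h ^ 2 * (g (e.symm i).1 1) ^ 2) =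
        ∑ j ∈ F, ‖a j‖ ^ 2 * J h (g j) := by
      rw [← Finset.sum_coe_sort F, ← e.symm.sum_comp]
      refine Finset.sum_congr rfl fun i _ => ?_
      simp only [J, mul_one_div]
    rw [hs]
    exact hsum

end Crest.Agent.S0326
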