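import Crest.Statements.S0328
-- import your own Crest.Agent.* helpers here

set_option autoImplicit false
open MeasureTheory
open scoped ENNReal
open Crest Crest.GeometryTopology Crest.GeometryTopology.Convex

namespace Crest.Agent.S0328


abbrev E3 : Type := EuclideanSpace ℝ (Fin 3)
abbrev E2 : Type := EuclideanSpace ℝ (Fin 2)

/-- The Gram quantity of two vectors. -/
noncomputable def gram (u v : E3) : ℝ := ‖u‖ ^ 2 * ‖v‖ ^ 2 - inner ℝ u v ^ 2

/-- The standard triangle in the plane. -/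
def stdTri : Set E2 := {x | 0 ≤ x 0 ∧ 0 ≤ x 1 ∧ x 0 + x 1 ≤ 1}

lemma volume_triProd :
    (volume : Measure (ℝ × ℝ)) {p : ℝ × ℝ | 0 ≤ p.1 ∧ 0 ≤ p.2 ∧ p.1 + p.2 ≤ 1} = ENNReal.ofReal (1 / 2) := by
  have hm : MeasurableSet {p : ℝ × ℝ | 0 ≤ p.1 ∧ 0 ≤ p.2 ∧ p.1 + p.2 ≤ 1} := by
    apply IsClosed.measurableSet
    refine (isClosed_le continuous_const continuous_fst).inter
      ((isClosed_le continuous_const continuous_snd).inter
        (isClosed_le (continuous_fst.add continuous_snd) continuous_const))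
  rw [Measure.volume_eq_prod, Measure.prod_apply hm]
  have hs : ∀ x : ℝ, (volume : Measure ℝ) (Prod.mk x ⁻¹' {p : ℝ × ℝ | 0 ≤ p.1 ∧ 0 ≤ p.2 ∧ p.1 + p.2 ≤ 1})
      = (Set.Icc (0:ℝ) 1).indicator (fun x => ENNReal.ofReal (1 - x)) x := by
    intro x
    by_cases hx : x ∈ Set.Icc (0:ℝ) 1
    · rw [Set.indicator_of_mem hx]
      have : Prod.mk x ⁻¹' {p : ℝ × ℝ | 0 ≤ p.1 ∧ 0 ≤ p.2 ∧ p.1 + p.2 ≤ 1} = Set.Icc 0 (1 - x) := by
        ext y
        simp only [Set.mem_preimage, Set.mem_ofPred_eq, Set.mem_Icc]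
        constructor
        · rintro ⟨_, h2, h3⟩; exact ⟨h2, by linarith⟩
        · rintro ⟨h2, h3⟩; exact ⟨hx.1, h2, by linarith⟩
      rw [this, Real.volume_Icc]; simp
    · rw [Set.indicator_of_notMem hx]
      have : Prod.mk x ⁻¹' {p : ℝ × ℝ | 0 ≤ p.1 ∧ 0 ≤ p.2 ∧ p.1 + p.2 ≤ 1} = ∅ := by
        ext y
        simp only [Set.mem_preimage, Set.mem_ofPred_eq, Set.mem_empty_iff_false, iff_false]
        rintro ⟨h1, h2, h3⟩
        exact hx ⟨h1, by linarith⟩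
      rw [this]; simp
  simp_rw [hs]
  rw [lintegral_indicator measurableSet_Icc]
  rw [← ofReal_integral_eq_lintegral_ofReal]
  · congr 1
    rw [integral_Icc_eq_integral_Ioc, ← intervalIntegral.integral_of_le (by norm_num)]
    rw [intervalIntegral.integral_sub (by simp) (by simp), integral_id]
    norm_num
  · exact (continuous_const.sub continuous_id).integrableOn_Icc
  · filter_upwards [ae_restrict_mem measurableSet_Icc] with x hx
    simp only [Pi.zero_apply]; linarith [hx.2]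

lemma volume_stdTri : volume stdTri = ENNReal.ofReal (1 / 2) := by
  -- transfer to ℝ × ℝ
  have h1 : MeasurePreserving (fun x : E2 => ((x 0 : ℝ), (x 1 : ℝ))) volume (volume : Measure (ℝ × ℝ)) := by
    have h2 := EuclideanSpace.volume_preserving_symm_measurableEquiv_toLp (Fin 2)
    have h3 := volume_preserving_finTwoArrow ℝ
    exact h3.comp h2
  have hm : MeasurableSet {p : ℝ × ℝ | 0 ≤ p.1 ∧ 0 ≤ p.2 ∧ p.1 + p.2 ≤ 1} := by
    apply IsClosed.measurableSet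
    refine (isClosed_le continuous_const continuous_fst).inter
      ((isClosed_le continuous_const continuous_snd).inter
        (isClosed_le (continuous_fst.add continuous_snd) continuous_const))
  have := h1.measure_preimage hm.nullMeasurableSet
  rw [volume_triProd] at this
  exact this

/-- The linear map `x ↦ x 0 • u + x 1 • v`. -/
noncomputable def triMap (u v : E3) : E2 →ₗ[ℝ] E3 where
  toFun x := x 0 • u + x 1 • v
  map_add' x y := by simp [add_smul]; abel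
  map_smul' c x := by simp [mul_smul, smul_add]

lemma triMap_apply (u v : E3) (x : E2) : triMap u v x = x 0 • u + x 1 • v := rfl

lemma normDet_triMap (u v : E3) : (triMap u v).normDet = Real.sqrt (gram u v) := by
  have h := (triMap u v).normDet_sq_eq_det_gram (EuclideanSpace.basisFun (Fin 2) ℝ)
  have h2 : Matrix.det (Matrix.gram ℝ fun x => (triMap u v) ((EuclideanSpace.basisFun (Fin 2) ℝ) x)) = gram u v := by
    rw [Matrix.det_fin_two]
    simp only [Matrix.gram_apply, triMap_apply]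
    simp [gram, real_inner_comm]
    ring
  have h3 : (triMap u v).normDet ^ 2 = gram u v := by
    have h4 : ((triMap u v).normDet ^ 2 : ℝ) = Matrix.det (Matrix.gram ℝ fun x => (triMap u v) ((EuclideanSpace.basisFun (Fin 2) ℝ) x)) := by
      simpa using h
    rw [h4, h2]
  rw [← h3, Real.sqrt_sq (LinearMap.normDet_nonneg _)]

lemma convexHull_tri (p u v : E3) :
    convexHull ℝ {p, p + u, p + v} = (fun y => p + y) '' ((triMap u v) '' stdTri) := by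
  apply Set.Subset.antisymm
  · apply convexHull_min
    · intro z hz
      simp only [Set.mem_insert_iff, Set.mem_singleton_iff] at hz
      rcases hz with rfl | rfl | rfl
      · refine ⟨0, ⟨!₂[(0:ℝ), 0], ?_, ?_⟩, by simp⟩
        · simp [stdTri]
        · simp [triMap_apply]
      · refine ⟨u, ⟨!₂[(1:ℝ), 0], ?_, ?_⟩, rfl⟩
        · simp [stdTri]
        · simp [triMap_apply]
      · refine ⟨v, ⟨!₂[(0:ℝ), 1], ?_, ?_⟩, rfl⟩
        · simp [stdTri]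
        · simp [triMap_apply]
    · -- convexity of the image
      have hconv : Convex ℝ stdTri := by
        intro x hx y hy s t hs ht hst
        obtain ⟨a1, a2, a3⟩ := hx
        obtain ⟨b1, b2, b3⟩ := hy
        refine ⟨?_, ?_, ?_⟩
        · simp; positivity
        · simp; positivity
        · simp only [PiLp.add_apply, PiLp.smul_apply, smul_eq_mul]
          nlinarith
      have h1 : Convex ℝ ((triMap u v) '' stdTri) := hconv.linear_image _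
      have h2 : Convex ℝ ((fun y => p + y) '' ((triMap u v) '' stdTri)) := h1.translate p
      exact h2
  · rintro _ ⟨_, ⟨x, ⟨h0, h1, h2⟩, rfl⟩, rfl⟩
    have hp : p ∈ convexHull ℝ {p, p + u, p + v} := subset_convexHull ℝ _ (by simp)
    have hq : p + u ∈ convexHull ℝ {p, p + u, p + v} := subset_convexHull ℝ _ (by simp)
    have hr : p + v ∈ convexHull ℝ {p, p + u, p + v} := subset_convexHull ℝ _ (by simp)
    have hc := convex_convexHull ℝ ({p, p + u, p + v} : Set E3)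
    have key : p + triMap u v x = (1 - x 0 - x 1) • p + x 0 • (p + u) + x 1 • (p + v) := by
      rw [triMap_apply]
      simp only [smul_add, sub_smul, one_smul]
      abel
    simp only [key]
    have := hc.sum_mem (t := Finset.univ) (w := ![1 - x 0 - x 1, x 0, x 1]) (z := ![p, p + u, p + v])
      (by intro i _; fin_cases i <;> simp <;> linarith)
      (by simp [Fin.sum_univ_three]; ring)
      (by intro i _; fin_cases i <;> simp [hp, hq, hr])
    simpa [Fin.sum_univ_three] using this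

lemma area_tri (p u v : E3) :
    μHE[2] (convexHull ℝ ({p, p + u, p + v} : Set E3)) = ENNReal.ofReal (Real.sqrt (gram u v) / 2) := by
  rw [convexHull_tri]
  have h1 : Isometry (fun y : E3 => p + y) := (IsometryEquiv.addLeft p).isometry
  rw [h1.euclideanHausdorffMeasure_image]
  have h2 := (triMap u v).euclideanHausdorffMeasure_image_eq_normDet_mul_volume stdTri
  rw [finrank_euclideanSpace_fin] at h2
  rw [h2, volume_stdTri, normDet_triMap, ← ENNReal.ofReal_mul (Real.sqrt_nonneg _)]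
  congr 1
  ring

/-- Orthogonal projection along `W` as a linear map. -/
noncomputable def proj (W : E3) : E3 →ₗ[ℝ] E3 where
  toFun y := y - (inner ℝ y W / ‖W‖ ^ 2) • W
  map_add' x y := by
    simp only [inner_add_left, add_div, add_smul]; abel
  map_smul' c x := by
    simp only [real_inner_smul_left, mul_div_assoc, mul_smul, RingHom.id_apply, smul_sub]

lemma proj_apply (W y : E3) : proj W y = y - (inner ℝ y W / ‖W‖ ^ 2) • W := rfl

lemma inner_proj_self (W y : E3) (hW : W ≠ 0) : inner ℝ (proj W y) W = 0 := by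
  have h : ‖W‖ ^ 2 ≠ 0 := by positivity
  rw [proj_apply, inner_sub_left, real_inner_smul_left, real_inner_self_eq_norm_sq]
  field_simp
  ring

lemma proj_self (W : E3) (hW : W ≠ 0) : proj W W = 0 := by
  have h : ‖W‖ ^ 2 ≠ 0 := by positivity
  rw [proj_apply, real_inner_self_eq_norm_sq, div_self h, one_smul, sub_self]

lemma inner_proj_proj (W x y : E3) (hW : W ≠ 0) :
    inner ℝ (proj W x) (proj W y) = inner ℝ x y - inner ℝ x W * inner ℝ y W / ‖W‖ ^ 2 := by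
  have h : ‖W‖ ^ 2 ≠ 0 := by positivity
  simp only [proj_apply, inner_sub_left, inner_sub_right, real_inner_smul_left, real_inner_smul_right,
    real_inner_self_eq_norm_sq, real_inner_comm W x, real_inner_comm y W]
  field_simp
  ring

lemma gram_alg (A B G α β x₁ y₁ x₂ y₂ n : ℝ) (hn : n = 1 + (α ^ 2 * A + 2 * α * β * G + β ^ 2 * B))
    (hn0 : n ≠ 0) :
    (x₁ * x₁ * A + (x₁ * y₁ + y₁ * x₁) * G + y₁ * y₁ * B -
        (x₁ * (α * A + β * G) + y₁ * (α * G + β * B)) * (x₁ * (α * A + β * G) + y₁ * (α * G + β * B)) / n) *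
      (x₂ * x₂ * A + (x₂ * y₂ + y₂ * x₂) * G + y₂ * y₂ * B -
        (x₂ * (α * A + β * G) + y₂ * (α * G + β * B)) * (x₂ * (α * A + β * G) + y₂ * (α * G + β * B)) / n) -
      (x₁ * x₂ * A + (x₁ * y₂ + y₁ * x₂) * G + y₁ * y₂ * B -
        (x₁ * (α * A + β * G) + y₁ * (α * G + β * B)) * (x₂ * (α * A + β * G) + y₂ * (α * G + β * B)) / n) ^ 2
      = (x₁ * y₂ - x₂ * y₁) ^ 2 * (A * B - G ^ 2) / n := by
  field_simp
  subst hn
  ring

lemma gram_proj (e a b : E3) (he : ‖e‖ = 1) (ha : inner ℝ a e = 0) (hb : inner ℝ b e = 0)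
    (α β x₁ y₁ x₂ y₂ : ℝ) :
    gram (proj (e + (α • a + β • b)) (x₁ • a + y₁ • b)) (proj (e + (α • a + β • b)) (x₂ • a + y₂ • b))
      = (x₁ * y₂ - x₂ * y₁) ^ 2 * gram a b / (1 + ‖α • a + β • b‖ ^ 2) := by
  set A := ‖a‖ ^ 2 with hA
  set B := ‖b‖ ^ 2 with hB
  set G := inner ℝ a b with hG
  have haa : inner ℝ a a = A := real_inner_self_eq_norm_sq a
  have hbb : inner ℝ b b = B := real_inner_self_eq_norm_sq b
  have hba : inner ℝ b a = G := real_inner_comm a b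
  have hea : inner ℝ e a = 0 := by rw [real_inner_comm]; exact ha
  have heb : inner ℝ e b = 0 := by rw [real_inner_comm]; exact hb
  have hee : inner ℝ e e = 1 := by rw [real_inner_self_eq_norm_sq, he]; norm_num
  set w := α • a + β • b with hw
  have hww : ‖w‖ ^ 2 = α ^ 2 * A + 2 * α * β * G + β ^ 2 * B := by
    rw [← real_inner_self_eq_norm_sq, hw]
    simp only [inner_add_left, inner_add_right, real_inner_smul_left, real_inner_smul_right, haa, hbb, hba, ← hG]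
    ring
  have hew : inner ℝ e w = 0 := by
    rw [hw]; simp only [inner_add_right, real_inner_smul_right, hea, heb]; ring
  have hwe : inner ℝ w e = 0 := by rw [real_inner_comm]; exact hew
  have hWW : ‖e + w‖ ^ 2 = 1 + ‖w‖ ^ 2 := by
    rw [← real_inner_self_eq_norm_sq, ← real_inner_self_eq_norm_sq w]
    simp only [inner_add_left, inner_add_right, hee, hew, hwe]
    ring
  have hn : 0 < 1 + ‖w‖ ^ 2 := by positivity
  have hW : e + w ≠ 0 := by
    intro h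
    rw [h] at hWW
    simp at hWW
    linarith [hWW, hn]
  have hIn : ∀ x y : ℝ, inner ℝ (x • a + y • b) (e + w) = x * (α * A + β * G) + y * (α * G + β * B) := by
    intro x y
    rw [hw]
    simp only [inner_add_left, inner_add_right, real_inner_smul_left, real_inner_smul_right, haa, hbb, hba, ha, hb, ← hG]
    ring
  have hIn2 : ∀ x y x' y' : ℝ, inner ℝ (x • a + y • b) (x' • a + y' • b) = x * x' * A + (x * y' + y * x') * G + y * y' * B := by
    intro x y x' y'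
    simp only [inner_add_left, inner_add_right, real_inner_smul_left, real_inner_smul_right, haa, hbb, hba, ← hG]
    ring
  have hP : ∀ x y x' y' : ℝ, inner ℝ (proj (e + w) (x • a + y • b)) (proj (e + w) (x' • a + y' • b))
      = x * x' * A + (x * y' + y * x') * G + y * y' * B -
        (x * (α * A + β * G) + y * (α * G + β * B)) * (x' * (α * A + β * G) + y' * (α * G + β * B))
          / (1 + ‖w‖ ^ 2) := by
    intro x y x' y'
    rw [inner_proj_proj _ _ _ hW, hIn, hIn, hIn2, hWW]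
  unfold gram
  rw [← real_inner_self_eq_norm_sq, ← real_inner_self_eq_norm_sq (proj (e + w) (x₂ • a + y₂ • b)), hP, hP, hP]
  rw [hww] at hn ⊢
  have hAB : (‖a‖ ^ 2 * ‖b‖ ^ 2 - inner ℝ a b ^ 2) = A * B - G ^ 2 := rfl
  rw [hAB]
  exact gram_alg A B G α β x₁ y₁ x₂ y₂ _ rfl hn.ne'

lemma gram_pos (a b : E3) (hab : LinearIndependent ℝ ![a, b]) : 0 < gram a b := by
  have ha : a ≠ 0 := by
    have := hab.ne_zero 0
    simpa using this
  have hA : 0 < ‖a‖ ^ 2 := by positivity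
  set z : E3 := (‖a‖ ^ 2) • b - (inner ℝ a b) • a with hz
  have hz0 : z ≠ 0 := by
    intro h
    have h2 := (LinearIndependent.pair_iff.mp (by simpa using hab)) (-(inner ℝ a b)) (‖a‖ ^ 2)
    have h3 : (-(inner ℝ a b)) • a + (‖a‖ ^ 2) • b = 0 := by
      rw [← h, hz]; module
    have := (h2 h3).2
    exact hA.ne' this
  have haa : inner ℝ a a = ‖a‖ ^ 2 := real_inner_self_eq_norm_sq a
  have hbb : inner ℝ b b = ‖b‖ ^ 2 := real_inner_self_eq_norm_sq b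
  have hba : inner ℝ b a = inner ℝ a b := real_inner_comm a b
  have hzz : ‖z‖ ^ 2 = ‖a‖ ^ 2 * gram a b := by
    rw [← real_inner_self_eq_norm_sq, hz]
    simp only [inner_sub_left, inner_sub_right, real_inner_smul_left, real_inner_smul_right,
      haa, hbb, hba, gram]
    ring
  have h4 : 0 < ‖z‖ ^ 2 := by positivity
  rw [hzz] at h4
  exact (pos_iff_pos_of_mul_pos h4).mp hA

/-- Dual functionals on the plane `e^⊥`. -/
lemma exists_dual (e a b : E3) (he : ‖e‖ = 1) (ha : inner ℝ a e = 0) (hb : inner ℝ b e = 0)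
    (hab : LinearIndependent ℝ ![a, b]) :
    ∃ φ₁ φ₂ : E3 →L[ℝ] ℝ, φ₁ a = 1 ∧ φ₁ b = 0 ∧ φ₂ a = 0 ∧ φ₂ b = 1 ∧
      ∀ y : E3, inner ℝ y e = 0 → y = φ₁ y • a + φ₂ y • b := by
  have hΓ := gram_pos a b hab
  have hΓ0 : gram a b = ‖a‖ ^ 2 * ‖b‖ ^ 2 - inner ℝ a b ^ 2 := rfl
  generalize hΓg : gram a b = Γ at hΓ hΓ0
  generalize hA : ‖a‖ ^ 2 = A at hΓ0
  generalize hB : ‖b‖ ^ 2 = B at hΓ0
  generalize hG : inner ℝ a b = G at hΓ0
  have hΓne : Γ ≠ 0 := hΓ.ne'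
  have haa : inner ℝ a a = A := by rw [real_inner_self_eq_norm_sq, hA]
  have hbb : inner ℝ b b = B := by rw [real_inner_self_eq_norm_sq, hB]
  have hba : inner ℝ b a = G := by rw [real_inner_comm, hG]
  have hea : inner ℝ e a = 0 := by rw [real_inner_comm]; exact ha
  have heb : inner ℝ e b = 0 := by rw [real_inner_comm]; exact hb
  have hee : inner ℝ e e = 1 := by rw [real_inner_self_eq_norm_sq, he]; norm_num
  let φ₁ : E3 →L[ℝ] ℝ := (B / Γ) • innerSL ℝ a - (G / Γ) • innerSL ℝ b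
  let φ₂ : E3 →L[ℝ] ℝ := (A / Γ) • innerSL ℝ b - (G / Γ) • innerSL ℝ a
  have hφ₁ : ∀ y, φ₁ y = (B / Γ) * inner ℝ a y - (G / Γ) * inner ℝ b y := by
    intro y; simp [φ₁]
  have hφ₂ : ∀ y, φ₂ y = (A / Γ) * inner ℝ b y - (G / Γ) * inner ℝ a y := by
    intro y; simp [φ₂]
  refine ⟨φ₁, φ₂, ?_, ?_, ?_, ?_, ?_⟩
  · rw [hφ₁, haa, hba]
    field_simp
    rw [hΓ0]; try ring
  · rw [hφ₁, hbb, hG]
    field_simp
    ring
  · rw [hφ₂, haa, hba]
    field_simp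
    ring
  · rw [hφ₂, hbb, hG]
    field_simp
    rw [hΓ0]; try ring
  · intro y hy
    -- y' := y - φ₁ y • a - φ₂ y • b is orthogonal to a, b, e
    set y' := y - φ₁ y • a - φ₂ y • b with hy'
    have h1 : inner ℝ a y' = 0 := by
      rw [hy']
      simp only [inner_sub_right, real_inner_smul_right, haa, hG, hφ₁, hφ₂]
      field_simp
      rw [hΓ0]; ring
    have h2 : inner ℝ b y' = 0 := by
      rw [hy']
      simp only [inner_sub_right, real_inner_smul_right, hbb, hba, hφ₁, hφ₂]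
      field_simp
      rw [hΓ0]; ring
    have h3 : inner ℝ e y' = 0 := by
      rw [hy']
      simp only [inner_sub_right, real_inner_smul_right, hea, heb]
      rw [real_inner_comm] at hy
      rw [hy]
      ring
    -- the three vectors a b e span
    have hli : LinearIndependent ℝ ![a, b, e] := by
      apply Matrix.linearIndependent_of_det_gram_ne_zero (𝕜 := ℝ)
      rw [Matrix.det_fin_three]
      have hd : ∀ (i j : Fin 3), Matrix.gram ℝ ![a, b, e] i j = inner ℝ (![a, b, e] i) (![a, b, e] j) := by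
        intro i j
        simp [Matrix.gram_apply]
      simp only [hd]
      simp [haa, hbb, hba, hG, hea, heb, ha, hb, hee]
      intro h
      apply hΓne
      rw [he, hA, hB] at h
      rw [hΓ0]
      linarith
    have hspan := hli.span_eq_top_of_card_eq_finrank' (by simp)
    have hy'0 : y' = 0 := by
      have hall : ∀ x ∈ Submodule.span ℝ (Set.range ![a, b, e]), inner ℝ x y' = 0 := by
        intro x hx
        induction hx using Submodule.span_induction with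
        | mem x hx =>
          obtain ⟨i, rfl⟩ := hx
          fin_cases i
          · simpa using h1
          · simpa using h2
          · simpa using h3
        | zero => simp
        | add x y _ _ hx hy => rw [inner_add_left, hx, hy, add_zero]
        | smul c x _ hx => rw [real_inner_smul_left, hx, mul_zero]
      have := hall y' (by rw [hspan]; trivial)
      exact inner_self_eq_zero.mp this
    have : y = y' + (φ₁ y • a + φ₂ y • b) := by rw [hy']; abel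
    rw [hy'0, zero_add] at this
    exact this

lemma tri_ineq (ν ω u v C τ s I J ρ Rτ Rc : ℝ) (hν : 0 < ν) (hν1 : ν ≤ 1) (huv : u < v)
    (hτ : u ≤ τ ∧ τ ≤ v) (hC : u ≤ C ∧ C ≤ v) (hρ : 0 ≤ ρ) (hρ2 : ρ ≤ Rτ)
    (h1 : |s * I| ≤ ω) (h2 : |s * (J - τ * I)| ≤ ω * (v - u)) (h3 : 3 * ω ≤ ν ^ 2)
    (hR : Rτ ≤ Rc + ν) :
    0 ≤ ((ρ * τ + s * J) + ν * C) - (u - ν * (v - u)) * ((ρ + s * I) + ν) ∧
    0 ≤ (v + ν * (v - u)) * ((ρ + s * I) + ν) - ((ρ * τ + s * J) + ν * C) ∧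
    (ρ + s * I) + ν ≤ Rc + 3 * ν := by
  have hh : 0 < v - u := by linarith
  have hω0 : 0 ≤ ω := (abs_nonneg _).trans h1
  obtain ⟨h1a, h1b⟩ := abs_le.mp h1
  obtain ⟨h2a, h2b⟩ := abs_le.mp h2
  have hω1 : ω ≤ ν := by nlinarith
  refine ⟨?_, ?_, ?_⟩
  · have e : ((ρ * τ + s * J) + ν * C) - (u - ν * (v - u)) * ((ρ + s * I) + ν)
        = s * (J - τ * I) + (τ - u + ν * (v - u)) * ρ + (τ - u + ν * (v - u)) * (s * I)
          + ν * (C - u + ν * (v - u)) := by ring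
    rw [e]
    have k0 : 0 ≤ τ - u + ν * (v - u) := by nlinarith [hτ.1, mul_pos hν hh]
    have k1 : τ - u + ν * (v - u) ≤ 2 * (v - u) := by nlinarith [hτ.2]
    have a1 : 0 ≤ (τ - u + ν * (v - u)) * ρ := mul_nonneg k0 hρ
    have a2 : -(2 * (v - u)) * ω ≤ (τ - u + ν * (v - u)) * (s * I) := by
      have : (τ - u + ν * (v - u)) * (-ω) ≤ (τ - u + ν * (v - u)) * (s * I) :=
        mul_le_mul_of_nonneg_left h1a k0
      nlinarith [mul_nonneg (sub_nonneg.mpr k1) hω0]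
    have a3 : ν ^ 2 * (v - u) ≤ ν * (C - u + ν * (v - u)) := by
      have : 0 ≤ ν * (C - u) := mul_nonneg hν.le (by linarith [hC.1])
      nlinarith
    nlinarith [mul_nonneg (sub_nonneg.mpr h3) hh.le]
  · have e : (v + ν * (v - u)) * ((ρ + s * I) + ν) - ((ρ * τ + s * J) + ν * C)
        = - (s * (J - τ * I)) + (v - τ + ν * (v - u)) * ρ + (v - τ + ν * (v - u)) * (s * I)
          + ν * (v - C + ν * (v - u)) := by ring
    rw [e]
    have k0 : 0 ≤ v - τ + ν * (v - u) := by nlinarith [hτ.2, mul_pos hν hh]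
    have k1 : v - τ + ν * (v - u) ≤ 2 * (v - u) := by nlinarith [hτ.1]
    have a1 : 0 ≤ (v - τ + ν * (v - u)) * ρ := mul_nonneg k0 hρ
    have a2 : -(2 * (v - u)) * ω ≤ (v - τ + ν * (v - u)) * (s * I) := by
      have : (v - τ + ν * (v - u)) * (-ω) ≤ (v - τ + ν * (v - u)) * (s * I) :=
        mul_le_mul_of_nonneg_left h1a k0
      nlinarith [mul_nonneg (sub_nonneg.mpr k1) hω0]
    have a3 : ν ^ 2 * (v - u) ≤ ν * (v - C + ν * (v - u)) := by
      have : 0 ≤ ν * (v - C) := mul_nonneg hν.le (by linarith [hC.2])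
      nlinarith
    nlinarith [mul_nonneg (sub_nonneg.mpr h3) hh.le]
  · linarith

/-- Real estimates for the Riemann comparison. -/
lemma up_ineq (Rc Rτ Gc Gτ ν Rm : ℝ) (hRτ0 : 0 ≤ Rτ) (hRτ : Rτ ≤ Rm) (hRc0 : 0 ≤ Rc) (hRc : Rc ≤ Rm)
    (hGc0 : 0 ≤ Gc) (hGc : Gc ≤ 1) (hR : |Rc - Rτ| ≤ ν) (hG : |Gc - Gτ| ≤ ν) (hν : 0 < ν) (hν1 : ν ≤ 1) :
    |(Rc + 3 * ν) ^ 2 * (1 + 2 * ν) * Gc / 2 - Rτ ^ 2 * Gτ / 2|
      ≤ ν * (8 * Rm + 16 + 2 * (Rm + 4) ^ 2 + Rm ^ 2 + 4 * Rm + 1) / 2 := by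
  obtain ⟨hR1, hR2⟩ := abs_le.mp hR
  obtain ⟨hG1, hG2⟩ := abs_le.mp hG
  have hRm : 0 ≤ Rm := hRτ0.trans hRτ
  -- first: 0 ≤ (Rc+3ν)²(1+2ν) - Rτ² ≤ ν C₁
  have hlow : Rτ ^ 2 ≤ (Rc + 3 * ν) ^ 2 * (1 + 2 * ν) := by
    have h1 : Rτ ≤ Rc + 3 * ν := by linarith
    have h2 : Rτ ^ 2 ≤ (Rc + 3 * ν) ^ 2 := by gcongr
    have h3 : 0 ≤ (Rc + 3 * ν) ^ 2 := by positivity
    nlinarith
  have hup : (Rc + 3 * ν) ^ 2 * (1 + 2 * ν) ≤ Rτ ^ 2 + ν * (8 * Rm + 16 + 2 * (Rm + 4) ^ 2) := by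
    have h1 : Rc + 3 * ν ≤ Rτ + 4 * ν := by linarith
    have h2 : (Rc + 3 * ν) ^ 2 ≤ (Rτ + 4 * ν) ^ 2 := by
      apply pow_le_pow_left₀ (by positivity) h1
    have h3 : (Rτ + 4 * ν) ^ 2 ≤ (Rm + 4) ^ 2 := by
      apply pow_le_pow_left₀ (by positivity)
      linarith
    have h4 : (Rτ + 4 * ν) ^ 2 = Rτ ^ 2 + ν * (8 * Rτ + 16 * ν) := by ring
    have h5 : 8 * Rτ + 16 * ν ≤ 8 * Rm + 16 := by linarith
    have h6 : (Rc + 3 * ν) ^ 2 * (1 + 2 * ν) = (Rc + 3 * ν) ^ 2 + ν * (2 * (Rc + 3 * ν) ^ 2) := by ring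
    have h7 : ν * (8 * Rτ + 16 * ν) ≤ ν * (8 * Rm + 16) := mul_le_mul_of_nonneg_left h5 hν.le
    have h8 : ν * (2 * (Rc + 3 * ν) ^ 2) ≤ ν * (2 * (Rm + 4) ^ 2) := by
      apply mul_le_mul_of_nonneg_left _ hν.le
      linarith
    rw [h6]
    nlinarith
  set Q := (Rc + 3 * ν) ^ 2 * (1 + 2 * ν) with hQ
  have hsq : Rτ ^ 2 ≤ Rm ^ 2 := pow_le_pow_left₀ hRτ0 hRτ 2
  have e : Q * Gc / 2 - Rτ ^ 2 * Gτ / 2 = ((Q - Rτ ^ 2) * Gc + Rτ ^ 2 * (Gc - Gτ)) / 2 := by ring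
  rw [e, abs_le]
  have b1 : 0 ≤ (Q - Rτ ^ 2) * Gc := mul_nonneg (sub_nonneg.mpr hlow) hGc0
  have b2 : (Q - Rτ ^ 2) * Gc ≤ ν * (8 * Rm + 16 + 2 * (Rm + 4) ^ 2) := by
    have : (Q - Rτ ^ 2) * Gc ≤ (Q - Rτ ^ 2) * 1 :=
      mul_le_mul_of_nonneg_left hGc (sub_nonneg.mpr hlow)
    linarith
  have b3 : |Rτ ^ 2 * (Gc - Gτ)| ≤ Rm ^ 2 * ν := by
    rw [abs_mul, abs_of_nonneg (by positivity : 0 ≤ Rτ ^ 2)]
    exact mul_le_mul hsq hG (abs_nonneg _) (by positivity)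
  obtain ⟨b3a, b3b⟩ := abs_le.mp b3
  constructor <;> nlinarith [mul_nonneg hν.le hRm, mul_nonneg hν.le (sq_nonneg (Rm + 4))]

lemma low_ineq (Rc Rτ Gc Gτ ν Rm : ℝ) (hRτ0 : 0 ≤ Rτ) (hRτ : Rτ ≤ Rm) (hRc0 : 0 ≤ Rc) (hRc : Rc ≤ Rm)
    (hGc0 : 0 ≤ Gc) (hGc : Gc ≤ 1) (hR : |Rc - Rτ| ≤ ν) (hG : |Gc - Gτ| ≤ ν) (hν : 0 < ν) (hν1 : ν ≤ 1) :
    |(max (Rc - ν) 0) ^ 2 * Gc / 2 - Rτ ^ 2 * Gτ / 2|
      ≤ ν * (8 * Rm + 16 + 2 * (Rm + 4) ^ 2 + Rm ^ 2 + 4 * Rm + 1) / 2 := by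
  obtain ⟨hR1, hR2⟩ := abs_le.mp hR
  have hRm : 0 ≤ Rm := hRτ0.trans hRτ
  set r := max (Rc - ν) 0 with hr
  have hr0 : 0 ≤ r := le_max_right _ _
  have hrle : r ≤ Rτ := max_le (by linarith) hRτ0
  have hrge : Rτ - 2 * ν ≤ r := by
    have : Rc - ν ≤ r := le_max_left _ _
    linarith
  have hd : 0 ≤ Rτ ^ 2 - r ^ 2 := by nlinarith
  have hd2 : Rτ ^ 2 - r ^ 2 ≤ 4 * ν * Rm := by nlinarith
  have hsq : Rτ ^ 2 ≤ Rm ^ 2 := pow_le_pow_left₀ hRτ0 hRτ 2
  have e : r ^ 2 * Gc / 2 - Rτ ^ 2 * Gτ / 2 = (Rτ ^ 2 * (Gc - Gτ) - (Rτ ^ 2 - r ^ 2) * Gc) / 2 := by ring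
  rw [e, abs_le]
  have b1 : 0 ≤ (Rτ ^ 2 - r ^ 2) * Gc := mul_nonneg hd hGc0
  have b2 : (Rτ ^ 2 - r ^ 2) * Gc ≤ 4 * ν * Rm := by
    have : (Rτ ^ 2 - r ^ 2) * Gc ≤ (Rτ ^ 2 - r ^ 2) * 1 := mul_le_mul_of_nonneg_left hGc hd
    linarith
  have b3 : |Rτ ^ 2 * (Gc - Gτ)| ≤ Rm ^ 2 * ν := by
    rw [abs_mul, abs_of_nonneg (by positivity : 0 ≤ Rτ ^ 2)]
    exact mul_le_mul hsq hG (abs_nonneg _) (by positivity)
  obtain ⟨b3a, b3b⟩ := abs_le.mp b3
  constructor <;> nlinarith [mul_nonneg hν.le hRm, mul_nonneg hν.le (sq_nonneg (Rm + 4))]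

lemma sum_integral_pieces (F : ℝ → ℝ) : ∀ (N : ℕ) (t : Fin (N + 1) → ℝ),
    (∀ i : Fin N, IntervalIntegrable F volume (t i.castSucc) (t i.succ)) →
    ∑ i : Fin N, ∫ x in t i.castSucc..t i.succ, F x = ∫ x in t 0..t (Fin.last N), F x := by
  intro N
  induction N with
  | zero => intro t _; simp
  | succ n ih =>
    intro t ht
    rw [Fin.sum_univ_castSucc]
    have h1 := ih (fun j => t j.castSucc) (fun i => ht i.castSucc)
    simp only [Fin.succ_castSucc] at h1 ⊢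
    rw [h1]
    simp only [Fin.castSucc_zero] at *
    rw [show (Fin.last n).succ = Fin.last (n + 1) from rfl]
    apply intervalIntegral.integral_add_adjacent_intervals
    · have : ∀ (n : ℕ) (t : Fin (n + 1) → ℝ) (F : ℝ → ℝ), (∀ i : Fin n, IntervalIntegrable F volume (t i.castSucc) (t i.succ)) →
          IntervalIntegrable F volume (t 0) (t (Fin.last n)) := by
        intro n
        induction n with
        | zero => intro t F _; simp
        | succ m ihm =>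
          intro t F ht
          have h2 := ihm (fun j => t j.castSucc) F (fun i => ht i.castSucc)
          exact h2.trans (ht (Fin.last m))
      exact this n (fun j => t j.castSucc) F (fun i => ht i.castSucc)
    · exact ht (Fin.last n)

lemma sum_lengths : ∀ (N : ℕ) (t : Fin (N + 1) → ℝ),
    ∑ i : Fin N, (t i.succ - t i.castSucc) = t (Fin.last N) - t 0 := by
  intro N
  induction N with
  | zero => intro t; simp
  | succ n ih =>
    intro t
    rw [Fin.sum_univ_castSucc]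
    have h1 := ih (fun j => t j.castSucc)
    simp only [Fin.succ_castSucc] at h1 ⊢
    rw [h1]
    simp only [Fin.castSucc_zero]
    rw [show (Fin.last n).succ = Fin.last (n + 1) from rfl]
    ring

lemma riemann (F : ℝ → ℝ) (N : ℕ) (t : Fin (N + 1) → ℝ)
    (hint : ∀ i : Fin N, IntervalIntegrable F volume (t i.castSucc) (t i.succ))
    (hmono : ∀ i : Fin N, t i.castSucc ≤ t i.succ) (A : Fin N → ℝ) (ε : ℝ)
    (h : ∀ i : Fin N, ∀ τ ∈ Set.Icc (t i.castSucc) (t i.succ), |A i - F τ| ≤ ε) :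
    |∑ i : Fin N, A i * (t i.succ - t i.castSucc) - ∫ τ in t 0..t (Fin.last N), F τ|
      ≤ ε * (t (Fin.last N) - t 0) := by
  rw [← sum_integral_pieces F N t hint, ← sum_lengths N t, ← Finset.sum_sub_distrib, Finset.mul_sum]
  refine (Finset.abs_sum_le_sum_abs _ _).trans (Finset.sum_le_sum ?_)
  intro i _
  have h1 : A i * (t i.succ - t i.castSucc) = ∫ _ in t i.castSucc..t i.succ, A i := by
    simp [mul_comm]
  rw [h1, ← intervalIntegral.integral_sub (by simp) (hint i)]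
  have h2 := intervalIntegral.norm_integral_le_of_norm_le_const (a := t i.castSucc) (b := t i.succ)
    (f := fun x => A i - F x) (C := ε) (by
      intro x hx
      rw [Set.uIoc_of_le (hmono i)] at hx
      exact h i x ⟨hx.1.le, hx.2⟩)
  rw [abs_of_nonneg (sub_nonneg.mpr (hmono i))] at h2
  exact h2

lemma exists_piece (τ : ℝ) : ∀ (N : ℕ) (t : Fin (N + 1) → ℝ), Monotone t → N ≠ 0 → t 0 ≤ τ → τ ≤ t (Fin.last N) →
    ∃ i : Fin N, τ ∈ Set.Icc (t i.castSucc) (t i.succ) := by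
  intro N
  induction N with
  | zero => intro _ _ h; exact absurd rfl h
  | succ n ih =>
    intro t ht _ h0 h1
    by_cases hτ : τ ≤ t (Fin.last n).castSucc
    · by_cases hn : n = 0
      · subst hn
        exact ⟨0, h0, h1⟩
      · obtain ⟨i, hi⟩ := ih (fun j => t j.castSucc) (fun x y hxy => ht (by simpa using hxy)) hn
          (by simpa using h0) hτ
        refine ⟨i.castSucc, ?_⟩
        simp only [Fin.succ_castSucc]
        exact hi
    · rw [not_le] at hτ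
      exact ⟨Fin.last n, hτ.le, h1⟩



/-- Decomposition of `w` along `a, b` on a piece. -/
lemma w_decomp (a b e : E3)
    (φ₁ φ₂ : E3 →L[ℝ] ℝ) (h11 : φ₁ a = 1) (h12 : φ₁ b = 0) (h21 : φ₂ a = 0) (h22 : φ₂ b = 1)
    (hspan : ∀ y : E3, inner ℝ y e = 0 → y = φ₁ y • a + φ₂ y • b)
    (α β u v C : ℝ) (hu : α ≤ u) (hv : v ≤ β) (hCu : u ≤ C) (hCv : C ≤ v)
    (w : ℝ → E3) (hw : ∀ t ∈ Set.Icc α β, inner ℝ (w t) e = 0)
    (lam : ℝ → ℝ) (hw' : ∀ t ∈ Set.Icc α β, HasDerivWithinAt w (lam t • (a + t • b)) (Set.Icc α β) t)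
    (Λ : ℝ) (hΛ : ∀ t ∈ Set.Icc α β, |lam t| ≤ Λ) (τ : ℝ) (hτ : τ ∈ Set.Icc u v) :
    ∃ I J : ℝ, w τ = w C + I • a + J • b ∧ |I| ≤ Λ * (v - u) ∧ |J - τ * I| ≤ Λ * (v - u) * (v - u) := by
  have hsub : Set.Icc u v ⊆ Set.Icc α β := Set.Icc_subset_Icc hu hv
  have hΛ0 : 0 ≤ Λ := (abs_nonneg _).trans (hΛ C (hsub ⟨hCu, hCv⟩))
  have hC : C ∈ Set.Icc u v := ⟨hCu, hCv⟩
  have hd₁ : ∀ x ∈ Set.Icc u v, HasDerivWithinAt (fun x => φ₁ (w x)) (lam x) (Set.Icc u v) x := by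
    intro x hx
    have h0 := (φ₁.hasFDerivAt (x := w x)).comp_hasDerivWithinAt x (hw' x (hsub hx))
    have h1 := h0.mono hsub
    have e : φ₁ (lam x • (a + x • b)) = lam x := by
      simp only [map_smul, map_add, h11, h12, smul_eq_mul, mul_zero, add_zero, mul_one]
    rw [e] at h1
    exact h1
  have hd₂ : ∀ x ∈ Set.Icc u v, HasDerivWithinAt (fun x => φ₂ (w x)) (lam x * x) (Set.Icc u v) x := by
    intro x hx
    have h0 := (φ₂.hasFDerivAt (x := w x)).comp_hasDerivWithinAt x (hw' x (hsub hx))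
    have h1 := h0.mono hsub
    have e : φ₂ (lam x • (a + x • b)) = lam x * x := by
      simp only [map_smul, map_add, h21, h22, smul_eq_mul, mul_one, zero_add]
    rw [e] at h1
    exact h1
  have hτ' := hsub hτ
  have hC' := hsub hC
  have hτC : |τ - C| ≤ v - u := by
    rw [abs_le]; constructor <;> linarith [hτ.1, hτ.2]
  refine ⟨φ₁ (w τ) - φ₁ (w C), φ₂ (w τ) - φ₂ (w C), ?_, ?_, ?_⟩
  · have e1 := hspan (w τ) (hw τ hτ')
    have e2 := hspan (w C) (hw C hC')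
    rw [e2, e1]
    simp only [map_add, map_smul, h11, h12, h21, h22, smul_eq_mul, mul_one, mul_zero, add_zero, zero_add]
    have := hspan (w τ) (hw τ hτ')
    module
  · have := (convex_Icc u v).norm_image_sub_le_of_norm_hasDerivWithin_le (f := fun x => φ₁ (w x))
      (f' := lam) (C := Λ) hd₁ (fun x hx => by simpa using hΛ x (hsub hx)) hC hτ
    simp only [Real.norm_eq_abs] at this
    exact this.trans (mul_le_mul_of_nonneg_left hτC hΛ0)
  · -- the function σ ↦ φ₂ (w σ) - τ * φ₁ (w σ)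
    have hd : ∀ x ∈ Set.Icc u v, HasDerivWithinAt (fun x => φ₂ (w x) - τ * φ₁ (w x))
        (lam x * x - τ * lam x) (Set.Icc u v) x := by
      intro x hx
      exact (hd₂ x hx).sub ((hd₁ x hx).const_mul τ)
    have hb : ∀ x ∈ Set.Icc u v, ‖lam x * x - τ * lam x‖ ≤ Λ * (v - u) := by
      intro x hx
      have e : lam x * x - τ * lam x = lam x * (x - τ) := by ring
      rw [e, norm_mul, Real.norm_eq_abs, Real.norm_eq_abs]
      apply mul_le_mul (hΛ x (hsub hx)) _ (abs_nonneg _) hΛ0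
      rw [abs_le]; constructor <;> linarith [hτ.1, hτ.2, hx.1, hx.2]
    have := (convex_Icc u v).norm_image_sub_le_of_norm_hasDerivWithin_le hd hb hC hτ
    simp only [Real.norm_eq_abs] at this
    have e : φ₂ (w τ) - φ₂ (w C) - τ * (φ₁ (w τ) - φ₁ (w C))
        = φ₂ (w τ) - τ * φ₁ (w τ) - (φ₂ (w C) - τ * φ₁ (w C)) := by ring
    rw [e]
    exact this.trans (mul_le_mul_of_nonneg_left hτC (mul_nonneg hΛ0 (by linarith [hτ.1, hτ.2])))

/-- A planar point in the cone lies in the triangle. -/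
lemma point_in_triangle (a b p₀ : E3) (ν D u₁ u₂ C X Y : ℝ) (hD : 0 < D) (hu : u₁ < u₂)
    (h1 : 0 ≤ (Y + ν * C) - u₁ * (X + ν)) (h2 : 0 ≤ u₂ * (X + ν) - (Y + ν * C)) (h3 : X + ν ≤ D) :
    p₀ + X • a + Y • b ∈ convexHull ℝ ({p₀ - ν • (a + C • b),
      (p₀ - ν • (a + C • b)) + D • (a + u₁ • b), (p₀ - ν • (a + C • b)) + D • (a + u₂ • b)} : Set E3) := by
  have hd : 0 < D * (u₂ - u₁) := mul_pos hD (by linarith)
  set l₁ := (u₂ * (X + ν) - (Y + ν * C)) / (D * (u₂ - u₁)) with hl₁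
  set l₂ := ((Y + ν * C) - u₁ * (X + ν)) / (D * (u₂ - u₁)) with hl₂
  have hl₁0 : 0 ≤ l₁ := div_nonneg h2 hd.le
  have hl₂0 : 0 ≤ l₂ := div_nonneg h1 hd.le
  have hne : u₂ - u₁ ≠ 0 := sub_ne_zero.mpr hu.ne'
  have hDne : D ≠ 0 := hD.ne'
  have e1 : D * (l₁ + l₂) = X + ν := by
    rw [hl₁, hl₂]; field_simp; ring
  have e2 : D * (l₁ * u₁ + l₂ * u₂) = Y + ν * C := by
    rw [hl₁, hl₂]; field_simp; ring
  have hsum : l₁ + l₂ ≤ 1 := by
    have : D * (l₁ + l₂) ≤ D * 1 := by rw [e1]; linarith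
    exact le_of_mul_le_mul_left this hD
  rw [convexHull_tri]
  refine ⟨l₁ • (D • (a + u₁ • b)) + l₂ • (D • (a + u₂ • b)), ⟨!₂[l₁, l₂], ⟨by simpa using hl₁0, by simpa using hl₂0, by simpa using hsum⟩, ?_⟩, ?_⟩
  · simp [triMap_apply]
  · have hX : X = D * (l₁ + l₂) - ν := by linarith
    have hY : Y = D * (l₁ * u₁ + l₂ * u₂) - ν * C := by linarith
    simp only []
    rw [hX, hY]
    module



lemma W_ne (e wC : E3) (he : ‖e‖ = 1) (hw : inner ℝ wC e = 0) : e + wC ≠ 0 := by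
  intro h
  have h1 : inner ℝ (e + wC) e = 0 := by rw [h]; simp
  rw [inner_add_left, hw, add_zero, real_inner_self_eq_norm_sq, he] at h1
  norm_num at h1

lemma area_proj_tri (e a b wC : E3) (he : ‖e‖ = 1) (ha : inner ℝ a e = 0) (hb : inner ℝ b e = 0)
    (α' β' : ℝ) (hwC : wC = α' • a + β' • b) (P : E3) (x₁ y₁ x₂ y₂ : ℝ) :
    μHE[2] (convexHull ℝ ({proj (e + wC) P, proj (e + wC) (P + (x₁ • a + y₁ • b)),
       proj (e + wC) (P + (x₂ • a + y₂ • b))} : Set E3))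
     = ENNReal.ofReal (|x₁ * y₂ - x₂ * y₁| * Real.sqrt (gram a b) * (1 / Real.sqrt (1 + ‖wC‖ ^ 2)) / 2) := by
  subst hwC
  have m : ∀ y, proj (e + (α' • a + β' • b)) (P + y) = proj (e + (α' • a + β' • b)) P + proj (e + (α' • a + β' • b)) y := fun y => map_add _ _ _
  rw [m, m, area_tri, gram_proj e a b he ha hb]
  congr 1
  rw [Real.sqrt_div' _ (by positivity), Real.sqrt_mul (sq_nonneg _), Real.sqrt_sq_eq_abs]
  ring

lemma affInd_of_gram (p u v : E3) (h : 0 < gram u v) : AffineIndependent ℝ ![p, p + u, p + v] := by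
  rw [affineIndependent_iff_not_collinear_set]
  intro hc
  rw [collinear_iff_of_mem (p₀ := p) (by simp)] at hc
  obtain ⟨d, hd⟩ := hc
  obtain ⟨r₁, h1⟩ := hd (p + u) (by simp)
  obtain ⟨r₂, h2⟩ := hd (p + v) (by simp)
  have hu : u = r₁ • d := by
    have := h1
    rw [vadd_eq_add, add_comm] at this
    exact add_right_cancel this
  have hv : v = r₂ • d := by
    have := h2
    rw [vadd_eq_add, add_comm] at this
    exact add_right_cancel this
  have : gram u v = 0 := by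
    unfold gram
    rw [hu, hv, real_inner_smul_left, real_inner_smul_right, real_inner_self_eq_norm_sq,
      norm_smul, norm_smul, Real.norm_eq_abs, Real.norm_eq_abs, mul_pow, mul_pow, sq_abs, sq_abs]
    ring
  linarith

lemma affInd_proj (e a b wC : E3) (he : ‖e‖ = 1) (ha : inner ℝ a e = 0) (hb : inner ℝ b e = 0)
    (α' β' : ℝ) (hwC : wC = α' • a + β' • b) (hΓ : 0 < gram a b) (P : E3) (x₁ y₁ x₂ y₂ : ℝ)
    (hne : x₁ * y₂ - x₂ * y₁ ≠ 0) :
    AffineIndependent ℝ ![proj (e + wC) P, proj (e + wC) (P + (x₁ • a + y₁ • b)),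
       proj (e + wC) (P + (x₂ • a + y₂ • b))] := by
  subst hwC
  have m : ∀ y, proj (e + (α' • a + β' • b)) (P + y) = proj (e + (α' • a + β' • b)) P + proj (e + (α' • a + β' • b)) y := fun y => map_add _ _ _
  rw [m, m]
  apply affInd_of_gram
  rw [gram_proj e a b he ha hb]
  have h1 : 0 < 1 + ‖α' • a + β' • b‖ ^ 2 := by positivity
  have h2 : 0 < (x₁ * y₂ - x₂ * y₁) ^ 2 := by positivity
  exact div_pos (mul_pos h2 hΓ) h1

lemma proj_image_conv (W A B C : E3) :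
    (proj W) '' convexHull ℝ ({A, B, C} : Set E3) = convexHull ℝ ({proj W A, proj W B, proj W C} : Set E3) := by
  rw [LinearMap.image_convexHull]
  simp only [Set.image_insert_eq, Set.image_singleton]

lemma piece_lower (p₀ a b : E3) (u v : ℝ) (huv : u < v) (r : ℝ) (S : Set E3)
    (h : ∀ τ ∈ Set.Icc u v, ∀ ρ ∈ Set.Icc 0 r, p₀ + ρ • (a + τ • b) ∈ S) (hr : 0 ≤ r) :
    convexHull ℝ ({p₀, p₀ + r • (a + u • b), p₀ + r • (a + v • b)} : Set E3) ⊆ S := by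
  rw [convexHull_tri]
  rintro _ ⟨_, ⟨x, ⟨hx0, hx1, hx2⟩, rfl⟩, rfl⟩
  simp only [triMap_apply]
  by_cases hm : x 0 + x 1 = 0
  · have h0 : x 0 = 0 := by linarith
    have h1 : x 1 = 0 := by linarith
    have := h u ⟨le_rfl, huv.le⟩ 0 ⟨le_rfl, hr⟩
    simpa [h0, h1] using this
  · have hm' : 0 < x 0 + x 1 := lt_of_le_of_ne (add_nonneg hx0 hx1) (Ne.symm hm)
    set m := x 0 + x 1 with hmdef
    have hτ1 : u ≤ (x 0 * u + x 1 * v) / m := by
      rw [le_div_iff₀ hm', hmdef]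
      nlinarith [mul_nonneg hx1 (sub_nonneg.mpr huv.le)]
    have hτ2 : (x 0 * u + x 1 * v) / m ≤ v := by
      rw [div_le_iff₀ hm', hmdef]
      nlinarith [mul_nonneg hx0 (sub_nonneg.mpr huv.le)]
    have := h ((x 0 * u + x 1 * v) / m) ⟨hτ1, hτ2⟩ (r * m) ⟨by positivity, by
      have : m ≤ 1 := hx2
      nlinarith⟩
    convert this using 1
    have e1 : r * m * ((x 0 * u + x 1 * v) / m) = r * (x 0 * u + x 1 * v) := by
      field_simp
    have e2 : (r * m) • (a + ((x 0 * u + x 1 * v) / m) • b)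
        = (r * m) • a + (r * m * ((x 0 * u + x 1 * v) / m)) • b := by rw [smul_add, smul_smul]
    rw [e2, e1, hmdef]
    module



lemma piece (e a b p₀ : E3) (he : ‖e‖ = 1) (ha : inner ℝ a e = 0) (hb : inner ℝ b e = 0)
    (hΓ : 0 < gram a b)
    (φ₁ φ₂ : E3 →L[ℝ] ℝ) (h11 : φ₁ a = 1) (h12 : φ₁ b = 0) (h21 : φ₂ a = 0) (h22 : φ₂ b = 1)
    (hspan : ∀ y : E3, inner ℝ y e = 0 → y = φ₁ y • a + φ₂ y • b)
    (L : ℝ) (hL : 0 < L) (α β : ℝ) (R : ℝ → ℝ) (hR0 : ∀ t ∈ Set.Icc α β, 0 ≤ R t)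
    (w : ℝ → E3) (hw : ∀ t ∈ Set.Icc α β, inner ℝ (w t) e = 0)
    (lam : ℝ → ℝ) (hw' : ∀ t ∈ Set.Icc α β, HasDerivWithinAt w (lam t • (a + t • b)) (Set.Icc α β) t)
    (Λ : ℝ) (hΛ : ∀ t ∈ Set.Icc α β, |lam t| ≤ Λ)
    (ν : ℝ) (hν : 0 < ν) (hν1 : ν ≤ 1)
    (u v C : ℝ) (hu : α ≤ u) (hv : v ≤ β) (huv : u < v) (hCu : u ≤ C) (hCv : C ≤ v)
    (hω : 3 * (L * (Λ * (v - u))) ≤ ν ^ 2)
    (hRup : ∀ τ ∈ Set.Icc u v, R τ ≤ R C + ν) (hRlow : ∀ τ ∈ Set.Icc u v, R C - ν ≤ R τ) :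
    ∃ p q r : E3, inner ℝ p (e + w C) = 0 ∧ inner ℝ q (e + w C) = 0 ∧ inner ℝ r (e + w C) = 0 ∧
      AffineIndependent ℝ ![p, q, r] ∧
      (∀ τ ∈ Set.Icc u v, ∀ ρ ∈ Set.Icc 0 (R τ), ∀ s : ℝ, |s| ≤ L →
         ∃ y ∈ convexHull ℝ ({p, q, r} : Set E3), ∃ σ : ℝ,
           p₀ + ρ • (a + τ • b) + s • (e + w τ) = y + σ • (e + w C)) ∧
      (μHE[2] (convexHull ℝ ({p, q, r} : Set E3))).toReal
        = Real.sqrt (gram a b) * (((R C + 3 * ν) ^ 2 * (1 + 2 * ν) * (1 / Real.sqrt (1 + ‖w C‖ ^ 2)) / 2) * (v - u)) ∧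
      Real.sqrt (gram a b) * (((max (R C - ν) 0) ^ 2 * (1 / Real.sqrt (1 + ‖w C‖ ^ 2)) / 2) * (v - u))
        ≤ (μHE[2] ((proj (e + w C)) '' {x : E3 | ∃ τ ∈ Set.Icc u v, ∃ ρ ∈ Set.Icc 0 (R τ), ∃ s : ℝ, |s| ≤ L ∧
            x = p₀ + ρ • (a + τ • b) + s • (e + w τ)})).toReal ∧
      (μHE[2] ((proj (e + w C)) '' {x : E3 | ∃ τ ∈ Set.Icc u v, ∃ ρ ∈ Set.Icc 0 (R τ), ∃ s : ℝ, |s| ≤ L ∧
            x = p₀ + ρ • (a + τ • b) + s • (e + w τ)})).toReal
        ≤ Real.sqrt (gram a b) * (((R C + 3 * ν) ^ 2 * (1 + 2 * ν) * (1 / Real.sqrt (1 + ‖w C‖ ^ 2)) / 2) * (v - u)) := by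
  have hC : C ∈ Set.Icc α β := ⟨hu.trans hCu, hCv.trans hv⟩
  have hsub : Set.Icc u v ⊆ Set.Icc α β := Set.Icc_subset_Icc hu hv
  have hwC := hspan (w C) (hw C hC)
  have hWne : e + w C ≠ 0 := W_ne e (w C) he (hw C hC)
  have hRC := hR0 C hC
  have hDpos : 0 < R C + 3 * ν := by positivity
  have hh : 0 < v - u := sub_pos.mpr huv
  have hu12 : u - ν * (v - u) < v + ν * (v - u) := by nlinarith [mul_pos hν hh]
  have hΛ0 : 0 ≤ Λ := (abs_nonneg _).trans (hΛ C hC)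
  -- notation
  obtain ⟨W, hWdef⟩ : ∃ W, W = e + w C := ⟨_, rfl⟩
  rw [← hWdef] at hWne ⊢
  obtain ⟨D, hD⟩ : ∃ D, D = R C + 3 * ν := ⟨_, rfl⟩
  rw [← hD] at hDpos ⊢
  obtain ⟨u₁, hu₁⟩ : ∃ u₁, u₁ = u - ν * (v - u) := ⟨_, rfl⟩
  obtain ⟨u₂, hu₂⟩ : ∃ u₂, u₂ = v + ν * (v - u) := ⟨_, rfl⟩
  rw [← hu₁, ← hu₂] at hu12
  obtain ⟨P, hP⟩ : ∃ P, P = p₀ - ν • (a + C • b) := ⟨_, rfl⟩
  have hv₁ : D • (a + u₁ • b) = D • a + (D * u₁) • b := by module
  have hv₂ : D • (a + u₂ • b) = D • a + (D * u₂) • b := by module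
  have key : ∀ τ ∈ Set.Icc u v, ∀ ρ ∈ Set.Icc 0 (R τ), ∀ s : ℝ, |s| ≤ L →
      ∃ y₀ ∈ convexHull ℝ ({P, P + D • (a + u₁ • b), P + D • (a + u₂ • b)} : Set E3),
        p₀ + ρ • (a + τ • b) + s • (e + w τ) = y₀ + s • W := by
    intro τ hτ ρ hρ s hs
    obtain ⟨I, J, hwτ, hI, hJ⟩ := w_decomp a b e φ₁ φ₂ h11 h12 h21 h22 hspan α β u v C hu hv hCu hCv w hw lam
      hw' Λ hΛ τ hτ
    have h1 : |s * I| ≤ L * (Λ * (v - u)) := by
      rw [abs_mul]; exact mul_le_mul hs hI (abs_nonneg _) hL.le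
    have h2 : |s * (J - τ * I)| ≤ L * (Λ * (v - u)) * (v - u) := by
      rw [abs_mul, mul_assoc]; exact mul_le_mul hs hJ (abs_nonneg _) hL.le
    obtain ⟨t1, t2, t3⟩ := tri_ineq ν (L * (Λ * (v - u))) u v C τ s I J ρ (R τ) (R C) hν hν1 huv hτ
      ⟨hCu, hCv⟩ hρ.1 hρ.2 h1 h2 hω (hRup τ hτ)
    rw [← hu₁] at t1
    rw [← hu₂] at t2
    rw [← hD] at t3
    refine ⟨p₀ + (ρ + s * I) • a + (ρ * τ + s * J) • b, ?_, ?_⟩
    · rw [hP]
      exact point_in_triangle a b p₀ ν D u₁ u₂ C _ _ hDpos hu12 t1 t2 t3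
    · rw [hwτ, hWdef]; module
  have hconv := proj_image_conv W P (P + D • (a + u₁ • b)) (P + D • (a + u₂ • b))
  have hdet : D * (D * u₂) - D * (D * u₁) = D ^ 2 * ((1 + 2 * ν) * (v - u)) := by
    rw [hu₁, hu₂]; ring
  have hdetpos : 0 < D ^ 2 * ((1 + 2 * ν) * (v - u)) := by positivity
  have harea : μHE[2] (convexHull ℝ ({proj W P, proj W (P + D • (a + u₁ • b)), proj W (P + D • (a + u₂ • b))} : Set E3))
      = ENNReal.ofReal (Real.sqrt (gram a b) * ((D ^ 2 * (1 + 2 * ν) * (1 / Real.sqrt (1 + ‖w C‖ ^ 2)) / 2) * (v - u))) := by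
    rw [hv₁, hv₂, hWdef, area_proj_tri e a b (w C) he ha hb _ _ hwC P D (D * u₁) D (D * u₂), hdet,
      abs_of_pos hdetpos]
    congr 1
    ring
  have hS : ∀ x ∈ {x : E3 | ∃ τ ∈ Set.Icc u v, ∃ ρ ∈ Set.Icc 0 (R τ), ∃ s : ℝ, |s| ≤ L ∧
            x = p₀ + ρ • (a + τ • b) + s • (e + w τ)},
      proj W x ∈ convexHull ℝ ({proj W P, proj W (P + D • (a + u₁ • b)), proj W (P + D • (a + u₂ • b))} : Set E3) := by
    rintro x ⟨τ, hτ, ρ, hρ, s, hs, rfl⟩
    obtain ⟨y₀, hy₀, heq⟩ := key τ hτ ρ hρ s hs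
    have hp : proj W (y₀ + s • W) = proj W y₀ := by
      have h1 : proj W (y₀ + s • W) = proj W y₀ + proj W (s • W) := map_add _ _ _
      have h2 : proj W (s • W) = s • proj W W := map_smul _ _ _
      rw [h1, h2, proj_self _ hWne, smul_zero, add_zero]
    rw [heq, hp, ← hconv]
    exact Set.mem_image_of_mem _ hy₀
  have hnonneg : 0 ≤ Real.sqrt (gram a b) * ((D ^ 2 * (1 + 2 * ν) * (1 / Real.sqrt (1 + ‖w C‖ ^ 2)) / 2) * (v - u)) := by
    positivity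
  have hUp : μHE[2] ((proj W) '' {x : E3 | ∃ τ ∈ Set.Icc u v, ∃ ρ ∈ Set.Icc 0 (R τ), ∃ s : ℝ, |s| ≤ L ∧
            x = p₀ + ρ • (a + τ • b) + s • (e + w τ)}) ≤
      ENNReal.ofReal (Real.sqrt (gram a b) * ((D ^ 2 * (1 + 2 * ν) * (1 / Real.sqrt (1 + ‖w C‖ ^ 2)) / 2) * (v - u))) := by
    rw [← harea]
    apply measure_mono
    rintro _ ⟨x, hx, rfl⟩
    exact hS x hx
  refine ⟨proj W P, proj W (P + D • (a + u₁ • b)), proj W (P + D • (a + u₂ • b)),
    inner_proj_self _ _ hWne, inner_proj_self _ _ hWne, inner_proj_self _ _ hWne, ?_, ?_, ?_, ?_, ?_⟩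
  · rw [hv₁, hv₂, hWdef]
    apply affInd_proj e a b (w C) he ha hb _ _ hwC hΓ
    rw [hdet]
    exact hdetpos.ne'
  · intro τ hτ ρ hρ s hs
    obtain ⟨y₀, hy₀, heq⟩ := key τ hτ ρ hρ s hs
    refine ⟨proj W y₀, ?_, s + inner ℝ y₀ W / ‖W‖ ^ 2, ?_⟩
    · rw [← hconv]
      exact Set.mem_image_of_mem _ hy₀
    · rw [heq, proj_apply]
      module
  · rw [harea, ENNReal.toReal_ofReal hnonneg]
  · -- lower bound
    have hr0 : 0 ≤ max (R C - ν) 0 := le_max_right _ _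
    have hincl := piece_lower p₀ a b u v huv (max (R C - ν) 0)
      {x : E3 | ∃ τ ∈ Set.Icc u v, ∃ ρ ∈ Set.Icc 0 (R τ), ∃ s : ℝ, |s| ≤ L ∧
            x = p₀ + ρ • (a + τ • b) + s • (e + w τ)} (by
        intro τ hτ ρ hρ
        refine ⟨τ, hτ, ρ, ⟨hρ.1, hρ.2.trans (max_le (hRlow τ hτ) (hR0 τ (hsub hτ)))⟩, 0, by simpa using hL.le, ?_⟩
        simp) hr0
    obtain ⟨r', hr'⟩ : ∃ r', r' = max (R C - ν) 0 := ⟨_, rfl⟩
    rw [← hr'] at hincl hr0 ⊢
    have hv₁' : r' • (a + u • b) = r' • a + (r' * u) • b := by module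
    have hv₂' : r' • (a + v • b) = r' • a + (r' * v) • b := by module
    have harea' : μHE[2] (convexHull ℝ ({proj W p₀, proj W (p₀ + r' • (a + u • b)), proj W (p₀ + r' • (a + v • b))} : Set E3))
        = ENNReal.ofReal (Real.sqrt (gram a b) * ((r' ^ 2 * (1 / Real.sqrt (1 + ‖w C‖ ^ 2)) / 2) * (v - u))) := by
      have hd : r' * (r' * v) - r' * (r' * u) = r' ^ 2 * (v - u) := by ring
      rw [hv₁', hv₂', hWdef, area_proj_tri e a b (w C) he ha hb _ _ hwC p₀ r' (r' * u) r' (r' * v), hd,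
        abs_of_nonneg (by positivity)]
      congr 1
      ring
    have hnn : 0 ≤ Real.sqrt (gram a b) * ((r' ^ 2 * (1 / Real.sqrt (1 + ‖w C‖ ^ 2)) / 2) * (v - u)) := by
      positivity
    have hconv' := proj_image_conv W p₀ (p₀ + r' • (a + u • b)) (p₀ + r' • (a + v • b))
    rw [← ENNReal.toReal_ofReal hnn, ← harea']
    apply ENNReal.toReal_mono (ne_top_of_le_ne_top ENNReal.ofReal_ne_top hUp)
    apply measure_mono
    rw [← hconv']
    exact Set.image_mono hincl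
  · rw [← ENNReal.toReal_ofReal hnonneg]
    exact ENNReal.toReal_mono ENNReal.ofReal_ne_top hUp


/-- Unit e; a, b, p₀ ∈ e^⊥, a, b independent; α < β; L > 0; R ≥ 0, λ both continuous on [α, β]; w(t) ∈ e^⊥, w′ = λ(t)(a + tb). S = {p₀ + ρ(a + t b) + s(e + w t) : α ≤ t ≤ β, 0 ≤ ρ ≤ R t, ‖s‖ ≤ L}; A = κ ∫_α^β R²/(2√(1 + ‖w‖²)), κ = area spanned by a, b. For η > 0 a δ > 0 makes each partition t₀ < … < t_N of [α, β] of mesh ≤ δ, tags cᵢ, admit N cylinders (axes e + w(cᵢ), nondegenerate triangle bases) covering S, total area within η of A; same for S's pieces tᵢ ≤ t ≤ tᵢ₊₁ projected along these axes. -/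
theorem result
    (e a b p₀ : EuclideanSpace ℝ (Fin 3)) (he : ‖e‖ = 1)
    (ha : inner ℝ a e = 0) (hb : inner ℝ b e = 0) (hp₀ : inner ℝ p₀ e = 0)
    (hab : LinearIndependent ℝ ![a, b]) (L : ℝ) (hL : 0 < L) (α β : ℝ) (hαβ : α < β)
    (R : ℝ → ℝ) (hR : ContinuousOn R (Set.Icc α β)) (hR0 : ∀ t ∈ Set.Icc α β, 0 ≤ R t)
    (w : ℝ → EuclideanSpace ℝ (Fin 3)) (hw : ∀ t ∈ Set.Icc α β, inner ℝ (w t) e = 0)
    (lam : ℝ → ℝ) (hlam : ContinuousOn lam (Set.Icc α β))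
    (hw' : ∀ t ∈ Set.Icc α β, HasDerivWithinAt w (lam t • (a + t • b)) (Set.Icc α β) t)
    (η : ℝ) (hη : 0 < η) :
    ∃ δ : ℝ, 0 < δ ∧ ∀ (N : ℕ) (t : Fin (N + 1) → ℝ) (c : Fin N → ℝ),
      StrictMono t → t 0 = α → t (Fin.last N) = β →
      (∀ i : Fin N, t i.succ - t i.castSucc ≤ δ) →
      (∀ i : Fin N, t i.castSucc ≤ c i ∧ c i ≤ t i.succ) →
      (∃ (p q r : Fin N → EuclideanSpace ℝ (Fin 3)),
        (∀ i, inner ℝ (p i) (e + w (c i)) = 0 ∧ inner ℝ (q i) (e + w (c i)) = 0 ∧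
          inner ℝ (r i) (e + w (c i)) = 0) ∧
        (∀ i, AffineIndependent ℝ ![p i, q i, r i]) ∧
        {x : EuclideanSpace ℝ (Fin 3) | ∃ τ ∈ Set.Icc α β, ∃ ρ ∈ Set.Icc 0 (R τ), ∃ s : ℝ, abs s ≤ L ∧
            x = p₀ + ρ • (a + τ • b) + s • (e + w τ)} ⊆
          ⋃ i, {x : EuclideanSpace ℝ (Fin 3) | ∃ y ∈ convexHull ℝ {p i, q i, r i}, ∃ σ : ℝ,
            x = y + σ • (e + w (c i))} ∧
        abs ((∑ i, (μHE[2] (convexHull ℝ ({p i, q i, r i} : Set (EuclideanSpace ℝ (Fin 3))))).toReal) -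
            Real.sqrt (‖a‖ ^ 2 * ‖b‖ ^ 2 - inner ℝ a b ^ 2) *
              ∫ τ in α..β, R τ ^ 2 / (2 * Real.sqrt (1 + ‖w τ‖ ^ 2))) ≤ η) ∧
      abs ((∑ i : Fin N, (μHE[2] ((fun y => y - (inner ℝ y (e + w (c i)) / ‖e + w (c i)‖ ^ 2) • (e + w (c i))) ''
            {x : EuclideanSpace ℝ (Fin 3) | ∃ τ ∈ Set.Icc (t i.castSucc) (t i.succ), ∃ ρ ∈ Set.Icc 0 (R τ),
              ∃ s : ℝ, abs s ≤ L ∧ x = p₀ + ρ • (a + τ • b) + s • (e + w τ)})).toReal) -
          Real.sqrt (‖a‖ ^ 2 * ‖b‖ ^ 2 - inner ℝ a b ^ 2) *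
            ∫ τ in α..β, R τ ^ 2 / (2 * Real.sqrt (1 + ‖w τ‖ ^ 2))) ≤ η := by
  classical
  -- compactness and continuity
  obtain ⟨Λ, hΛ'⟩ := isCompact_Icc.exists_bound_of_continuousOn hlam
  obtain ⟨Rm, hRm'⟩ := isCompact_Icc.exists_bound_of_continuousOn hR
  have hΛ : ∀ t ∈ Set.Icc α β, |lam t| ≤ Λ := fun t ht => by simpa using hΛ' t ht
  have hRm : ∀ t ∈ Set.Icc α β, R t ≤ Rm := fun t ht =>
    (le_abs_self _).trans (by simpa using hRm' t ht)
  have hαmem : α ∈ Set.Icc α β := ⟨le_rfl, hαβ.le⟩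
  have hΛ0 : 0 ≤ Λ := (abs_nonneg _).trans (hΛ α hαmem)
  have hRm0 : 0 ≤ Rm := (hR0 α hαmem).trans (hRm α hαmem)
  have hwc : ContinuousOn w (Set.Icc α β) := fun t ht => (hw' t ht).continuousWithinAt
  have hnpos : ∀ τ, 0 < 1 + ‖w τ‖ ^ 2 := fun τ => by positivity
  have hsqrtc : ContinuousOn (fun τ => Real.sqrt (1 + ‖w τ‖ ^ 2)) (Set.Icc α β) :=
    (continuousOn_const.add (hwc.norm.pow 2)).sqrt
  have hsqrtpos : ∀ τ, 0 < Real.sqrt (1 + ‖w τ‖ ^ 2) := fun τ => Real.sqrt_pos.mpr (hnpos τ)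
  have hGc : ContinuousOn (fun τ => 1 / Real.sqrt (1 + ‖w τ‖ ^ 2)) (Set.Icc α β) :=
    continuousOn_const.div hsqrtc (fun τ _ => (hsqrtpos τ).ne')
  have hFc : ContinuousOn (fun τ => R τ ^ 2 / (2 * Real.sqrt (1 + ‖w τ‖ ^ 2))) (Set.Icc α β) :=
    (hR.pow 2).div (continuousOn_const.mul hsqrtc) (fun τ _ => by have := hsqrtpos τ; positivity)
  have hG0 : ∀ τ, 0 ≤ 1 / Real.sqrt (1 + ‖w τ‖ ^ 2) := fun τ => by have := hsqrtpos τ; positivity
  have hG1 : ∀ τ, 1 / Real.sqrt (1 + ‖w τ‖ ^ 2) ≤ 1 := by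
    intro τ
    rw [div_le_one (hsqrtpos τ)]
    apply Real.one_le_sqrt.mpr
    have : 0 ≤ ‖w τ‖ ^ 2 := by positivity
    linarith
  obtain ⟨φ₁, φ₂, h11, h12, h21, h22, hspan⟩ := exists_dual e a b he ha hb hab
  have hΓ := gram_pos a b hab
  have hκdef : Real.sqrt (‖a‖ ^ 2 * ‖b‖ ^ 2 - inner ℝ a b ^ 2) = Real.sqrt (gram a b) := rfl
  rw [hκdef] -- may not rewrite under binders
  obtain ⟨κ, hκ⟩ : ∃ κ, κ = Real.sqrt (gram a b) := ⟨_, rfl⟩
  have hκ0 : 0 ≤ κ := by rw [hκ]; exact Real.sqrt_nonneg _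
  obtain ⟨Cst, hCst⟩ : ∃ Cst, Cst = 8 * Rm + 16 + 2 * (Rm + 4) ^ 2 + Rm ^ 2 + 4 * Rm + 1 := ⟨_, rfl⟩
  have hCst0 : 0 ≤ Cst := by rw [hCst]; positivity
  have hlen : 0 < β - α := sub_pos.mpr hαβ
  obtain ⟨ν, hνdef⟩ : ∃ ν, ν = min 1 (η / (κ * (β - α) * Cst + 1)) := ⟨_, rfl⟩
  have hden : 0 < κ * (β - α) * Cst + 1 := by positivity
  have hν : 0 < ν := by
    rw [hνdef]; exact lt_min one_pos (div_pos hη hden)
  have hν1 : ν ≤ 1 := by rw [hνdef]; exact min_le_left _ _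
  have hν2 : ν ≤ η / (κ * (β - α) * Cst + 1) := by rw [hνdef]; exact min_le_right _ _
  have hfinal : κ * (ν * Cst / 2 * (β - α)) ≤ η := by
    have h1 : ν * (κ * (β - α) * Cst + 1) ≤ η := (le_div_iff₀ hden).mp hν2
    have h2 : κ * (ν * Cst / 2 * (β - α)) = ν * (κ * (β - α) * Cst) / 2 := by ring
    have h3 : 0 ≤ ν * (κ * (β - α) * Cst) := by positivity
    rw [h2]
    nlinarith
  -- uniform continuity
  have huR := isCompact_Icc.uniformContinuousOn_of_continuous hR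
  have huG := isCompact_Icc.uniformContinuousOn_of_continuous hGc
  rw [Metric.uniformContinuousOn_iff] at huR huG
  obtain ⟨δ₁, hδ₁, hR1⟩ := huR ν hν
  obtain ⟨δ₂, hδ₂, hG2⟩ := huG ν hν
  have hden2 : 0 < 3 * (L * Λ) + 1 := by positivity
  refine ⟨min (min δ₁ δ₂ / 2) (ν ^ 2 / (3 * (L * Λ) + 1)), ?_, ?_⟩
  · exact lt_min (half_pos (lt_min hδ₁ hδ₂)) (by positivity)
  intro N t c hmono h0 hlast hmesh htags
  have hu : ∀ i : Fin N, α ≤ t i.castSucc := fun i => by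
    rw [← h0]; exact hmono.monotone (Fin.zero_le _)
  have hv : ∀ i : Fin N, t i.succ ≤ β := fun i => by
    rw [← hlast]; exact hmono.monotone (Fin.le_last _)
  have huv : ∀ i : Fin N, t i.castSucc < t i.succ := fun i => hmono Fin.castSucc_lt_succ
  have hsubi : ∀ i : Fin N, Set.Icc (t i.castSucc) (t i.succ) ⊆ Set.Icc α β := fun i =>
    Set.Icc_subset_Icc (hu i) (hv i)
  have hmesh1 : ∀ i : Fin N, t i.succ - t i.castSucc < δ₁ := fun i => by
    have h1 := (hmesh i).trans (min_le_left _ _)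
    have h2 : min δ₁ δ₂ ≤ δ₁ := min_le_left _ _
    have h3 : 0 < min δ₁ δ₂ := lt_min hδ₁ hδ₂
    linarith
  have hmesh2 : ∀ i : Fin N, t i.succ - t i.castSucc < δ₂ := fun i => by
    have h1 := (hmesh i).trans (min_le_left _ _)
    have h2 : min δ₁ δ₂ ≤ δ₂ := min_le_right _ _
    have h3 : 0 < min δ₁ δ₂ := lt_min hδ₁ hδ₂
    linarith
  have hω : ∀ i : Fin N, 3 * (L * (Λ * (t i.succ - t i.castSucc))) ≤ ν ^ 2 := fun i => by
    have h1 := (hmesh i).trans (min_le_right _ _)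
    have h2 := (le_div_iff₀ hden2).mp h1
    have h3 : 0 ≤ (t i.succ - t i.castSucc) := (sub_pos.mpr (huv i)).le
    nlinarith
  have hcmem : ∀ i : Fin N, c i ∈ Set.Icc α β := fun i =>
    hsubi i ⟨(htags i).1, (htags i).2⟩
  have hdist : ∀ i : Fin N, ∀ τ ∈ Set.Icc (t i.castSucc) (t i.succ), |c i - τ| ≤ t i.succ - t i.castSucc := by
    intro i τ hτ
    rw [abs_le]
    constructor <;> linarith [hτ.1, hτ.2, (htags i).1, (htags i).2]
  have hRdiff : ∀ i : Fin N, ∀ τ ∈ Set.Icc (t i.castSucc) (t i.succ), |R (c i) - R τ| ≤ ν := by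
    intro i τ hτ
    have := hR1 (c i) (hcmem i) τ (hsubi i hτ) (by
      rw [Real.dist_eq]; exact (hdist i τ hτ).trans_lt (hmesh1 i))
    rw [Real.dist_eq] at this
    exact this.le
  have hGdiff : ∀ i : Fin N, ∀ τ ∈ Set.Icc (t i.castSucc) (t i.succ),
      |1 / Real.sqrt (1 + ‖w (c i)‖ ^ 2) - 1 / Real.sqrt (1 + ‖w τ‖ ^ 2)| ≤ ν := by
    intro i τ hτ
    have := hG2 (c i) (hcmem i) τ (hsubi i hτ) (by
      rw [Real.dist_eq]; exact (hdist i τ hτ).trans_lt (hmesh2 i))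
    rw [Real.dist_eq] at this
    exact this.le
  have hRup : ∀ i : Fin N, ∀ τ ∈ Set.Icc (t i.castSucc) (t i.succ), R τ ≤ R (c i) + ν := by
    intro i τ hτ
    have := (abs_le.mp (hRdiff i τ hτ)).1
    linarith
  have hRlow : ∀ i : Fin N, ∀ τ ∈ Set.Icc (t i.castSucc) (t i.succ), R (c i) - ν ≤ R τ := by
    intro i τ hτ
    have := (abs_le.mp (hRdiff i τ hτ)).2
    linarith
  choose p q r hp hq hr haff hcov harea hlow hup using fun i : Fin N =>
    piece e a b p₀ he ha hb hΓ φ₁ φ₂ h11 h12 h21 h22 hspan L hL α β R hR0 w hw lam hw' Λ hΛ ν hν hν1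
      (t i.castSucc) (t i.succ) (c i) (hu i) (hv i) (huv i) (htags i).1 (htags i).2 (hω i) (hRup i) (hRlow i)
  -- Riemann sums
  have hint : ∀ i : Fin N, IntervalIntegrable (fun τ => R τ ^ 2 / (2 * Real.sqrt (1 + ‖w τ‖ ^ 2))) volume
      (t i.castSucc) (t i.succ) := fun i => by
    apply ContinuousOn.intervalIntegrable
    rw [Set.uIcc_of_le (huv i).le]
    exact hFc.mono (hsubi i)
  have hFform : ∀ τ, R τ ^ 2 / (2 * Real.sqrt (1 + ‖w τ‖ ^ 2)) = R τ ^ 2 * (1 / Real.sqrt (1 + ‖w τ‖ ^ 2)) / 2 := by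
    intro τ; ring
  have rU := riemann (fun τ => R τ ^ 2 / (2 * Real.sqrt (1 + ‖w τ‖ ^ 2))) N t hint (fun i => (huv i).le)
    (fun i => (R (c i) + 3 * ν) ^ 2 * (1 + 2 * ν) * (1 / Real.sqrt (1 + ‖w (c i)‖ ^ 2)) / 2) (ν * Cst / 2) (by
      intro i τ hτ
      rw [hFform, hCst]
      exact up_ineq _ _ _ _ ν Rm (hR0 τ (hsubi i hτ)) (hRm τ (hsubi i hτ)) (hR0 _ (hcmem i)) (hRm _ (hcmem i))
        (hG0 _) (hG1 _) (hRdiff i τ hτ) (hGdiff i τ hτ) hν hν1)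
  have rL := riemann (fun τ => R τ ^ 2 / (2 * Real.sqrt (1 + ‖w τ‖ ^ 2))) N t hint (fun i => (huv i).le)
    (fun i => (max (R (c i) - ν) 0) ^ 2 * (1 / Real.sqrt (1 + ‖w (c i)‖ ^ 2)) / 2) (ν * Cst / 2) (by
      intro i τ hτ
      rw [hFform, hCst]
      exact low_ineq _ _ _ _ ν Rm (hR0 τ (hsubi i hτ)) (hRm τ (hsubi i hτ)) (hR0 _ (hcmem i)) (hRm _ (hcmem i))
        (hG0 _) (hG1 _) (hRdiff i τ hτ) (hGdiff i τ hτ) hν hν1)
  rw [h0, hlast] at rU rL
  obtain ⟨I, hI⟩ : ∃ I, I = ∫ τ in α..β, R τ ^ 2 / (2 * Real.sqrt (1 + ‖w τ‖ ^ 2)) := ⟨_, rfl⟩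
  rw [← hI] at rU rL ⊢
  rw [← hκ] at harea hlow hup
  rw [← hκ]
  obtain ⟨rU1, rU2⟩ := abs_le.mp rU
  obtain ⟨rL1, rL2⟩ := abs_le.mp rL
  have hmulU : κ * (∑ i : Fin N, (R (c i) + 3 * ν) ^ 2 * (1 + 2 * ν) * (1 / Real.sqrt (1 + ‖w (c i)‖ ^ 2)) / 2
      * (t i.succ - t i.castSucc)) = ∑ i : Fin N, κ * ((R (c i) + 3 * ν) ^ 2 * (1 + 2 * ν) * (1 / Real.sqrt (1 + ‖w (c i)‖ ^ 2)) / 2
      * (t i.succ - t i.castSucc)) := Finset.mul_sum _ _ _
  have hmulL : κ * (∑ i : Fin N, (max (R (c i) - ν) 0) ^ 2 * (1 / Real.sqrt (1 + ‖w (c i)‖ ^ 2)) / 2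
      * (t i.succ - t i.castSucc)) = ∑ i : Fin N, κ * ((max (R (c i) - ν) 0) ^ 2 * (1 / Real.sqrt (1 + ‖w (c i)‖ ^ 2)) / 2
      * (t i.succ - t i.castSucc)) := Finset.mul_sum _ _ _
  constructor
  · refine ⟨p, q, r, fun i => ⟨hp i, hq i, hr i⟩, haff, ?_, ?_⟩
    · rintro x ⟨τ, hτ, ρ, hρ, s, hs, rfl⟩
      obtain ⟨i, hi⟩ := exists_piece τ N t hmono.monotone (by
        rintro rfl
        have : t 0 = t (Fin.last 0) := rfl
        rw [h0, hlast] at this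
        exact hαβ.ne this) (by rw [h0]; exact hτ.1) (by rw [hlast]; exact hτ.2)
      obtain ⟨y, hy, σ, hσ⟩ := hcov i τ hi ρ hρ s hs
      exact Set.mem_iUnion.mpr ⟨i, y, hy, σ, hσ⟩
    · have hsum : (∑ i, (μHE[2] (convexHull ℝ ({p i, q i, r i} : Set E3))).toReal)
          = κ * (∑ i : Fin N, (R (c i) + 3 * ν) ^ 2 * (1 + 2 * ν) * (1 / Real.sqrt (1 + ‖w (c i)‖ ^ 2)) / 2
      * (t i.succ - t i.castSucc)) := by
        rw [hmulU]
        exact Finset.sum_congr rfl (fun i _ => harea i)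
      rw [hsum, ← mul_sub, abs_mul, abs_of_nonneg hκ0]
      exact (mul_le_mul_of_nonneg_left rU hκ0).trans hfinal
  · have hfun : ∀ i : Fin N, (fun y => y - (inner ℝ y (e + w (c i)) / ‖e + w (c i)‖ ^ 2) • (e + w (c i))) = ⇑(proj (e + w (c i))) :=
      fun i => rfl
    simp only [hfun]
    have hsumU : (∑ i : Fin N, (μHE[2] (⇑(proj (e + w (c i))) ''
            {x : EuclideanSpace ℝ (Fin 3) | ∃ τ ∈ Set.Icc (t i.castSucc) (t i.succ), ∃ ρ ∈ Set.Icc 0 (R τ),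
              ∃ s : ℝ, abs s ≤ L ∧ x = p₀ + ρ • (a + τ • b) + s • (e + w τ)})).toReal)
        ≤ κ * (∑ i : Fin N, (R (c i) + 3 * ν) ^ 2 * (1 + 2 * ν) * (1 / Real.sqrt (1 + ‖w (c i)‖ ^ 2)) / 2
      * (t i.succ - t i.castSucc)) := by
      rw [hmulU]
      exact Finset.sum_le_sum (fun i _ => hup i)
    have hsumL : κ * (∑ i : Fin N, (max (R (c i) - ν) 0) ^ 2 * (1 / Real.sqrt (1 + ‖w (c i)‖ ^ 2)) / 2
      * (t i.succ - t i.castSucc)) ≤ (∑ i : Fin N, (μHE[2] (⇑(proj (e + w (c i))) ''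
            {x : EuclideanSpace ℝ (Fin 3) | ∃ τ ∈ Set.Icc (t i.castSucc) (t i.succ), ∃ ρ ∈ Set.Icc 0 (R τ),
              ∃ s : ℝ, abs s ≤ L ∧ x = p₀ + ρ • (a + τ • b) + s • (e + w τ)})).toReal) := by
      rw [hmulL]
      exact Finset.sum_le_sum (fun i _ => hlow i)
    have h1 := mul_le_mul_of_nonneg_left rU2 hκ0
    have h2 := mul_le_mul_of_nonneg_left rL1 hκ0
    rw [abs_le]
    constructor
    · have : κ * (-(ν * Cst / 2 * (β - α))) = - (κ * (ν * Cst / 2 * (β - α))) := by ring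
      rw [this, mul_sub] at h2
      linarith
    · rw [mul_sub] at h1
      linarith

end Crest.Agent.S0328
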