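import Crest.Statements.S0329
import Crest.Agent.S0326
import Crest.Agent.Lib.Cyl.Area

set_option autoImplicit false
open MeasureTheory
open scoped ENNReal
open Crest Crest.GeometryTopology Crest.GeometryTopology.Convex

namespace Crest.Agent.S0329

open Crest.Agent.Lib.Cyl
open scoped RealInnerProductSpace

lemma det3_cramer (A B U y : E3) (hd : det3 A B U ≠ 0) :
    y = (det3 y B U / det3 A B U) • A + (det3 A y U / det3 A B U) • B + (det3 A B y / det3 A B U) • U := by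
  ext j
  simp only [PiLp.add_apply, PiLp.smul_apply, smul_eq_mul]
  field_simp
  fin_cases j <;> simp [det3] <;> ring

lemma det3_comb1 (A B U : E3) (s t x : ℝ) :
    det3 (s • A + t • B + x • U) B U = s * det3 A B U := by
  simp only [det3, PiLp.add_apply, PiLp.smul_apply, smul_eq_mul]
  ring

lemma det3_comb2 (A B U : E3) (s t x : ℝ) :
    det3 A (s • A + t • B + x • U) U = t * det3 A B U := by
  simp only [det3, PiLp.add_apply, PiLp.smul_apply, smul_eq_mul]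
  ring

lemma proj3_self (U : E3) (hU : U ≠ 0) : proj3 U U = 0 := by
  have h : ‖U‖ ^ 2 ≠ 0 := by
    have := norm_pos_iff.2 hU
    positivity
  simp only [proj3, real_inner_self_eq_norm_sq, div_self h, one_smul, sub_self]

lemma proj3_of_inner (U y : E3) (h : ⟪y, U⟫ = 0) : proj3 U y = y := by
  simp [proj3, h]

lemma isBounded_parSet (C A B : E3) : Bornology.IsBounded (parSet C A B) := by
  refine (isBounded_iff_forall_norm_le).mpr ⟨‖C‖ + ‖A‖ + ‖B‖, ?_⟩
  rintro x ⟨s, hs, t, ht, rfl⟩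
  have hs' : ‖s • A‖ ≤ ‖A‖ := by
    rw [norm_smul, Real.norm_eq_abs, abs_of_nonneg hs.1]
    exact mul_le_of_le_one_left (norm_nonneg _) hs.2
  have ht' : ‖t • B‖ ≤ ‖B‖ := by
    rw [norm_smul, Real.norm_eq_abs, abs_of_nonneg ht.1]
    exact mul_le_of_le_one_left (norm_nonneg _) ht.2
  calc ‖C + s • A + t • B‖ ≤ ‖C + s • A‖ + ‖t • B‖ := norm_add_le _ _
    _ ≤ ‖C‖ + ‖s • A‖ + ‖t • B‖ := by gcongr; exact norm_add_le _ _
    _ ≤ _ := by gcongr

/-- An open base containing the projection of a parallelogram. -/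
lemma open_base (U C A B : E3) (hU : U ≠ 0) (hd : det3 A B U ≠ 0) (κ : ℝ) (hκ : 0 < κ) :
    ∃ O : Set E3, IsOpen O ∧ Bornology.IsBounded (O ∩ {x | inner ℝ x (unit3 U) = 0}) ∧
      (μHE[2] (O ∩ {x | inner ℝ x (unit3 U) = 0})).toReal ≤ (1 + 2 * κ) ^ 2 * (|det3 A B U| / ‖U‖) ∧
      ∀ s ∈ Set.Icc (0 : ℝ) 1, ∀ t ∈ Set.Icc (0 : ℝ) 1, ∀ x : ℝ,
        ∃ y ∈ O ∩ {x | inner ℝ x (unit3 U) = 0}, ∃ τ : ℝ, C + s • A + t • B + x • U = y + τ • unit3 U := by
  set d := det3 A B U with hddef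
  set O : Set E3 := {y | det3 (y - C) B U / d ∈ Set.Ioo (-κ) (1 + κ) ∧
    det3 A (y - C) U / d ∈ Set.Ioo (-κ) (1 + κ)} with hO
  have hκ' : 0 < 1 + 2 * κ := by positivity
  have hUn : 0 < ‖U‖ := norm_pos_iff.2 hU
  -- the enlarged parallelogram
  set C' := C - κ • A - κ • B with hC'
  set A' := (1 + 2 * κ) • A with hA'
  set B' := (1 + 2 * κ) • B with hB'
  have hsub : O ∩ {x | inner ℝ x (unit3 U) = 0} ⊆ parSet (proj3 U C') (proj3 U A') (proj3 U B') := by
    rintro y ⟨⟨⟨h1, h2⟩, ⟨h3, h4⟩⟩, hy⟩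
    have hyU : ⟪y, U⟫ = 0 := by
      have h5 : ⟪y, unit3 U⟫ = 0 := hy
      rw [unit3, inner_smul_right] at h5
      have : ‖U‖⁻¹ ≠ 0 := by positivity
      exact (mul_eq_zero.mp h5).resolve_left this
    set φ₁ := det3 (y - C) B U / d with hφ₁
    set φ₂ := det3 A (y - C) U / d with hφ₂
    set φ₃ := det3 A B (y - C) / d with hφ₃
    have hdec : y - C = φ₁ • A + φ₂ • B + φ₃ • U := det3_cramer A B U (y - C) hd
    have hy' : y = proj3 U C + φ₁ • proj3 U A + φ₂ • proj3 U B := by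
      have h6 := congrArg (proj3 U) hdec
      rw [proj3_sub, proj3_of_inner U y hyU, proj3_add, proj3_add, proj3_smul, proj3_smul, proj3_smul,
        proj3_self U hU, smul_zero, add_zero] at h6
      rw [add_assoc, ← h6]
      abel
    refine ⟨(φ₁ + κ) / (1 + 2 * κ), ⟨by apply div_nonneg <;> linarith, ?_⟩,
      (φ₂ + κ) / (1 + 2 * κ), ⟨by apply div_nonneg <;> linarith, ?_⟩, ?_⟩
    · rw [div_le_one hκ']; linarith
    · rw [div_le_one hκ']; linarith
    · rw [hy', hC', hA', hB']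
      simp only [proj3_sub, proj3_smul, smul_smul]
      rw [div_mul_cancel₀ _ hκ'.ne', div_mul_cancel₀ _ hκ'.ne']
      module
  have hdetscale : det3 A' B' U = (1 + 2 * κ) ^ 2 * d := by
    rw [hA', hB', det3_smul_left, det3_smul_mid]
    ring
  refine ⟨O, ?_, (isBounded_parSet _ _ _).subset hsub, ?_, ?_⟩
  · have h1 : Continuous fun y : E3 => det3 (y - C) B U / d := by
      unfold det3
      simp only [PiLp.sub_apply]
      fun_prop
    have h2 : Continuous fun y : E3 => det3 A (y - C) U / d := by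
      unfold det3
      simp only [PiLp.sub_apply]
      fun_prop
    exact (isOpen_Ioo.preimage h1).inter (isOpen_Ioo.preimage h2)
  · have h1 := measure_mono (μ := μHE[2]) hsub
    rw [area_proj_par U C' A' B' hU, hdetscale] at h1
    have h2 := ENNReal.toReal_mono ENNReal.ofReal_ne_top h1
    rw [ENNReal.toReal_ofReal (by positivity), abs_mul, abs_of_pos (by positivity : (0 : ℝ) < (1 + 2 * κ) ^ 2),
      mul_div_assoc] at h2
    exact h2
  · intro s hs t ht x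
    set z := C + s • A + t • B + x • U with hz
    refine ⟨proj3 U z, ⟨?_, ?_⟩, (⟪z, U⟫ / ‖U‖ ^ 2) * ‖U‖, ?_⟩
    · have e1 : proj3 U z - C = s • A + t • B + (x - ⟪z, U⟫ / ‖U‖ ^ 2) • U := by
        simp only [proj3, hz]
        module
      have e2 : det3 (proj3 U z - C) B U / d = s := by
        rw [e1, det3_comb1, ← hddef]
        field_simp
      have e3 : det3 A (proj3 U z - C) U / d = t := by
        rw [e1, det3_comb2, ← hddef]
        field_simp
      show det3 (proj3 U z - C) B U / d ∈ Set.Ioo (-κ) (1 + κ) ∧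
        det3 A (proj3 U z - C) U / d ∈ Set.Ioo (-κ) (1 + κ)
      rw [e2, e3]
      refine ⟨⟨by linarith [hs.1], by linarith [hs.2]⟩, ⟨by linarith [ht.1], by linarith [ht.2]⟩⟩
    · exact inner_unit3 U _ (proj3_inner U z hU)
    · rw [← smul_unit3 U hU]
      exact proj3_decomp U z

/-- Let h, M > 0, D ⊂ ℝ² be compact with Lebesgue-null boundary, and V : ℝ² → ℝ² be C¹ on an open set containing D with tr DV(p) = 0 and −1/M² < det DV(p) < 0 for p ∈ D. For every ε > 0 the set of points (x, p₁ + x V₁(p), h (p₂ + x V₂(p))) ∈ ℝ³ with p ∈ D, −M ≤ x ≤ M is covered by finitely many cylinders Bᵢ + ℝ uᵢ, ‖uᵢ‖ = 1, with bases Bᵢ bounded relatively open subsets of the planes uᵢ^⊥ and ∑ᵢ area(Bᵢ) ≤ h ∫_D (1 + V₁² + h² V₂²)^(−1/2) + ε (areas: normalised 2-dimensional Hausdorff measure). -/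
theorem result
    (h M : ℝ) (hh : 0 < h) (hM : 0 < M) (D : Set (EuclideanSpace ℝ (Fin 2))) (hD : IsCompact D)
    (hbd : volume (frontier D) = 0)
    (V : EuclideanSpace ℝ (Fin 2) → EuclideanSpace ℝ (Fin 2)) (U : Set (EuclideanSpace ℝ (Fin 2)))
    (hU : IsOpen U) (hDU : D ⊆ U) (hV : ContDiffOn ℝ 1 V U)
    (htr : ∀ p ∈ D, LinearMap.trace ℝ _ (fderiv ℝ V p).toLinearMap = 0)
    (hdet : ∀ p ∈ D, -(M ^ 2)⁻¹ < LinearMap.det (fderiv ℝ V p).toLinearMap ∧
      LinearMap.det (fderiv ℝ V p).toLinearMap < 0)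
    (ε : ℝ) (hε : 0 < ε) :
    ∃ (k : ℕ) (u : Fin k → EuclideanSpace ℝ (Fin 3)) (B : Fin k → Set (EuclideanSpace ℝ (Fin 3))),
      (∀ i, ‖u i‖ = 1) ∧
      (∀ i, Bornology.IsBounded (B i) ∧ ∃ O : Set (EuclideanSpace ℝ (Fin 3)), IsOpen O ∧
        B i = O ∩ {x | inner ℝ x (u i) = 0}) ∧
      {z : EuclideanSpace ℝ (Fin 3) | ∃ p ∈ D, ∃ x : ℝ, abs x ≤ M ∧
          z = !₂[x, p 0 + x * V p 0, h * (p 1 + x * V p 1)]} ⊆
        ⋃ i, {z : EuclideanSpace ℝ (Fin 3) | ∃ y ∈ B i, ∃ τ : ℝ, z = y + τ • u i} ∧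
      ∑ i, (μHE[2] (B i)).toReal ≤
        h * (∫ p in D, 1 / Real.sqrt (1 + (V p 0) ^ 2 + h ^ 2 * (V p 1) ^ 2)) + ε := by
  classical
  obtain ⟨k, c, a, b, g, hshape, hcover, hsum⟩ := Crest.Agent.S0326.result D hD V U hU hDU hV M h hM hh htr
    (fun p hp => ⟨(hdet p hp).1, (hdet p hp).2.le⟩) (ε / (2 * h)) (by positivity)
  set I₀ := ∫ p in D, 1 / Real.sqrt (1 + (V p 0) ^ 2 + h ^ 2 * (V p 1) ^ 2) with hI₀
  have hI₀0 : 0 ≤ I₀ := integral_nonneg fun p => by positivity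
  set X := h * I₀ + ε / 2 with hX
  have hX0 : 0 ≤ X := by positivity
  set κ := min 1 (ε / (16 * (X + 1))) with hκdef
  have hκ : 0 < κ := lt_min one_pos (by positivity)
  have hκ1 : κ ≤ 1 := min_le_left _ _
  have hκ2 : 8 * κ * X ≤ ε / 2 := by
    have h1 : κ ≤ ε / (16 * (X + 1)) := min_le_right _ _
    have h2 : κ * (16 * (X + 1)) ≤ ε := by
      rwa [le_div_iff₀ (by positivity)] at h1
    nlinarith
  -- the three dimensional data
  set Uv : Fin k → E3 := fun i => !₂[1, g i 0, h * g i 1] with hUv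
  set Cv : Fin k → E3 := fun i => !₂[0, c i 0, h * c i 1] with hCv
  set Av : Fin k → E3 := fun i => !₂[0, a i 0, h * a i 1] with hAv
  set Bv : Fin k → E3 := fun i => !₂[0, b i 0, h * b i 1] with hBv
  have hUnz : ∀ i, Uv i ≠ 0 := by
    intro i h0
    have := congrArg (fun w : E3 => w 0) h0
    simp [hUv] at this
  have hUnorm : ∀ i, ‖Uv i‖ = Real.sqrt (1 + (g i 0) ^ 2 + h ^ 2 * (g i 1) ^ 2) := by
    intro i
    rw [← Real.sqrt_sq (norm_nonneg (Uv i)), normsq3]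
    congr 1
    simp [hUv]
    ring
  have hdetv : ∀ i, |det3 (Av i) (Bv i) (Uv i)| = h * ‖a i‖ ^ 2 := by
    intro i
    obtain ⟨-, hb, hin⟩ := hshape i
    have hdet : det3 (Av i) (Bv i) (Uv i) = h * (a i 0 * b i 1 - a i 1 * b i 0) := by
      simp [det3, hAv, hBv, hUv]
      ring
    have hn : ‖a i‖ ^ 2 = a i 0 ^ 2 + a i 1 ^ 2 := by
      rw [EuclideanSpace.norm_sq_eq, Fin.sum_univ_two]
      simp
    have hnb : ‖b i‖ ^ 2 = b i 0 ^ 2 + b i 1 ^ 2 := by
      rw [EuclideanSpace.norm_sq_eq, Fin.sum_univ_two]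
      simp
    have hin' : a i 0 * b i 0 + a i 1 * b i 1 = 0 := by
      have := hin
      simp only [PiLp.inner_apply, Fin.sum_univ_two, RCLike.inner_apply, conj_trivial] at this
      linarith
    have hsq : (a i 0 * b i 1 - a i 1 * b i 0) ^ 2 = (‖a i‖ ^ 2) ^ 2 := by
      have h1 : (a i 0 * b i 1 - a i 1 * b i 0) ^ 2 =
          (a i 0 ^ 2 + a i 1 ^ 2) * (b i 0 ^ 2 + b i 1 ^ 2) - (a i 0 * b i 0 + a i 1 * b i 1) ^ 2 := by
        ring
      rw [h1, hin', ← hn, ← hnb, hb]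
      ring
    have habs : |a i 0 * b i 1 - a i 1 * b i 0| = ‖a i‖ ^ 2 := by
      have := (sq_eq_sq_iff_abs_eq_abs _ _).mp hsq
      rwa [abs_of_nonneg (by positivity : 0 ≤ ‖a i‖ ^ 2)] at this
    rw [hdet, abs_mul, abs_of_pos hh, habs]
  have hdnz : ∀ i, det3 (Av i) (Bv i) (Uv i) ≠ 0 := by
    intro i h0
    have h1 := hdetv i
    rw [h0, abs_zero] at h1
    have h2 : a i ≠ 0 := (hshape i).1
    have h3 : 0 < ‖a i‖ := norm_pos_iff.2 h2
    have h4 : 0 < h * ‖a i‖ ^ 2 := by positivity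
    linarith
  choose O hOo hObd hOarea hOcov using fun i =>
    open_base (Uv i) (Cv i) (Av i) (Bv i) (hUnz i) (hdnz i) κ hκ
  refine ⟨k, fun i => Crest.Agent.Lib.Cyl.unit3 (Uv i), fun i => O i ∩ {x | inner ℝ x (unit3 (Uv i)) = 0},
    fun i => norm_unit3 _ (hUnz i), fun i => ⟨hObd i, O i, hOo i, rfl⟩, ?_, ?_⟩
  · rintro z ⟨p, hp, x, hx, rfl⟩
    have hmem : ((x, p + x • V p) : ℝ × EuclideanSpace ℝ (Fin 2)) ∈
        {z : ℝ × EuclideanSpace ℝ (Fin 2) | ∃ p ∈ D, abs z.1 ≤ M ∧ z.2 = p + z.1 • V p} :=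
      ⟨p, hp, hx, rfl⟩
    obtain ⟨i, s, hs, t, ht, heq⟩ := Set.mem_iUnion.mp (hcover hmem)
    obtain ⟨y, hy, τ, hyτ⟩ := hOcov i s hs t ht x
    refine Set.mem_iUnion.mpr ⟨i, y, hy, τ, ?_⟩
    rw [← hyτ]
    have h0 : p 0 + x * V p 0 = c i 0 + s * a i 0 + t * b i 0 + x * g i 0 := by
      have := congrArg (fun w : EuclideanSpace ℝ (Fin 2) => w 0) heq
      simpa using this
    have h1 : p 1 + x * V p 1 = c i 1 + s * a i 1 + t * b i 1 + x * g i 1 := by
      have := congrArg (fun w : EuclideanSpace ℝ (Fin 2) => w 1) heq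
      simpa using this
    ext j
    fin_cases j
    · simp [hCv, hAv, hBv, hUv]
    · simp [hCv, hAv, hBv, hUv, h0]
    · simp [hCv, hAv, hBv, hUv, h1]
      ring
  · set T := ∑ i, ‖a i‖ ^ 2 / Real.sqrt (1 + (g i 0) ^ 2 + h ^ 2 * (g i 1) ^ 2) with hT
    have hT0 : 0 ≤ T := Finset.sum_nonneg fun i _ => by positivity
    have hTX : h * T ≤ X := by
      have h1 := mul_le_mul_of_nonneg_left hsum hh.le
      have h2 : h * (I₀ + ε / (2 * h)) = h * I₀ + ε / 2 := by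
        field_simp
      rw [h2] at h1
      exact h1
    have hstep : ∀ i, (μHE[2] (O i ∩ {x | inner ℝ x (unit3 (Uv i)) = 0})).toReal ≤
        (1 + 2 * κ) ^ 2 * (h * (‖a i‖ ^ 2 / Real.sqrt (1 + (g i 0) ^ 2 + h ^ 2 * (g i 1) ^ 2))) := by
      intro i
      refine (hOarea i).trans (le_of_eq ?_)
      rw [hdetv i, hUnorm i, mul_div_assoc]
    calc ∑ i, (μHE[2] (O i ∩ {x | inner ℝ x (unit3 (Uv i)) = 0})).toReal
        ≤ ∑ i, (1 + 2 * κ) ^ 2 * (h * (‖a i‖ ^ 2 / Real.sqrt (1 + (g i 0) ^ 2 + h ^ 2 * (g i 1) ^ 2))) :=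
          Finset.sum_le_sum fun i _ => hstep i
      _ = (1 + 2 * κ) ^ 2 * (h * T) := by
          rw [hT, Finset.mul_sum, Finset.mul_sum]
      _ ≤ (1 + 8 * κ) * (h * T) := by
          apply mul_le_mul_of_nonneg_right _ (by positivity)
          nlinarith
      _ = h * T + 8 * κ * (h * T) := by ring
      _ ≤ X + 8 * κ * X := by gcongr
      _ ≤ h * I₀ + ε := by
          rw [hX] at hκ2 ⊢
          linarith

end Crest.Agent.S0329
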