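import Crest.Statements.S0423
import Crest.Agent.Lib.S0423Abstract

set_option autoImplicit false
open Crest Crest.AlgGeometry

namespace Crest.Agent.S0423

open MeasureTheory Set
open Crest.Agent.Lib.S0423Law Crest.Agent.Lib.S0423Approach Crest.Agent.Lib.S0423Family
open Crest.Agent.Lib.S0423Abstract

lemma signs {N : ℕ} {a : Fin N → ℝ} (h : ∑ i, a i = 0) (hne : ∃ i, a i ≠ 0) :
    (∃ i, 0 < a i) ∧ (∃ j, a j < 0) := by
  obtain ⟨i₀, hi₀⟩ := hne
  constructor
  · by_contra hcon
    push Not at hcon
    have := (Finset.sum_eq_zero_iff_of_nonpos (fun i _ => hcon i)).mp h i₀ (Finset.mem_univ _)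
    exact hi₀ this
  · by_contra hcon
    push Not at hcon
    have := (Finset.sum_eq_zero_iff_of_nonneg (fun i _ => hcon i)).mp h i₀ (Finset.mem_univ _)
    exact hi₀ this

lemma g_four_thirds : truncExpWeight (4 / 3) ≤ 1 - 4 / 9 * Real.exp (-(1/3)) := by
  have hE := exp_neg_third_le
  have hEpos := Real.exp_pos (-(1/3) : ℝ)
  have e : Real.exp (-(4 / 3)) = Real.exp (-(1/3)) ^ 4 := by
    rw [← Real.exp_nat_mul]; congr 1; norm_num
  have h4 : Real.exp (-(1/3)) ^ 4 ≤ (18 / 25) ^ 4 := pow_le_pow_left₀ hEpos.le hE 4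
  unfold truncExpWeight
  rw [if_neg (by norm_num), e]
  norm_num at h4 ⊢
  linarith

/-- The first half of the statement, in probabilistic form. -/
lemma upper {N : ℕ} (a : Fin N → ℝ) (h : ∑ i, a i = 0) :
    ∫ x in Set.pi Set.univ (fun _ : Fin N => Set.Ioi (0 : ℝ)),
      truncExpWeight (4 / 3 + ∑ i, a i * x i) * Real.exp (-∑ i, x i) ≤
      1 - 4 / 9 * Real.exp (-(1/3)) := by
  rw [orthant_integral N fun x => truncExpWeight (4 / 3 + ∑ i, a i * x i)]
  by_cases hne : ∃ i, a i ≠ 0
  · obtain ⟨⟨i, hi⟩, ⟨j, hj⟩⟩ := signs h hne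
    have hgm : Measurable fun w : ℝ => truncExpWeight (4 / 3 + w) :=
      (truncExpWeight_continuous.comp (by fun_prop :
        Continuous fun w : ℝ => 4 / 3 + w)).measurable
    have hG : Good (law a) :=
      { hint := law_integrable_id a
        hmean := by rw [law_mean, h]
        hpos := law_pos a hi
        hlt := law_lt_one a hj
        hcont := law_cont a hi
        hconc := law_conc a hi }
    have := abstract_bound hG
    rw [law_integral a hgm.aestronglyMeasurable] at this
    exact this
  · push Not at hne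
    have e : (fun x : Fin N → ℝ => truncExpWeight (4 / 3 + ∑ i, a i * x i)) =
        fun _ => truncExpWeight (4 / 3) := by
      funext x
      simp [hne]
    rw [e]
    simp only [integral_const, probReal_univ, one_smul]
    exact g_four_thirds

/-- For independent mean-one exponential random variables `X_1, …, X_N` (written as an integral over the positive orthant against the density `exp (-(x_1 + ⋯ + x_N))`), real coefficients `a_1, …, a_N` summing to zero, and the weight `g = truncExpWeight`, the quantity `(e^{4/3} / (4/3)) · E[g(4/3 + a_1 X_1 + ⋯ + a_N X_N)]` has supremum over all `N ≥ 1` and all such `a` exactly `(3/4) e^{4/3} − e/3`: it never exceeds this value, and comes within any `ε > 0` of it for some `N` and `a`. -/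
theorem result :
    (∀ (N : ℕ) (a : Fin N → ℝ), 1 ≤ N → ∑ i, a i = 0 →
      Real.exp (4 / 3) / (4 / 3) *
          ∫ x in Set.pi Set.univ (fun _ : Fin N => Set.Ioi (0 : ℝ)),
            Crest.AlgGeometry.truncExpWeight (4 / 3 + ∑ i, a i * x i) * Real.exp (-∑ i, x i)
        ≤ 3 / 4 * Real.exp (4 / 3) - Real.exp 1 / 3) ∧
    (∀ ε : ℝ, 0 < ε → ∃ (N : ℕ) (a : Fin N → ℝ), 1 ≤ N ∧ ∑ i, a i = 0 ∧
      3 / 4 * Real.exp (4 / 3) - Real.exp 1 / 3 - ε <
        Real.exp (4 / 3) / (4 / 3) *
          ∫ x in Set.pi Set.univ (fun _ : Fin N => Set.Ioi (0 : ℝ)),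
            Crest.AlgGeometry.truncExpWeight (4 / 3 + ∑ i, a i * x i) * Real.exp (-∑ i, x i)) := by
  refine ⟨fun N a _ h => ?_, approach⟩
  rw [← norm_identity]
  exact mul_le_mul_of_nonneg_left (upper a h) (by positivity)

end Crest.Agent.S0423
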