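import Crest.Statements.S0499
import Crest.Agent.Lib.MS.LearnerChain

set_option autoImplicit false
set_option maxHeartbeats 2000000
open Crest Crest.LogicCS

namespace Crest.Agent.S0499

open Crest.Agent.MS

/-- The numerics of the regime of huge `log (1/ε)`. -/
private theorem huge_regime {A Λ x y dd : ℝ} (hA : 0 < A) (hd : (1048576 : ℝ) ≤ dd) (hΛ : 2 ≤ Λ)
    (hbig : 8 * (A + 1) * dd < Λ) (hM : x ≤ A * dd ^ 2) (hx0 : 0 ≤ x) (hy : y ≤ dd * Λ / 1000 + 6)
    (hmain : Real.log (2 / 3) ≤ y + x * 0.7 + dd * 0.7 - (dd - 1) * Λ) : False := by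
  have hdΛ : 2097152 ≤ dd * Λ := by nlinarith
  have h1 : Real.log (2 / 3) ≥ -1 := by
    have := Real.log_le_sub_one_of_pos (show (0 : ℝ) < 3 / 2 by norm_num)
    have h2 : Real.log (2 / 3) = - Real.log (3 / 2) := by
      rw [← Real.log_inv]; norm_num
    rw [h2]; linarith
  have h2 : (A + 1) * dd ^ 2 ≤ dd * Λ / 8 := by nlinarith
  have h3 : x * 0.7 + dd * 0.7 ≤ 0.7 * ((A + 1) * dd ^ 2) := by nlinarith
  have h4 : Λ ≤ dd * Λ / 1000000 := by nlinarith
  nlinarith

/-- The numerics of the main regime. -/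
private theorem main_regime {A C Λ dd T m lq k c8 : ℝ} (hA : 0 < A) (hC : C = 29 * (A + 1) + 1)
    (hd : (1048576 : ℝ) ≤ dd) (hΛ : 8 * (1 + C) < Λ) (hT0 : 0 ≤ T)
    (hT : T < dd * Λ / (184 * C))
    (hm : m ≤ 33 * T / dd + 1) (hm0 : 0 ≤ m) (hlq0 : 0 ≤ lq) (hlq : lq ≤ (A + 1) * dd ^ 2)
    (hk : k ≤ dd / 4) (hk0 : 0 ≤ k) (hc8 : c8 = Λ - 3 * Real.log 2)
    (hmain : (4 / 9) * ((dd - k - 1) * c8 - Real.log 2) - (2 / 3) * Real.log 2 ≤
      m * (29 * lq / dd + dd)) : False := by
  have hdpos : 0 < dd := by linarith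
  have hlog2 := Real.log_two_lt_d9
  have hlog2pos : 0 < Real.log 2 := Real.log_pos (by norm_num)
  have hCpos : 0 < C := by rw [hC]; positivity
  have hC30 : 30 ≤ C := by rw [hC]; nlinarith
  have hΛ2 : 248 ≤ Λ := by linarith
  have hc8pos : 0 ≤ c8 := by rw [hc8]; linarith
  -- right side
  have hr1 : 29 * lq / dd + dd ≤ C * dd := by
    have h1 : 29 * lq / dd ≤ 29 * (A + 1) * dd := by
      rw [div_le_iff₀ hdpos]
      nlinarith
    rw [hC]
    nlinarith
  have hr2 : m * (29 * lq / dd + dd) ≤ 33 * C * T + C * dd := by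
    have h0 : 0 ≤ 29 * lq / dd + dd := by positivity
    calc m * (29 * lq / dd + dd) ≤ (33 * T / dd + 1) * (C * dd) :=
          mul_le_mul hm hr1 h0 (by positivity)
      _ = 33 * C * T + C * dd := by field_simp
  -- left side
  have hl1 : (3 / 4 * dd - 1) * c8 ≤ (dd - k - 1) * c8 :=
    mul_le_mul_of_nonneg_right (by linarith) hc8pos
  have hdΛ : 0 < dd * Λ := by positivity
  have hl2 : Λ ≤ dd * Λ / 1000 := by nlinarith
  have hl3 : 0.31 * (dd * Λ) - dd ≤
      (4 / 9) * ((dd - k - 1) * c8 - Real.log 2) - (2 / 3) * Real.log 2 := by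
    have h1 : (4 / 9) * ((3 / 4 * dd - 1) * c8 - Real.log 2) - (2 / 3) * Real.log 2 ≤
      (4 / 9) * ((dd - k - 1) * c8 - Real.log 2) - (2 / 3) * Real.log 2 := by linarith
    refine le_trans ?_ h1
    rw [hc8]
    have h2 : dd * Real.log 2 ≤ dd * 0.6932 := mul_le_mul_of_nonneg_left (by linarith) hdpos.le
    nlinarith
  have h5 : 0.31 * (dd * Λ) - dd ≤ 33 * C * T + C * dd := by linarith
  have h6 : (1 + C) * dd ≤ dd * Λ / 8 := by nlinarith
  have h7 : 184 * C * T < dd * Λ := by
    rw [lt_div_iff₀ (by positivity)] at hT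
    linarith
  nlinarith

/-- For each A > 0 there are c > 0 and d₀ such that for all d ≥ d₀, naturals M ≤ A·d² and T, and 0 < ε ≤ 1/10: if a randomized one-pass learner with at most 2^M states (own seed independent of the data; transitions read one pair (x_t, ⟪x_t, s⟫) at a time; optional early stopping; unit-vector output from stopping index, seed and final state), fed T independent standard Gaussian samples in ℝ^d with s uniform on the sphere, is within angle ε of s with probability ≥ 2/3, then T ≥ c·d·log(1/ε). -/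
theorem result :
    ∀ A : ℝ, 0 < A → ∃ c : ℝ, 0 < c ∧ ∃ d₀ : ℕ, ∀ d ≥ d₀, ∀ (M T : ℕ),
      (M : ℝ) ≤ A * (d : ℝ) ^ 2 → ∀ ε : ℝ, 0 < ε → ε ≤ 1 / 10 →
        ∀ L : Crest.StreamLearn.RLearner d T M,
          2 / 3 ≤ L.successProb ε → c * d * Real.log (1 / ε) ≤ T := by
  intro A hA
  set C : ℝ := 29 * (A + 1) + 1 with hC
  have hCpos : 0 < C := by positivity
  set L₀ : ℝ := 8 * (1 + C) with hL₀
  have hL₀pos : 0 < L₀ := by positivity
  set c : ℝ := min (min (1 / (10 * L₀)) (1 / (8 * (A + 1)))) (min (1 / (184 * C)) (1 / 4)) with hc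
  have hc1 : c ≤ 1 / (10 * L₀) := (min_le_left _ _).trans (min_le_left _ _)
  have hc2 : c ≤ 1 / (8 * (A + 1)) := (min_le_left _ _).trans (min_le_right _ _)
  have hc3 : c ≤ 1 / (184 * C) := (min_le_right _ _).trans (min_le_left _ _)
  have hc4 : c ≤ 1 / 4 := (min_le_right _ _).trans (min_le_right _ _)
  have hcpos : 0 < c := by
    rw [hc]
    refine lt_min (lt_min ?_ ?_) (lt_min ?_ ?_) <;> positivity
  refine ⟨c, hcpos, dZero, ?_⟩
  intro d hd M T hM ε hε hε' L hsucc
  have hd' : (2 : ℕ) ^ 20 ≤ d := hd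
  norm_num at hd'
  have hdR : (1048576 : ℝ) ≤ d := by exact_mod_cast hd'
  have hdpos : (0 : ℝ) < d := by linarith
  obtain ⟨ω, hω⟩ := exists_good_seed (by omega) L ε hsucc
  set Λ := Real.log (1 / ε) with hΛdef
  have hΛ2 : 2 ≤ Λ := by
    have h1 : Real.log (2 ^ 3) ≤ Λ := by
      apply Real.log_le_log (by norm_num)
      rw [le_div_iff₀ hε]
      linarith
    rw [Real.log_pow] at h1
    have h3 := Real.log_two_gt_d9
    push_cast at h1
    linarith
  have hΛpos : 0 < Λ := by linarith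
  have hdΛ : 0 < (d : ℝ) * Λ := by positivity
  by_cases h1 : Λ ≤ L₀
  · -- small `log(1/ε)`
    have h2 := samples_ge_of_seed (by omega) L ω ε hε hε' hω
    have h3 : c * d * Λ ≤ (1 / (10 * L₀)) * d * L₀ := by
      apply mul_le_mul (mul_le_mul_of_nonneg_right hc1 hdpos.le) h1 hΛpos.le (by positivity)
    have h4 : (1 / (10 * L₀)) * d * L₀ = (d : ℝ) / 10 := by
      field_simp
    linarith
  push Not at h1
  by_contra hT
  push Not at hT
  have hT' : (T : ℝ) < c * d * Λ := hT
  have hT0 : (0 : ℝ) ≤ T := Nat.cast_nonneg T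
  have hT4 : (T : ℝ) < (d : ℝ) * Λ / 4 := by
    calc (T : ℝ) < c * d * Λ := hT'
      _ ≤ (1 / 4) * d * Λ := by gcongr
      _ = _ := by ring
  by_cases h2 : 8 * (A + 1) * d < Λ
  · -- huge `log(1/ε)`
    have hcount := counting_caps (by omega) L ω ε hε hε' hω
    have hpos : (0 : ℝ) < ((T : ℝ) + 1) * 2 ^ M * (2 ^ d * ε ^ (d - 1)) := by positivity
    have h3 := Real.log_le_log (by norm_num) hcount
    have h4 : Real.log (((T : ℝ) + 1) * 2 ^ M * (2 ^ d * ε ^ (d - 1))) =
        Real.log ((T : ℝ) + 1) + M * Real.log 2 + d * Real.log 2 - ((d : ℝ) - 1) * Λ := by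
      have hdd : ((d - 1 : ℕ) : ℝ) = (d : ℝ) - 1 := by
        rw [Nat.cast_sub (by omega)]; simp
      have hlogε : Real.log ε = - Λ := by
        rw [hΛdef, one_div, Real.log_inv]; ring
      rw [Real.log_mul (by positivity) (by positivity), Real.log_mul (by positivity) (by positivity),
        Real.log_mul (by positivity) (by positivity), Real.log_pow, Real.log_pow, Real.log_pow, hdd,
        hlogε]
      ring
    rw [h4] at h3
    have hlog2 := Real.log_two_lt_d9
    have hlog2pos : 0 < Real.log 2 := Real.log_pos (by norm_num)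
    have hT1 : (T : ℝ) + 1 ≤ (d : ℝ) * Λ := by nlinarith
    have hy : Real.log ((T : ℝ) + 1) ≤ (d : ℝ) * Λ / 1000 + 6 :=
      (Real.log_le_log (by positivity) hT1).trans (log_le_linear hdΛ)
    have hM0 : (0 : ℝ) ≤ M := Nat.cast_nonneg M
    have h5 : (M : ℝ) * Real.log 2 ≤ M * 0.7 := mul_le_mul_of_nonneg_left (by linarith) hM0
    have h6 : (d : ℝ) * Real.log 2 ≤ d * 0.7 := mul_le_mul_of_nonneg_left (by linarith) hdpos.le
    exact huge_regime hA hdR hΛ2 h2 hM hM0 hy (by linarith)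
  · -- the main regime
    push Not at h2
    have hBpos : 0 < bB d := by unfold bB; omega
    obtain ⟨F, q0, v, hF, hv, heq⟩ := learner_to_chain hBpos L ω ε
    have : Nonempty (LQ L) := ⟨q0⟩
    have hchain := chain_main hd F hF q0 v hv (T / bB d + 1) ε hε hε' (by rw [← heq]; exact hω)
    have hT5 : (T : ℝ) < (d : ℝ) * Λ / (184 * C) := by
      calc (T : ℝ) < c * d * Λ := hT'
        _ ≤ (1 / (184 * C)) * d * Λ := by gcongr
        _ = _ := by ring
    have hT6 : (T : ℝ) ≤ (d : ℝ) ^ 2 := by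
      have h3 : c * d * Λ ≤ (1 / (8 * (A + 1))) * d * (8 * (A + 1) * d) := by
        apply mul_le_mul (mul_le_mul_of_nonneg_right hc2 hdpos.le) h2 hΛpos.le (by positivity)
      have h4 : (1 / (8 * (A + 1))) * d * (8 * (A + 1) * d) = (d : ℝ) ^ 2 := by
        field_simp
      linarith
    -- the bound on the number of labels
    have hcard0 : 0 < Fintype.card (LQ L) := Fintype.card_pos
    have hcard : (Fintype.card (LQ L) : ℝ) ≤ 2 ^ M * ((T : ℝ) + 2) := by
      exact_mod_cast card_LQ L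
    have hlq0 : 0 ≤ Real.log (Fintype.card (LQ L)) := Real.log_natCast_nonneg _
    have hlq : Real.log (Fintype.card (LQ L)) ≤ (A + 1) * (d : ℝ) ^ 2 := by
      have h3 : Real.log (Fintype.card (LQ L)) ≤ M * Real.log 2 + Real.log ((T : ℝ) + 2) := by
        have h4 := Real.log_le_log (by exact_mod_cast hcard0) hcard
        rw [Real.log_mul (by positivity) (by positivity), Real.log_pow] at h4
        exact h4
      have hlog2 := Real.log_two_lt_d9
      have hlog2pos : 0 < Real.log 2 := Real.log_pos (by norm_num)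
      have h5 : (M : ℝ) * Real.log 2 ≤ A * (d : ℝ) ^ 2 := by
        have hM0 : (0 : ℝ) ≤ M := Nat.cast_nonneg M
        have h7 : (M : ℝ) * Real.log 2 ≤ M * 1 :=
          mul_le_mul_of_nonneg_left (by linarith) hM0
        linarith
      have h6 : Real.log ((T : ℝ) + 2) ≤ ((T : ℝ) + 2) / 1000 + 6 := log_le_linear (by positivity)
      have h8 : (1048576 : ℝ) ≤ (d : ℝ) ^ 2 := by
        have : (1 : ℝ) ≤ d := by linarith
        calc (1048576 : ℝ) ≤ d := hdR
          _ ≤ (d : ℝ) ^ 2 := by nlinarith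
      have h9 : (A + 1) * (d : ℝ) ^ 2 = A * (d : ℝ) ^ 2 + (d : ℝ) ^ 2 := by ring
      rw [h9]
      linarith
    -- the number of blocks
    have hB33 : (d : ℝ) / 33 ≤ bB d := by
      have h3 : d ≤ 33 * bB d := by unfold bB; omega
      have h4 : (d : ℝ) ≤ 33 * (bB d : ℝ) := by exact_mod_cast h3
      linarith
    have hBpos' : (0 : ℝ) < bB d := by exact_mod_cast hBpos
    have hm : (((T / bB d + 1 : ℕ)) : ℝ) ≤ 33 * T / d + 1 := by
      push_cast
      have h3 : ((T / bB d : ℕ) : ℝ) ≤ (T : ℝ) / bB d := Nat.cast_div_le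
      have h4 : (T : ℝ) / bB d ≤ 33 * T / d := by
        rw [div_le_div_iff₀ hBpos' hdpos]
        nlinarith
      linarith
    have hk : (kV d : ℝ) ≤ (d : ℝ) / 4 := by
      unfold kV
      exact Nat.cast_div_le
    have hc8 : Real.log (1 / (8 * ε)) = Λ - 3 * Real.log 2 := by
      have : 1 / (8 * ε) = (1 / ε) / 2 ^ 3 := by
        field_simp
        norm_num
      rw [this, Real.log_div (by positivity) (by positivity), Real.log_pow]
      push_cast
      rfl
    exact main_regime hA hC hdR h1 hT0 hT5 hm (by positivity) hlq0 hlq hk (by positivity) hc8 hchain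

end Crest.Agent.S0499
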