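import Crest.Statements.S0534
import Crest.Agent.Lib.GAD.Step
import Crest.Agent.Lib.GAD.Power
import Crest.Agent.Lib.GAD.Convex

set_option autoImplicit false
open Crest.Quantum Crest.MathPhysics.AmpDamp
open Crest Crest.MathPhysics

namespace Crest.Agent.S0534

open Crest.Agent.GADLib Matrix
open scoped ComplexOrder

/-- Continuity of the rate function. -/
private theorem continuous_gadRate (γ ν : ℝ) : Continuous (gadRate γ ν) := by
  unfold gadRate
  exact ((Real.binEntropy_continuous.comp (by fun_prop))).sub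
    (Real.binEntropy_continuous.comp (by fun_prop))

private theorem exists_max_gadRate (γ ν : ℝ) :
    ∃ p ∈ Set.Icc (0 : ℝ) 1, ∀ r ∈ Set.Icc (0 : ℝ) 1, gadRate γ ν r ≤ gadRate γ ν p := by
  obtain ⟨p, hp, hmax⟩ := (isCompact_Icc (a := (0 : ℝ)) (b := 1)).exists_isMaxOn
    ⟨0, by simp⟩ (continuous_gadRate γ ν).continuousOn
  exact ⟨p, hp, fun r hr => hmax hr⟩

/-- The trace of a diagonal block of a density matrix lies in `[0, 1]`. -/
private theorem block_trace_mem {d : Type} [Fintype d] [DecidableEq d]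
    {ρ : Matrix (Bool × d) (Bool × d) ℂ} (hρ : IsDensity ρ) :
    (block ρ true true).trace.re ∈ Set.Icc (0 : ℝ) 1 := by
  have hdiag : ∀ i, 0 ≤ (ρ i i).re := fun i => by
    have := hρ.1.diag_nonneg (i := i)
    exact (Complex.le_def.mp this).1
  have htr : ρ.trace.re = (block ρ false false).trace.re + (block ρ true true).trace.re := by
    simp [Matrix.trace, Fintype.sum_prod_type, block, add_comm]
  have h1 : ρ.trace.re = 1 := by rw [hρ.2]; simp
  have h0 : ∀ b : Bool, 0 ≤ (block ρ b b).trace.re := fun b => by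
    simp only [Matrix.trace, block, Matrix.diag, Complex.re_sum, Matrix.of_apply]
    exact Finset.sum_nonneg fun i _ => hdiag _
  have := h0 false
  have := h0 true
  exact ⟨h0 true, by linarith⟩

private theorem isDensity_submatrix {a b : Type} [Fintype a] [Fintype b] [DecidableEq a]
    [DecidableEq b] (E : a ≃ b) {M : Matrix b b ℂ} (hM : IsDensity M) :
    IsDensity (M.submatrix E E) := by
  refine ⟨hM.1.submatrix _, ?_⟩
  rw [← hM.2]
  simp only [Matrix.trace, Matrix.diag, Matrix.submatrix_apply]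
  exact E.sum_comp (fun i => M i i)

/-- The Holevo information is computed through the relabelling of `consE`. -/
private theorem holevo_power_succ (Φ : Matrix Bool Bool ℂ → Matrix Bool Bool ℂ) (n m : ℕ)
    (q : Fin m → ℝ) (ρ : Fin m → Matrix (Fin (n + 1) → Bool) (Fin (n + 1) → Bool) ℂ) :
    holevoInfo (qubitPower (n + 1) Φ) q ρ =
      holevoInfo (qubitTensor Φ (qubitPower n Φ)) q
        (fun a => (ρ a).submatrix (consE n) (consE n)) := by
  unfold holevoInfo
  congr 1
  · rw [← vnEntropy_submatrix_equiv (consE n) (∑ a, (q a : ℂ) • qubitPower (n + 1) Φ (ρ a))]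
    congr 1
    ext x y
    simp only [Matrix.submatrix_apply, Matrix.sum_apply, Matrix.smul_apply]
    refine Finset.sum_congr rfl fun a _ => ?_
    rw [← qubitPower_succ Φ n (ρ a)]
    rfl
  · refine Finset.sum_congr rfl fun a _ => ?_
    rw [← qubitPower_succ Φ n (ρ a), vnEntropy_submatrix_equiv]

/-- The zero-qubit case: all density matrices coincide. -/
private theorem density_zero {M : Matrix (Fin 0 → Bool) (Fin 0 → Bool) ℂ} (hM : IsDensity M) :
    M = 1 := by
  ext x y
  have hy : y = x := Subsingleton.elim _ _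
  subst hy
  have := hM.2
  simp only [Matrix.trace, Matrix.diag] at this
  rw [Fintype.sum_subsingleton _ y] at this
  simpa using this

private theorem qubitPower_zero (Φ : Matrix Bool Bool ℂ → Matrix Bool Bool ℂ)
    (M : Matrix (Fin 0 → Bool) (Fin 0 → Bool) ℂ) : qubitPower 0 Φ M = M := by
  ext x y
  simp only [qubitPower, Matrix.of_apply]
  rw [Fintype.sum_subsingleton _ x, Fintype.sum_subsingleton _ y]
  simp

private theorem holevo_zero (Φ : Matrix Bool Bool ℂ → Matrix Bool Bool ℂ) {m : ℕ}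
    {q : Fin m → ℝ} {ρ : Fin m → Matrix (Fin 0 → Bool) (Fin 0 → Bool) ℂ} (h : IsEnsemble q ρ) :
    holevoInfo (qubitPower 0 Φ) q ρ = 0 := by
  obtain ⟨_, h1, hd⟩ := h
  have hρ : ∀ a, ρ a = 1 := fun a => density_zero (hd a)
  unfold holevoInfo
  simp only [hρ, qubitPower_zero]
  have hs : ∑ a, (q a : ℂ) • (1 : Matrix (Fin 0 → Bool) (Fin 0 → Bool) ℂ) = 1 := by
    rw [← Finset.sum_smul, ← Complex.ofReal_sum, h1]
    simp
  rw [hs, ← Finset.sum_mul, h1]
  ring

/-- Upper bound: every ensemble has Holevo information at most `n` times the top rate. -/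
private theorem upper (γ ν : ℝ) (hγ : γ ∈ Set.Icc (0 : ℝ) 1) (hν : ν ∈ Set.Icc (0 : ℝ) 1)
    {R : ℝ} (hR : ∀ r ∈ Set.Icc (0 : ℝ) 1, gadRate γ ν r ≤ R) (n : ℕ) :
    ∀ (m : ℕ) (q : Fin m → ℝ) (ρ : Fin m → Matrix (Fin n → Bool) (Fin n → Bool) ℂ),
      IsEnsemble q ρ → holevoInfo (qubitPower n (gadMap γ ν)) q ρ ≤ n * R := by
  induction n with
  | zero =>
    intro m q ρ h
    rw [holevo_zero _ h]
    simp
  | succ n ih =>
    intro m q ρ h
    rw [holevo_power_succ]
    have hΨ := isChannel_qubitPower hγ hν n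
    have hens : IsEnsemble q (fun a => (ρ a).submatrix (consE n) (consE n)) :=
      ⟨h.1, h.2.1, fun a => isDensity_submatrix _ (h.2.2 a)⟩
    refine (holevo_step hγ hν hΨ hens).trans ?_
    obtain ⟨m₂, q₂, ρ₂, hens₂, heq⟩ := exists_ensemble_psi hΨ hens
    have h2 := ih m₂ q₂ ρ₂ hens₂
    rw [heq] at h2
    set ρ' := fun a => (ρ a).submatrix (consE n) (consE n) with hρ'
    have hpm : ∀ a, (block (ρ' a) true true).trace.re ∈ Set.Icc (0 : ℝ) 1 :=
      fun a => block_trace_mem (hens.2.2 a)
    have hbar : (∑ a, q a * (block (ρ' a) true true).trace.re) ∈ Set.Icc (0 : ℝ) 1 := by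
      have := (convex_Icc (0 : ℝ) 1).sum_mem (t := Finset.univ) (w := q)
        (z := fun a => (block (ρ' a) true true).trace.re)
        (fun a _ => h.1 a) h.2.1 (fun a _ => hpm a)
      simpa [smul_eq_mul] using this
    have hJ : gadF γ ν (∑ a, q a * (block (ρ' a) true true).trace.re) ≤
        ∑ a, q a * gadF γ ν (block (ρ' a) true true).trace.re := by
      have := (gadF_convexOn hγ hν).map_sum_le (t := Finset.univ) (w := q)
        (p := fun a => (block (ρ' a) true true).trace.re)
        (fun a _ => h.1 a) h.2.1 (fun a _ => hpm a)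
      simpa [smul_eq_mul] using this
    have h1 : Real.binEntropy ((1 - γ) * (∑ a, q a * (block (ρ' a) true true).trace.re) + γ * ν) -
        ∑ a, q a * gadF γ ν (block (ρ' a) true true).trace.re ≤ R := by
      have := hR _ hbar
      have heq : gadRate γ ν (∑ a, q a * (block (ρ' a) true true).trace.re) =
          Real.binEntropy ((1 - γ) * (∑ a, q a * (block (ρ' a) true true).trace.re) + γ * ν) -
            gadF γ ν (∑ a, q a * (block (ρ' a) true true).trace.re) := rfl
      linarith
    push_cast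
    linarith

/-- Lower bound: every rate is reached. -/
private theorem lower (γ ν : ℝ) (hγ : γ ∈ Set.Icc (0 : ℝ) 1) (hν : ν ∈ Set.Icc (0 : ℝ) 1)
    {p : ℝ} (hp : p ∈ Set.Icc (0 : ℝ) 1) (n : ℕ) :
    ∃ (m : ℕ) (q : Fin m → ℝ) (ρ : Fin m → Matrix (Fin n → Bool) (Fin n → Bool) ℂ),
      IsEnsemble q ρ ∧ n * gadRate γ ν p ≤ holevoInfo (qubitPower n (gadMap γ ν)) q ρ := by
  induction n with
  | zero =>
    refine ⟨1, fun _ => 1, fun _ => 1, ?_, ?_⟩
    · refine ⟨fun _ => zero_le_one, by simp, fun _ => ⟨Matrix.PosSemidef.one, ?_⟩⟩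
      simp [Matrix.trace]
    · have h : IsEnsemble (m := 1) (fun _ => (1 : ℝ))
          (fun _ => (1 : Matrix (Fin 0 → Bool) (Fin 0 → Bool) ℂ)) :=
        ⟨fun _ => zero_le_one, by simp, fun _ => ⟨Matrix.PosSemidef.one, by simp [Matrix.trace]⟩⟩
      rw [holevo_zero _ h]
      simp
  | succ n ih =>
    obtain ⟨m₂, q₂, ρ₂, hens₂, h2⟩ := ih
    have hΨ := isChannel_qubitPower hγ hν n
    obtain ⟨m₁, q₁, ρ₁, hens₁, h1⟩ := exists_ensemble_gad (m := 1) hγ hν (fun _ => (1 : ℝ))
      (fun _ => zero_le_one) (by simp) (fun _ => p) (fun _ => hp)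
    obtain ⟨m, q, ρ, hens, hle⟩ := exists_product_ensemble hγ hν hΨ hens₁ hens₂
    refine ⟨m, q, fun a => (ρ a).submatrix (consE n).symm (consE n).symm,
      ⟨hens.1, hens.2.1, fun a => ?_⟩, ?_⟩
    · exact isDensity_submatrix (consE n).symm (hens.2.2 a)
    · rw [holevo_power_succ]
      have hsub : (fun a => ((ρ a).submatrix (consE n).symm (consE n).symm).submatrix
          (consE n) (consE n)) = ρ := by
        funext a
        ext x y
        simp
      rw [hsub]
      have hrate : holevoInfo (gadMap γ ν) q₁ ρ₁ = gadRate γ ν p := by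
        rw [h1]
        simp only [Fin.sum_univ_one, one_mul]
        rfl
      rw [hrate] at hle
      push_cast
      linarith

/-- For the generalized amplitude-damping qubit channel with damping `γ` and stationary excited population `ν` in `[0, 1]`, and every `n ≥ 1`: the Holevo information (nats) of every finite ensemble of `n`-qubit density matrices through the `n`-fold tensor power of the channel is at most `n` times the rate function at some point of `[0, 1]`, and for every `p` in `[0, 1]` some such ensemble reaches at least `n` times the rate at `p`. So the `n`-use Holevo capacity is `n` times the top rate. -/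
theorem result (γ ν : ℝ) (hγ : γ ∈ Set.Icc (0 : ℝ) 1)
    (hν : ν ∈ Set.Icc (0 : ℝ) 1) (n : ℕ) (hn : 1 ≤ n) :
    (∀ (m : ℕ) (q : Fin m → ℝ) (ρ : Fin m → Matrix (Fin n → Bool) (Fin n → Bool) ℂ),
        IsEnsemble q ρ → ∃ p ∈ Set.Icc (0 : ℝ) 1,
          holevoInfo (qubitPower n (gadMap γ ν)) q ρ ≤ n * gadRate γ ν p) ∧
    (∀ p ∈ Set.Icc (0 : ℝ) 1, ∃ (m : ℕ) (q : Fin m → ℝ)
        (ρ : Fin m → Matrix (Fin n → Bool) (Fin n → Bool) ℂ),
        IsEnsemble q ρ ∧ n * gadRate γ ν p ≤ holevoInfo (qubitPower n (gadMap γ ν)) q ρ) := by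
  refine ⟨fun m q ρ h => ?_, fun p hp => lower γ ν hγ hν hp n⟩
  obtain ⟨p, hp, hmax⟩ := exists_max_gadRate γ ν
  exact ⟨p, hp, upper γ ν hγ hν hmax n m q ρ h⟩

end Crest.Agent.S0534
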