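import Crest.Statements.S0535
import Crest.Agent.Lib.GAD.Step
import Crest.Agent.Lib.GAD.Power

set_option autoImplicit false
open Crest.Quantum Crest.MathPhysics.AmpDamp
open Crest Crest.MathPhysics

namespace Crest.Agent.S0535

open Matrix Crest.Agent.GADLib
open scoped ComplexOrder Kronecker

section Aux

variable {d e : Type} [Fintype d] [Fintype e] [DecidableEq d] [DecidableEq e]

/-- The excited population of a density matrix lies in the unit interval. -/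
theorem population_mem {ρ : Matrix (Bool × d) (Bool × d) ℂ} (hρ : IsDensity ρ) :
    (block ρ true true).trace.re ∈ Set.Icc (0 : ℝ) 1 := by
  have h1 : 0 ≤ (block ρ true true).trace := (block_posSemidef hρ.1 true).trace_nonneg
  have h0 : 0 ≤ (block ρ false false).trace := (block_posSemidef hρ.1 false).trace_nonneg
  have hsum : (block ρ false false).trace + (block ρ true true).trace = 1 := by
    rw [← hρ.2]
    simp [Matrix.trace, Fintype.sum_prod_type, block, add_comm]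
  have hre : (block ρ false false).trace.re + (block ρ true true).trace.re = 1 := by
    have := congrArg Complex.re hsum
    simpa using this
  have h1' : 0 ≤ (block ρ true true).trace.re := (Complex.le_def.mp h1).1
  have h0' : 0 ≤ (block ρ false false).trace.re := (Complex.le_def.mp h0).1
  exact ⟨h1', by linarith⟩

/-- A channel sends density matrices to density matrices. -/
theorem IsChannel.density {Ψ : Matrix d d ℂ → Matrix e e ℂ} (hΨ : IsChannel Ψ)
    {ρ : Matrix d d ℂ} (hρ : IsDensity ρ) : IsDensity (Ψ ρ) := by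
  refine ⟨?_, by rw [hΨ.2.2 ρ]; exact hρ.2⟩
  let N : Matrix (Unit × d) (Unit × d) ℂ := ρ.submatrix Prod.snd Prod.snd
  have hN : N.PosSemidef := hρ.1.submatrix _
  have h := cp_aux hΨ.2.1 N hN
  have hb : block N () () = ρ := by
    ext i j; simp [block, N]
  have : Ψ ρ = (blockwise (k := Unit) Ψ N).submatrix (fun i => ((), i)) (fun i => ((), i)) := by
    ext i j
    simp [blockwise, hb]
  rw [this]
  exact h.submatrix _

/-- The tensor product map on a tensor product input. -/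
theorem qubitTensor_kronecker {γ ν : ℝ} {Ψ : Matrix d d ℂ → Matrix e e ℂ} (hΨ : IsChannel Ψ)
    (X : Matrix Bool Bool ℂ) (Y : Matrix d d ℂ) :
    qubitTensor (gadMap γ ν) Ψ (X ⊗ₖ Y) = gadMap γ ν X ⊗ₖ Ψ Y := by
  have hb : ∀ s t : Bool, block (X ⊗ₖ Y) s t = X s t • Y := by
    intro s t; ext i j; simp [block, Matrix.kroneckerMap_apply]
  have hlin := isLinearMap_gadMap γ ν
  have hX : X = ∑ s', ∑ t', X s' t' • (Matrix.single s' t' (1 : ℂ)) := by
    ext a b
    simp [Fintype.sum_bool, Matrix.single_apply, Matrix.add_apply, Matrix.smul_apply]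
    cases a <;> cases b <;> simp
  have hΦ : ∀ a b : Bool, gadMap γ ν X a b =
      ∑ s', ∑ t', qubitCoeff (gadMap γ ν) a b s' t' * X s' t' := by
    intro a b
    conv_lhs => rw [hX]
    simp only [Fintype.sum_bool, qubitCoeff, hlin.map_add, hlin.map_smul, Matrix.add_apply,
      Matrix.smul_apply, smul_eq_mul]
    ring
  ext ⟨a, i⟩ ⟨b, j⟩
  simp only [qubitTensor, Matrix.of_apply, Matrix.kroneckerMap_apply, hb, hΨ.1.map_smul,
    Matrix.smul_apply, smul_eq_mul, hΦ a b]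
  simp only [Finset.sum_mul]
  refine Finset.sum_congr rfl fun s _ => Finset.sum_congr rfl fun t _ => ?_
  ring

end Aux

/-- Tensor the generalized amplitude-damping qubit channel (parameters in `[0, 1]`) with any channel `Ψ` between nonzero finite-dimensional systems (linear, completely positive, trace preserving): Holevo capacity and minimum output entropy (nats) are additive: each ensemble for the product map is matched, up to any `ε > 0`, by ensembles for the two factors whose Holevo informations add up to at least as much, and conversely; likewise, reversed, for output entropies of single states. -/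
theorem result (γ ν : ℝ)
    (hγ : γ ∈ Set.Icc (0 : ℝ) 1) (hν : ν ∈ Set.Icc (0 : ℝ) 1)
    (d e : Type) [Fintype d] [Fintype e] [DecidableEq d] [DecidableEq e] [Nonempty d] [Nonempty e]
    (Ψ : Matrix d d ℂ → Matrix e e ℂ) (hΨ : IsChannel Ψ) :
    (∀ (m : ℕ) (q : Fin m → ℝ) (ρ : Fin m → Matrix (Bool × d) (Bool × d) ℂ), IsEnsemble q ρ →
      ∀ ε > (0 : ℝ), ∃ (m₁ : ℕ) (q₁ : Fin m₁ → ℝ) (ρ₁ : Fin m₁ → Matrix Bool Bool ℂ)
        (m₂ : ℕ) (q₂ : Fin m₂ → ℝ) (ρ₂ : Fin m₂ → Matrix d d ℂ),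
        IsEnsemble q₁ ρ₁ ∧ IsEnsemble q₂ ρ₂ ∧
          holevoInfo (qubitTensor (gadMap γ ν) Ψ) q ρ ≤
            holevoInfo (gadMap γ ν) q₁ ρ₁ + holevoInfo Ψ q₂ ρ₂ + ε) ∧
    (∀ (m₁ : ℕ) (q₁ : Fin m₁ → ℝ) (ρ₁ : Fin m₁ → Matrix Bool Bool ℂ)
      (m₂ : ℕ) (q₂ : Fin m₂ → ℝ) (ρ₂ : Fin m₂ → Matrix d d ℂ), IsEnsemble q₁ ρ₁ → IsEnsemble q₂ ρ₂ →
      ∃ (m : ℕ) (q : Fin m → ℝ) (ρ : Fin m → Matrix (Bool × d) (Bool × d) ℂ), IsEnsemble q ρ ∧
        holevoInfo (gadMap γ ν) q₁ ρ₁ + holevoInfo Ψ q₂ ρ₂ ≤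
          holevoInfo (qubitTensor (gadMap γ ν) Ψ) q ρ) ∧
    (∀ ρ : Matrix (Bool × d) (Bool × d) ℂ, IsDensity ρ → ∀ ε > (0 : ℝ),
      ∃ (ρ₁ : Matrix Bool Bool ℂ) (ρ₂ : Matrix d d ℂ), IsDensity ρ₁ ∧ IsDensity ρ₂ ∧
        vnEntropy (gadMap γ ν ρ₁) + vnEntropy (Ψ ρ₂) ≤ vnEntropy (qubitTensor (gadMap γ ν) Ψ ρ) + ε) ∧
    (∀ (ρ₁ : Matrix Bool Bool ℂ) (ρ₂ : Matrix d d ℂ), IsDensity ρ₁ → IsDensity ρ₂ →
      ∃ ρ : Matrix (Bool × d) (Bool × d) ℂ, IsDensity ρ ∧
        vnEntropy (qubitTensor (gadMap γ ν) Ψ ρ) ≤ vnEntropy (gadMap γ ν ρ₁) + vnEntropy (Ψ ρ₂)) := by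
  refine ⟨?_, ?_, ?_, ?_⟩
  · intro m q ρ hens ε hε
    obtain ⟨m₁, q₁, ρ₁, h₁, hH₁⟩ := exists_ensemble_gad hγ hν q hens.1 hens.2.1
      (fun a => (block (ρ a) true true).trace.re) (fun a => population_mem (hens.2.2 a))
    obtain ⟨m₂, q₂, ρ₂, h₂, hH₂⟩ := exists_ensemble_psi hΨ hens
    refine ⟨m₁, q₁, ρ₁, m₂, q₂, ρ₂, h₁, h₂, ?_⟩
    have := holevo_step hγ hν hΨ hens
    rw [hH₁, hH₂]
    linarith
  · intro m₁ q₁ ρ₁ m₂ q₂ ρ₂ h₁ h₂
    exact exists_product_ensemble hγ hν hΨ h₁ h₂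
  · intro ρ hρ ε hε
    obtain ⟨ρ₁, h₁, hS₁⟩ := exists_pure_gad hγ hν (population_mem hρ)
    obtain ⟨ρ₂, h₂, hS₂⟩ := exists_state_psi hΨ hρ
    refine ⟨ρ₁, ρ₂, h₁, h₂, ?_⟩
    have := key_lemma hγ hν hΨ hρ
    rw [hS₁]
    linarith
  · intro ρ₁ ρ₂ h₁ h₂
    refine ⟨ρ₁ ⊗ₖ ρ₂, ⟨h₁.1.kronecker h₂.1, ?_⟩, ?_⟩
    · rw [Matrix.trace_kronecker, h₁.2, h₂.2, one_mul]
    · rw [qubitTensor_kronecker hΨ, vnEntropy_kronecker
        (IsChannel.density (isChannel_gadMap hγ hν) h₁) (IsChannel.density hΨ h₂)]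

end Crest.Agent.S0535
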